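import Mathlib

namespace Vale.Agent.P046

theorem arith_noise {m D Q U : ℝ} (hm : 60 ≤ m) (hD : 40 ≤ D) (hDm : D ≤ m) (hQ0 : 0 ≤ Q)
    (hU0 : 0 ≤ U) :
    54 * D / (m - 3) * (3 * Q * D + U + Q * (D + 2)) + 54 * (3 * Q * D + U) +
        81 / (m - 3) * (3 * m * (3 * Q * D + U) + Q * (D + 2) ^ 2) ≤
        367 * U + 1256 * (Q * D) := by
  have hm3 : 0 < m - 3 := by linarith
  have hmpos : 0 < m := by linarith
  have hr : 1 / (m - 3) ≤ 20 / 19 / m := by
    rw [div_le_div_iff₀ hm3 hmpos]; linarith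
  have hr0 : 0 < 1 / (m - 3) := by positivity
  set r := 1 / (m - 3) with hrdef
  have hDr : D * r ≤ 20 / 19 := by
    calc D * r ≤ m * (20 / 19 / m) := mul_le_mul hDm hr hr0.le hmpos.le
      _ = 20 / 19 := by field_simp
  have hmr : m * r ≤ 20 / 19 := by
    calc m * r ≤ m * (20 / 19 / m) := mul_le_mul_of_nonneg_left hr hmpos.le
      _ = 20 / 19 := by field_simp
  have hD0 : 0 < D := by linarith
  have hA : 0 ≤ 3 * Q * D + U := by positivity
  have e : 54 * D / (m - 3) * (3 * Q * D + U + Q * (D + 2)) + 54 * (3 * Q * D + U) +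
      81 / (m - 3) * (3 * m * (3 * Q * D + U) + Q * (D + 2) ^ 2) =
      54 * (D * r) * (3 * Q * D + U) + 54 * (D * r) * (Q * (D + 2)) +
      54 * (3 * Q * D + U) + 243 * (m * r) * (3 * Q * D + U) +
      81 * r * (Q * (D + 2) ^ 2) := by rw [hrdef]; ring
  rw [e]
  have hQD : 0 ≤ Q * D := by positivity
  have hD2 : Q * (D + 2) ≤ 21 / 20 * (Q * D) := by
    have : 0 ≤ Q * (D / 20 - 2) := mul_nonneg hQ0 (by linarith)
    linarith
  have hD3 : Q * (D + 2) ^ 2 ≤ 441 / 400 * (Q * D) * D := by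
    have h1 : (D + 2) ^ 2 ≤ (21 / 20 * D) ^ 2 := pow_le_pow_left₀ (by linarith) (by linarith) 2
    calc Q * (D + 2) ^ 2 ≤ Q * (21 / 20 * D) ^ 2 := mul_le_mul_of_nonneg_left h1 hQ0
      _ = 441 / 400 * (Q * D) * D := by ring
  have t1 : 54 * (D * r) * (3 * Q * D + U) ≤ 54 * (20 / 19) * (3 * Q * D + U) :=
    mul_le_mul_of_nonneg_right (by linarith) hA
  have t2 : 54 * (D * r) * (Q * (D + 2)) ≤ 54 * (20 / 19) * (21 / 20 * (Q * D)) :=
    mul_le_mul (by linarith) hD2 (by positivity) (by norm_num)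
  have t3 : 243 * (m * r) * (3 * Q * D + U) ≤ 243 * (20 / 19) * (3 * Q * D + U) :=
    mul_le_mul_of_nonneg_right (by linarith) hA
  have t4 : 81 * r * (Q * (D + 2) ^ 2) ≤ 81 * (441 / 400) * (20 / 19) * (Q * D) := by
    calc 81 * r * (Q * (D + 2) ^ 2) ≤ 81 * r * (441 / 400 * (Q * D) * D) :=
          mul_le_mul_of_nonneg_left hD3 (by positivity)
      _ = 81 * (441 / 400) * (D * r) * (Q * D) := by ring
      _ ≤ 81 * (441 / 400) * (20 / 19) * (Q * D) :=
        mul_le_mul_of_nonneg_right (mul_le_mul_of_nonneg_left hDr (by norm_num)) hQD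
  linarith

theorem arith_main {m D Q w y U E X : ℝ} (hm : 60 ≤ m) (hD : 40 ≤ D)
    (hQ : D * m = 3 * Q) (hU0 : 0 ≤ U)
    (hE : (2 * D - 2) * X - D * w ≤ E) (hX : X + D * y = 2 * w) (hy : -(D * y) ≤ 4 * w) :
    Q * w - E + 3 / (m - 3) * (Q * (D + 2) - (3 * Q * D + U)) * y ≤
      Q * w + (-3 * D + 4) * w + (6 * D ^ 2 - 6 * D + 3 * U) / (m - 3) * (4 * w / D) := by
  have hm3 : 0 < m - 3 := by linarith
  have hD0 : 0 < D := by linarith
  have hQe : Q = m * D / 3 := by linarith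
  have hXe : X = 2 * w - D * y := by linarith
  have h2 : Q * w - ((2 * D - 2) * X - D * w) +
      3 / (m - 3) * (Q * (D + 2) - (3 * Q * D + U)) * y =
      Q * w + (-3 * D + 4) * w + (6 * D ^ 2 - 6 * D + 3 * U) / (m - 3) * (-y) := by
    rw [hXe, hQe]; field_simp; ring
  have h3 : -y ≤ 4 * w / D := by
    rw [le_div_iff₀ hD0]; linarith
  have h4 : 0 ≤ (6 * D ^ 2 - 6 * D + 3 * U) / (m - 3) := by
    apply div_nonneg _ hm3.le
    nlinarith
  have h5 := mul_le_mul_of_nonneg_left h3 h4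
  linarith

theorem arith_last {m D Q w U : ℝ} (hm : 60 ≤ m) (hD : 40 ≤ D) (hDm : D ≤ m)
    (hQ : D * m = 3 * Q) (hw0 : 0 ≤ w) (hUw : U ≤ w) :
    Q * w + (-3 * D + 4) * w + (6 * D ^ 2 - 6 * D + 3 * U) / (m - 3) * (4 * w / D) +
      (367 * U + 1256 * (Q * D)) ≤
      Q * (w * (1 - 9 / m + 1200 / (m * D) + 36 * U / (m * D ^ 2 * (m - 3))) + 1300 * D) := by
  have hm3 : 0 < m - 3 := by linarith
  have hmpos : 0 < m := by linarith
  have hD0 : 0 < D := by linarith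
  have hQe : Q = m * D / 3 := by linarith
  have hr : 1 / (m - 3) ≤ 20 / 19 / m := by
    rw [div_le_div_iff₀ hm3 hmpos]; linarith
  have hr0 : 0 < 1 / (m - 3) := by positivity
  have hDr : D * (1 / (m - 3)) ≤ 20 / 19 := by
    calc D * (1 / (m - 3)) ≤ m * (20 / 19 / m) := mul_le_mul hDm hr hr0.le hmpos.le
      _ = 20 / 19 := by field_simp
  have e : Q * (w * (1 - 9 / m + 1200 / (m * D) + 36 * U / (m * D ^ 2 * (m - 3))) + 1300 * D) =
      Q * w - 3 * D * w + 400 * w + 12 * U * w / (D * (m - 3)) + 1300 * (Q * D) := by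
    rw [hQe]; field_simp; ring
  have e2 : (6 * D ^ 2 - 6 * D + 3 * U) / (m - 3) * (4 * w / D) =
      24 * (D * (1 / (m - 3))) * w - 24 * (1 / (m - 3)) * w + 12 * U * w / (D * (m - 3)) := by
    field_simp; ring
  rw [e, e2]
  have h1 : 24 * (D * (1 / (m - 3))) * w ≤ 24 * (20 / 19) * w :=
    mul_le_mul_of_nonneg_right (mul_le_mul_of_nonneg_left hDr (by norm_num)) hw0
  have h2 : 0 ≤ 24 * (1 / (m - 3)) * w := by positivity
  have h3 : 0 ≤ Q * D := by rw [hQe]; positivity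
  linarith

theorem arith_step {m D Q w y U E X S Ws : ℝ} (hm : 60 ≤ m) (hD : 40 ≤ D) (hDm : D ≤ m)
    (hQ : D * m = 3 * Q) (hU0 : 0 ≤ U) (hUw : U ≤ w) (hS : U = S - m * D ^ 2)
    (hE : (2 * D - 2) * X - D * w ≤ E) (hX : X + D * y = 2 * w) (hy : -(D * y) ≤ 4 * w)
    (hsum : Ws ≤ Q * w - E + 3 / (m - 3) * (Q * (D + 2) - S) * y +
      (54 * D / (m - 3) * (S + Q * (D + 2)) + 54 * S +
        81 / (m - 3) * (3 * m * S + Q * (D + 2) ^ 2))) :
    Ws ≤ Q * (w * (1 - 9 / m + 1200 / (m * D) + 36 * U / (m * D ^ 2 * (m - 3))) + 1300 * D) := by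
  have hS2 : S = 3 * Q * D + U := by rw [hS]; linear_combination D * hQ
  have hQ0 : 0 ≤ Q := by nlinarith
  rw [hS2] at hsum
  have h1 := arith_noise hm hD hDm hQ0 hU0
  have h2 := arith_main hm hD hQ hU0 hE hX hy
  have h3 := arith_last hm hD hDm hQ (hU0.trans hUw) hUw
  linarith

end Vale.Agent.P046
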