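import Mathlib

namespace Vale.Agent.P046

noncomputable def Qh (κ m : ℝ) : ℝ := κ / 3 * (m * (m - 3) * (m - 6))
noncomputable def al (κ μ m : ℝ) : ℝ := 200 / (κ ^ 2 * μ ^ 2) / m ^ 3 * (1 - μ ^ 2 / (2 * m ^ 2))
noncomputable def cc (κ μ m : ℝ) : ℝ := 255000 / (κ * μ ^ 2) * Real.log (m / μ)

theorem al_nonneg {κ μ m : ℝ} (hμ : 0 < μ) (hm : μ ≤ m) : 0 ≤ al κ μ m := by
  have hm0 : 0 < m := by linarith
  unfold al
  have : μ ^ 2 / (2 * m ^ 2) ≤ 1 := by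
    rw [div_le_one (by positivity)]; nlinarith
  have h2 : 0 ≤ 1 - μ ^ 2 / (2 * m ^ 2) := by linarith
  positivity

theorem cc_nonneg {κ μ m : ℝ} (hκ : 0 < κ) (hμ : 0 < μ) (hm : μ ≤ m) : 0 ≤ cc κ μ m := by
  unfold cc
  have : 0 ≤ Real.log (m / μ) := Real.log_nonneg (by rw [le_div_iff₀ hμ]; linarith)
  positivity

theorem Dbar_lower {κ m : ℝ} (hκ : 0 < κ) (hm : 60 ≤ m) :
    855 / 1000 * κ * m ^ 2 ≤ κ * (m - 3) * (m - 6) := by
  have h : 0 ≤ (m - 3) * (m - 6) - 855 / 1000 * m ^ 2 := by nlinarith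
  have := mul_nonneg hκ.le h
  linarith

theorem Dbar_upper {κ m : ℝ} (hκ : 0 < κ) (hm : 60 ≤ m) :
    κ * (m - 3) * (m - 6) ≤ κ * m ^ 2 := by
  have h : 0 ≤ m ^ 2 - (m - 3) * (m - 6) := by nlinarith
  have := mul_nonneg hκ.le h
  linarith

theorem Dbar_big {κ μ m : ℝ} (hκ : 0 < κ) (hμ : 60 ≤ μ) (hm : μ ≤ m)
    (hκμ : 2390 ≤ κ * μ ^ 2) : 2043 ≤ κ * (m - 3) * (m - 6) := by
  have h1 := Dbar_lower hκ (by linarith : 60 ≤ m)
  have h2 : μ ^ 2 ≤ m ^ 2 := pow_le_pow_left₀ (by linarith) hm 2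
  have h3 := mul_le_mul_of_nonneg_left h2 hκ.le
  linarith

theorem term1 {κ m B D : ℝ} (hκ : 0 < κ) (hm : 0 < m) (hBlow : 855 / 1000 * κ * m ^ 2 ≤ B)
    (hDlow : 11 / 16 * B ≤ D) : 1200 / (m * D) ≤ 2042 / (κ * m ^ 3) := by
  have hκm : 0 < κ * m ^ 2 := by positivity
  have hD : 0 < D := by linarith
  have h1 : 1200 / 2042 * (κ * m ^ 2) ≤ D := by linarith
  have h2 := mul_le_mul_of_nonneg_left h1 hm.le
  rw [div_le_div_iff₀ (by positivity) (by positivity)]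
  have h3 : m * (1200 / 2042 * (κ * m ^ 2)) = 1200 / 2042 * (κ * m ^ 3) := by ring
  rw [h3] at h2
  linarith

theorem term2 {κ m B Q Q' : ℝ} (hκ : 0 < κ) (hm : 0 < m) (hBlow : 855 / 1000 * κ * m ^ 2 ≤ B)
    (hQ : 11 / 16 * (m * B / 3) ≤ Q) (hQ' : 85 / 100 * (m * B / 3) ≤ Q') :
    16 / (Q * Q') ≤ 340 / (κ ^ 2 * m ^ 6) := by
  have hκm : 0 < κ * m ^ 2 := by positivity
  have hB : 0 < B := by linarith
  have hmB : 0 < m * B := by positivity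
  have hQp : 0 < Q := by linarith
  have hQp' : 0 < Q' := by linarith
  have hmB2 : 855 / 1000 * (κ * m ^ 3) ≤ m * B := by
    have := mul_le_mul_of_nonneg_left hBlow hm.le
    have e : m * (855 / 1000 * κ * m ^ 2) = 855 / 1000 * (κ * m ^ 3) := by ring
    linarith
  have hκm3 : 0 < κ * m ^ 3 := by positivity
  have h1 : 195 / 1000 * (κ * m ^ 3) ≤ Q := by linarith
  have h2 : 242 / 1000 * (κ * m ^ 3) ≤ Q' := by linarith
  have h3 : 195 / 1000 * (κ * m ^ 3) * (242 / 1000 * (κ * m ^ 3)) ≤ Q * Q' :=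
    mul_le_mul h1 h2 (by positivity) hQp.le
  have e : 195 / 1000 * (κ * m ^ 3) * (242 / 1000 * (κ * m ^ 3)) =
    195 / 1000 * (242 / 1000) * (κ ^ 2 * m ^ 6) := by ring
  rw [e] at h3
  have h4 : 0 < κ ^ 2 * m ^ 6 := by positivity
  rw [div_le_div_iff₀ (by positivity) (by positivity)]
  linarith

theorem term3 {κ m B Q Q' : ℝ} (hκ : 0 < κ) (hm : 0 < m) (hBlow : 855 / 1000 * κ * m ^ 2 ≤ B)
    (hB2 : 2043 ≤ B)
    (hQ : 11 / 16 * (m * B / 3) ≤ Q) (hQ' : 85 / 100 * (m * B / 3) ≤ Q') :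
    48 * m / (Q * Q' ^ 2) ≤ 57 / (κ ^ 2 * m ^ 6) := by
  have hκm : 0 < κ * m ^ 2 := by positivity
  have hB : 0 < B := by linarith
  have hmB : 0 < m * B := by positivity
  have hQp : 0 < Q := by linarith
  have hQp' : 0 < Q' := by linarith
  have hκm3 : 0 < κ * m ^ 3 := by positivity
  have hmB2 : 855 / 1000 * (κ * m ^ 3) ≤ m * B := by
    have := mul_le_mul_of_nonneg_left hBlow hm.le
    have e : m * (855 / 1000 * κ * m ^ 2) = 855 / 1000 * (κ * m ^ 3) := by ring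
    linarith
  have hmB3 : 2043 * m ≤ m * B := by
    have := mul_le_mul_of_nonneg_left hB2 hm.le
    linarith
  have h1 : 468 * m ≤ Q := by linarith
  have h2 : 242 / 1000 * (κ * m ^ 3) ≤ Q' := by linarith
  have h3 : (242 / 1000 * (κ * m ^ 3)) ^ 2 ≤ Q' ^ 2 := pow_le_pow_left₀ (by positivity) h2 2
  have h4 : 468 * m * (242 / 1000 * (κ * m ^ 3)) ^ 2 ≤ Q * Q' ^ 2 :=
    mul_le_mul h1 h3 (by positivity) hQp.le
  have e : 468 * m * (242 / 1000 * (κ * m ^ 3)) ^ 2 =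
    468 * (242 / 1000) ^ 2 * (m * (κ ^ 2 * m ^ 6)) := by ring
  rw [e] at h4
  have h5 : 0 < m * (κ ^ 2 * m ^ 6) := by positivity
  rw [div_le_div_iff₀ (by positivity) (by positivity)]
  have e2 : 48 * m * (κ ^ 2 * m ^ 6) = 48 * (m * (κ ^ 2 * m ^ 6)) := by ring
  rw [e2]
  linarith

theorem cube1 {m : ℝ} (hm : 9 ≤ m) : m ^ 2 * (m - 9) ≤ (m - 3) ^ 3 := by
  have : (m - 3) ^ 3 - m ^ 2 * (m - 9) = 27 * (m - 1) := by ring
  linarith

theorem cube2 {m : ℝ} (hm : 60 ≤ m) : m ^ 3 ≤ 117 / 100 * (m - 3) ^ 3 := by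
  have h1 : m ≤ 20 / 19 * (m - 3) := by linarith
  have h2 : m ^ 3 ≤ (20 / 19 * (m - 3)) ^ 3 := pow_le_pow_left₀ (by linarith) h1 3
  have h4 : 0 < m - 3 := by linarith
  have h3 : 0 < (m - 3) ^ 3 := by positivity
  have e : (20 / 19 * (m - 3)) ^ 3 = 8000 / 6859 * (m - 3) ^ 3 := by ring
  rw [e] at h2
  linarith

theorem rec1 {m : ℝ} (hm : 60 ≤ m) : 1 / (m - 3) ^ 3 * (1 - 9 / m) ≤ 1 / m ^ 3 := by
  have hm0 : 0 < m := by linarith
  have hm3 : 0 < m - 3 := by linarith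
  have e : 1 / (m - 3) ^ 3 * (1 - 9 / m) = (m - 9) / (m * (m - 3) ^ 3) := by field_simp
  rw [e, div_le_div_iff₀ (by positivity) (by positivity)]
  have h := mul_le_mul_of_nonneg_left (cube1 (by linarith : 9 ≤ m)) hm0.le
  have e2 : (m - 9) * m ^ 3 = m * (m ^ 2 * (m - 9)) := by ring
  rw [e2]
  linarith

theorem rec2 {κ m X : ℝ} (hκ : 0 < κ) (hm : 60 ≤ m) (hX0 : 0 ≤ X) (hX : X ≤ 2042 / (κ * m ^ 3)) :
    1 / (m - 3) ^ 3 * X ≤ 2390 / (κ * m ^ 6) := by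
  have hm0 : 0 < m := by linarith
  have hm3 : 0 < m - 3 := by linarith
  calc 1 / (m - 3) ^ 3 * X ≤ (117 / 100 / m ^ 3) * (2042 / (κ * m ^ 3)) := by
        refine mul_le_mul ?_ hX hX0 (by positivity)
        rw [div_le_div_iff₀ (by positivity) (by positivity)]
        have := cube2 hm
        linarith
    _ = (117 / 100 * 2042) / (κ * m ^ 6) := by field_simp
    _ ≤ 2390 / (κ * m ^ 6) := div_le_div_of_nonneg_right (by norm_num) (by positivity)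

theorem rec5 {m : ℝ} (hm : 60 ≤ m) : 6 / m ^ 3 ≤ 1 / (m - 3) ^ 2 - 1 / m ^ 2 := by
  have hm0 : 0 < m := by linarith
  have hm3 : 0 < m - 3 := by linarith
  have : 1 / (m - 3) ^ 2 - 1 / m ^ 2 - 6 / m ^ 3 = (27 * m - 54) / ((m - 3) ^ 2 * m ^ 3) := by
    field_simp; ring
  have h2 : 0 ≤ (27 * m - 54) / ((m - 3) ^ 2 * m ^ 3) := by
    apply div_nonneg _ (by positivity); linarith
  linarith

theorem g_nonneg {μ m : ℝ} (hμ : 0 < μ) (hm : μ ≤ m) : 0 ≤ 1 - μ ^ 2 / (2 * m ^ 2) := by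
  have hm0 : 0 < m := by linarith
  have : μ ^ 2 / (2 * m ^ 2) ≤ 1 := by
    rw [div_le_one (by positivity)]; nlinarith
  linarith

theorem g_le_one {μ m : ℝ} : 1 - μ ^ 2 / (2 * m ^ 2) ≤ 1 := by
  have : 0 ≤ μ ^ 2 / (2 * m ^ 2) := by positivity
  linarith

theorem rec4 {κ μ m X : ℝ} (hκ : 0 < κ) (hμ : 60 ≤ μ) (hm : μ + 3 ≤ m)
    (hX0 : 0 ≤ X) (hX : X ≤ 2042 / (κ * m ^ 3)) :
    al κ μ (m - 3) * (1 - 9 / m + X) ≤
      200 / (κ ^ 2 * μ ^ 2) * ((1 - μ ^ 2 / (2 * (m - 3) ^ 2)) / m ^ 3 + 2390 / (κ * m ^ 6)) := by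
  have hm60 : 60 ≤ m := by linarith
  have hm0 : 0 < m := by linarith
  have hμ0 : 0 < μ := by linarith
  have e : al κ μ (m - 3) * (1 - 9 / m + X) =
      200 / (κ ^ 2 * μ ^ 2) * ((1 - μ ^ 2 / (2 * (m - 3) ^ 2)) *
        (1 / (m - 3) ^ 3 * (1 - 9 / m) + 1 / (m - 3) ^ 3 * X)) := by
    unfold al; ring
  rw [e]
  refine mul_le_mul_of_nonneg_left ?_ (by positivity)
  have r3 := add_le_add (rec1 hm60) (rec2 hκ hm60 hX0 hX)
  have hg0 := g_nonneg hμ0 (by linarith : μ ≤ m - 3)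
  have h1 := mul_le_mul_of_nonneg_left r3 hg0
  have h2 : 0 ≤ 2390 / (κ * m ^ 6) := by positivity
  have h3 : (1 - μ ^ 2 / (2 * (m - 3) ^ 2)) * (2390 / (κ * m ^ 6)) ≤ 2390 / (κ * m ^ 6) :=
    mul_le_of_le_one_left h2 g_le_one
  have h4 : (1 - μ ^ 2 / (2 * (m - 3) ^ 2)) * (1 / m ^ 3) =
    (1 - μ ^ 2 / (2 * (m - 3) ^ 2)) / m ^ 3 := by ring
  linarith

theorem rec6 {κ μ m : ℝ} (hκ : 0 < κ) (hμ : 60 ≤ μ) (hm : μ + 3 ≤ m)
    (hκμ : 2390 ≤ κ * μ ^ 2) :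
    200 / (κ ^ 2 * μ ^ 2) * ((1 - μ ^ 2 / (2 * (m - 3) ^ 2)) / m ^ 3 + 2390 / (κ * m ^ 6)) +
      397 / (κ ^ 2 * m ^ 6) ≤ al κ μ m := by
  have hm60 : 60 ≤ m := by linarith
  have hm0 : 0 < m := by linarith
  have hμ0 : 0 < μ := by linarith
  have hm3 : 0 < m - 3 := by linarith
  set A := 200 / (κ ^ 2 * μ ^ 2) with hA
  have hApos : 0 < A := by positivity
  have e : al κ μ m - A * ((1 - μ ^ 2 / (2 * (m - 3) ^ 2)) / m ^ 3 + 2390 / (κ * m ^ 6)) =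
      A * μ ^ 2 / (2 * m ^ 3) * (1 / (m - 3) ^ 2 - 1 / m ^ 2) - A * (2390 / (κ * m ^ 6)) := by
    have e1 : μ ^ 2 / (2 * (m - 3) ^ 2) = μ ^ 2 / 2 * (1 / (m - 3) ^ 2) := by
      rw [div_mul_div_comm, mul_one]
    have e2 : μ ^ 2 / (2 * m ^ 2) = μ ^ 2 / 2 * (1 / m ^ 2) := by
      rw [div_mul_div_comm, mul_one]
    unfold al; rw [← hA, e1, e2]; ring
  have h1 : A * μ ^ 2 / (2 * m ^ 3) * (6 / m ^ 3) ≤
      A * μ ^ 2 / (2 * m ^ 3) * (1 / (m - 3) ^ 2 - 1 / m ^ 2) :=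
    mul_le_mul_of_nonneg_left (rec5 hm60) (by positivity)
  have h2 : A * μ ^ 2 / (2 * m ^ 3) * (6 / m ^ 3) - A * (2390 / (κ * m ^ 6)) =
      (600 - 200 * (2390 / (κ * μ ^ 2))) / (κ ^ 2 * m ^ 6) := by
    rw [hA]; field_simp
    try ring
  have h3 : 2390 / (κ * μ ^ 2) ≤ 1 := by rw [div_le_one (by positivity)]; exact hκμ
  have h4 : 397 / (κ ^ 2 * m ^ 6) ≤ (600 - 200 * (2390 / (κ * μ ^ 2))) / (κ ^ 2 * m ^ 6) :=
    div_le_div_of_nonneg_right (by linarith) (by positivity)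
  linarith

/-- basic size facts used in the two arithmetic lemmas -/
theorem sizes {κ μ m q D Q : ℝ} (hκ : 0 < κ) (hμ : 60 ≤ μ) (hm : μ + 3 ≤ m)
    (hκμ : 2390 ≤ κ * μ ^ 2) (hq : 11 / 16 ≤ q) (hQ : Q = q * Qh κ m)
    (hD : D = 3 * Q / m) :
    855 / 1000 * κ * m ^ 2 ≤ κ * (m - 3) * (m - 6) ∧ 2043 ≤ κ * (m - 3) * (m - 6) ∧
    11 / 16 * (m * (κ * (m - 3) * (m - 6)) / 3) ≤ Q ∧
    85 / 100 * (m * (κ * (m - 3) * (m - 6)) / 3) ≤ Qh κ (m - 3) ∧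
    D = q * (κ * (m - 3) * (m - 6)) ∧ 11 / 16 * (κ * (m - 3) * (m - 6)) ≤ D := by
  have hm60 : 60 ≤ m := by linarith
  have hm0 : 0 < m := by linarith
  set B := κ * (m - 3) * (m - 6) with hB
  have hBbig : 2043 ≤ B := Dbar_big hκ hμ (by linarith) hκμ
  have hBpos : 0 < B := by linarith
  have hQh : Qh κ m = m * B / 3 := by unfold Qh; rw [hB]; ring
  have hQh' : Qh κ (m - 3) = (m - 9) * B / 3 := by unfold Qh; rw [hB]; ring
  have hDe : D = q * B := by rw [hD, hQ, hQh]; field_simp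
  refine ⟨Dbar_lower hκ hm60, hBbig, ?_, ?_, hDe, ?_⟩
  · rw [hQ, hQh]; exact mul_le_mul_of_nonneg_right hq (by positivity)
  · rw [hQh']
    have h1 : 85 / 100 * m ≤ m - 9 := by linarith
    have h2 := mul_le_mul_of_nonneg_right h1 (by positivity : 0 ≤ B / 3)
    linarith
  · rw [hDe]; exact mul_le_mul_of_nonneg_right hq hBpos.le

/-- coefficient of `W` -/
theorem arithA {κ μ m q D Q : ℝ} (hκ : 0 < κ) (hμ : 60 ≤ μ) (hm : μ + 3 ≤ m)
    (hκμ : 2390 ≤ κ * μ ^ 2) (hq : 11 / 16 ≤ q) (hQ : Q = q * Qh κ m)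
    (hD : D = 3 * Q / m) :
    al κ μ (m - 3) * (1 - 9 / m + 1200 / (m * D)) + 16 / (Q * Qh κ (m - 3)) +
      48 * m / (Q * Qh κ (m - 3) ^ 2) ≤ al κ μ m := by
  obtain ⟨h1, h2, h3, h4, h5, h6⟩ := sizes hκ hμ hm hκμ hq hQ hD
  have hm0 : 0 < m := by linarith
  have hD0 : 0 < D := by linarith
  have t1 := term1 hκ hm0 h1 h6
  have t2 := term2 hκ hm0 h1 h3 h4
  have t3 := term3 hκ hm0 h1 h2 h3 h4
  have r4 := rec4 hκ hμ hm (by positivity : 0 ≤ 1200 / (m * D)) t1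
  have r6 := rec6 hκ hμ hm hκμ
  have r7 : 340 / (κ ^ 2 * m ^ 6) + 57 / (κ ^ 2 * m ^ 6) = 397 / (κ ^ 2 * m ^ 6) := by ring
  linarith

theorem termB1 {κ μ m D : ℝ} (hκ : 0 < κ) (hμ : 60 ≤ μ) (hm : μ + 3 ≤ m)
    (hD : D ≤ 5 / 4 * (κ * m ^ 2)) (hD0 : 0 ≤ D) :
    2600 * al κ μ (m - 3) * D ≤ 760500 / (κ * μ ^ 2 * m) := by
  have hm60 : 60 ≤ m := by linarith
  have hm0 : 0 < m := by linarith
  have hμ0 : 0 < μ := by linarith
  have hm3 : 0 < m - 3 := by linarith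
  have h1 : al κ μ (m - 3) ≤ 200 / (κ ^ 2 * μ ^ 2) * (117 / 100 / m ^ 3) := by
    unfold al
    have h2 : 1 / (m - 3) ^ 3 ≤ 117 / 100 / m ^ 3 := by
      rw [div_le_div_iff₀ (by positivity) (by positivity)]
      have := cube2 hm60
      linarith
    have h3 : 200 / (κ ^ 2 * μ ^ 2) / (m - 3) ^ 3 * (1 - μ ^ 2 / (2 * (m - 3) ^ 2)) ≤
        200 / (κ ^ 2 * μ ^ 2) / (m - 3) ^ 3 := mul_le_of_le_one_right (by positivity) g_le_one
    have h4 : 200 / (κ ^ 2 * μ ^ 2) / (m - 3) ^ 3 = 200 / (κ ^ 2 * μ ^ 2) * (1 / (m - 3) ^ 3) := by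
      ring
    have h5 := mul_le_mul_of_nonneg_left h2 (by positivity : 0 ≤ 200 / (κ ^ 2 * μ ^ 2))
    linarith
  have h0 := al_nonneg (κ := κ) hμ0 (by linarith : μ ≤ m - 3)
  calc 2600 * al κ μ (m - 3) * D ≤
        2600 * (200 / (κ ^ 2 * μ ^ 2) * (117 / 100 / m ^ 3)) * (5 / 4 * (κ * m ^ 2)) := by
        refine mul_le_mul ?_ hD hD0 (by positivity)
        linarith
    _ = 760500 / (κ * μ ^ 2 * m) := by
        field_simp
        try norm_num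

theorem termB2 {κ μ m B D Q' : ℝ} (hκ : 0 < κ) (hμ : 60 ≤ μ) (hm : μ + 3 ≤ m)
    (hBlow : 855 / 1000 * κ * m ^ 2 ≤ B) (hB2 : 2043 ≤ B) (hD : D ≤ 5 / 4 * B)
    (hQ' : 85 / 100 * (m * B / 3) ≤ Q') :
    16 / Q' + 16 * (9 * m * D + 4) / Q' ^ 2 ≤ 2700 / (κ * μ ^ 2 * m) := by
  have hm60 : 60 ≤ m := by linarith
  have hm0 : 0 < m := by linarith
  have hμ0 : 0 < μ := by linarith
  have hB : 0 < B := by linarith
  have hmB : 0 < m * B := by positivity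
  have hmB1 : 100000 ≤ m * B := by
    have := mul_le_mul hm60 hB2 (by norm_num) hm0.le
    linarith
  have hQp' : 0 < Q' := by linarith
  have h1 : 16 / Q' ≤ 57 / (m * B) := by
    rw [div_le_div_iff₀ (by positivity) (by positivity)]
    linarith
  have h2 : (85 / 100 * (m * B / 3)) ^ 2 ≤ Q' ^ 2 := pow_le_pow_left₀ (by positivity) hQ' 2
  have h3 : 9 * m * D + 4 ≤ 1126 / 100 * (m * B) := by
    have := mul_le_mul_of_nonneg_left hD hm0.le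
    linarith
  have h4 : 16 * (9 * m * D + 4) / Q' ^ 2 ≤ 2245 / (m * B) := by
    rw [div_le_div_iff₀ (by positivity) (by positivity)]
    have h5 := mul_le_mul_of_nonneg_right h3 hmB.le
    have e : (85 / 100 * (m * B / 3)) ^ 2 = 7225 / 90000 * (m * B) ^ 2 := by ring
    rw [e] at h2
    have h6 : 0 < (m * B) ^ 2 := by positivity
    have e2 : 1126 / 100 * (m * B) * (m * B) = 1126 / 100 * (m * B) ^ 2 := by ring
    rw [e2] at h5
    linarith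
  have h5 : 2302 / (m * B) ≤ 2700 / (κ * m ^ 3) := by
    have h6 := mul_le_mul_of_nonneg_left hBlow hm0.le
    have e : m * (855 / 1000 * κ * m ^ 2) = 855 / 1000 * (κ * m ^ 3) := by ring
    rw [e] at h6
    have h7 : 0 < κ * m ^ 3 := by positivity
    rw [div_le_div_iff₀ (by positivity) (by positivity)]
    linarith
  have h6 : 2700 / (κ * m ^ 3) ≤ 2700 / (κ * μ ^ 2 * m) := by
    apply div_le_div_of_nonneg_left (by norm_num) (by positivity)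
    have h7 : μ ^ 2 ≤ m ^ 2 := pow_le_pow_left₀ hμ0.le (by linarith) 2
    have h8 := mul_le_mul_of_nonneg_left h7 (by positivity : 0 ≤ κ * m)
    have e1 : κ * m * μ ^ 2 = κ * μ ^ 2 * m := by ring
    have e2 : κ * m * m ^ 2 = κ * m ^ 3 := by ring
    linarith
  have h7 : 57 / (m * B) + 2245 / (m * B) = 2302 / (m * B) := by ring
  linarith

theorem cc_diff {κ μ m : ℝ} (hκ : 0 < κ) (hμ : 0 < μ) (hm : μ + 3 ≤ m) :
    765000 / (κ * μ ^ 2 * m) ≤ cc κ μ m - cc κ μ (m - 3) := by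
  have hm0 : 0 < m := by linarith
  have hm3 : 0 < m - 3 := by linarith
  unfold cc
  rw [Real.log_div hm0.ne' hμ.ne', Real.log_div hm3.ne' hμ.ne']
  have h1 : Real.log ((m - 3) / m) ≤ (m - 3) / m - 1 := Real.log_le_sub_one_of_pos (by positivity)
  rw [Real.log_div hm3.ne' hm0.ne'] at h1
  have h2 : (m - 3) / m - 1 = - (3 / m) := by field_simp; ring
  have h3 : 3 / m ≤ Real.log m - Real.log (m - 3) := by linarith
  have h4 := mul_le_mul_of_nonneg_left h3 (by positivity : 0 ≤ 255000 / (κ * μ ^ 2))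
  have e : 255000 / (κ * μ ^ 2) * (3 / m) = 765000 / (κ * μ ^ 2 * m) := by
    rw [div_mul_div_comm]; norm_num
  rw [e] at h4
  linarith

/-- constant term -/
theorem arithB {κ μ m q D Q : ℝ} (hκ : 0 < κ) (hμ : 60 ≤ μ) (hm : μ + 3 ≤ m)
    (hκμ : 2390 ≤ κ * μ ^ 2) (hq : 11 / 16 ≤ q) (hq2 : q ≤ 5 / 4) (hQ : Q = q * Qh κ m)
    (hD : D = 3 * Q / m) :
    2600 * al κ μ (m - 3) * D + 16 / Qh κ (m - 3) + 16 * (9 * m * D + 4) / Qh κ (m - 3) ^ 2 +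
      cc κ μ (m - 3) ≤ cc κ μ m := by
  obtain ⟨h1, h2, h3, h4, h5, h6⟩ := sizes hκ hμ hm hκμ hq hQ hD
  have hm0 : 0 < m := by linarith
  have hμ0 : 0 < μ := by linarith
  have hD0 : 0 < D := by linarith
  have hDB : D ≤ 5 / 4 * (κ * (m - 3) * (m - 6)) := by
    rw [h5]; exact mul_le_mul_of_nonneg_right hq2 (by linarith)
  have hDu : D ≤ 5 / 4 * (κ * m ^ 2) := by
    have := Dbar_upper hκ (by linarith : 60 ≤ m)
    linarith
  have b1 := termB1 hκ hμ hm hDu hD0.le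
  have b2 := termB2 hκ hμ hm h1 h2 hDB h4
  have b3 := cc_diff hκ hμ0 hm
  have b4 : 760500 / (κ * μ ^ 2 * m) + 2700 / (κ * μ ^ 2 * m) ≤ 765000 / (κ * μ ^ 2 * m) := by
    rw [← add_div]
    exact div_le_div_of_nonneg_right (by norm_num) (by positivity)
  linarith

end Vale.Agent.P046
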