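import Vale.Agent.P046.Arith2

namespace Vale.Agent.P046

theorem yfac {A0 U m D : ℝ} (hA0 : 85 / 100 ≤ A0) (hm : 60 ≤ m) (hD : 0 < D) (hU : 0 ≤ U) :
    A0 + 36 * U / (m * D ^ 2 * (m - 3)) ≤ A0 * (1 + 45 * U / (m ^ 2 * D ^ 2)) := by
  have hm0 : 0 < m := by linarith
  have hm3 : 0 < m - 3 := by linarith
  have hv : 0 ≤ U / (m * D ^ 2) := by positivity
  have e1 : 36 * U / (m * D ^ 2 * (m - 3)) = (36 / (m - 3)) * (U / (m * D ^ 2)) := by
    field_simp
  have e2 : 45 * U / (m ^ 2 * D ^ 2) = (45 / m) * (U / (m * D ^ 2)) := by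
    field_simp
  rw [e1, e2]
  have h1 : 36 / (m - 3) ≤ 85 / 100 * (45 / m) := by
    rw [div_le_iff₀ hm3]
    have : 85 / 100 * (45 / m) * (m - 3) = 85 / 100 * 45 - 85 / 100 * 135 / m := by
      field_simp
      ring
    rw [this]
    have h2 : 85 / 100 * 135 / m ≤ 85 / 100 * 135 / 60 :=
      div_le_div_of_nonneg_left (by norm_num) (by norm_num) hm
    linarith
  have h2 : 85 / 100 * (45 / m) ≤ A0 * (45 / m) := mul_le_mul_of_nonneg_right hA0 (by positivity)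
  have h3 := mul_le_mul_of_nonneg_right (h1.trans h2) hv
  linarith

theorem yS {q B m Q Q' D U : ℝ} (hq : 11 / 16 ≤ q) (hB : 0 < B) (hm : 60 ≤ m)
    (hQ : Q = q * (m * B / 3)) (hQ' : Q' = (m - 9) * B / 3) (hD : D = q * B) (hU : 0 ≤ U) :
    2 * (45 * U / (m ^ 2 * D ^ 2)) ≤ 16 * (U / (Q * Q')) := by
  have hm0 : 0 < m := by linarith
  have hm9 : 0 < m - 9 := by linarith
  have hq0 : 0 < q := by linarith
  have hQ0 : 0 < Q := by rw [hQ]; positivity
  have hQ0' : 0 < Q' := by rw [hQ']; positivity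
  have hD0 : 0 < D := by rw [hD]; positivity
  have e1 : 2 * (45 * U / (m ^ 2 * D ^ 2)) = U * (90 / (m ^ 2 * D ^ 2)) := by ring
  have e2 : 16 * (U / (Q * Q')) = U * (16 / (Q * Q')) := by ring
  rw [e1, e2]
  refine mul_le_mul_of_nonneg_left ?_ hU
  rw [div_le_div_iff₀ (by positivity) (by positivity), hQ, hQ', hD]
  have h1 : 90 * (m - 9) ≤ 144 * q * m := by
    have := mul_le_mul_of_nonneg_right hq hm0.le
    linarith
  have h2 := mul_le_mul_of_nonneg_left h1 (by positivity : 0 ≤ q * m * B ^ 2 / 9)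
  have e3 : 90 * (q * (m * B / 3) * ((m - 9) * B / 3)) = q * m * B ^ 2 / 9 * (90 * (m - 9)) := by
    ring
  have e4 : 16 * (m ^ 2 * (q * B) ^ 2) = q * m * B ^ 2 / 9 * (144 * q * m) := by ring
  rw [e3, e4]
  exact h2

theorem maxfac {S S' y : ℝ} (hS0 : 0 ≤ S) (hS : 16 * S < 1) (hy : 0 ≤ y)
    (h : 2 * y ≤ 16 * (S' - S)) : max 0 (2 - 16 * S') * (1 + y) ≤ 2 - 16 * S := by
  rcases le_total (2 - 16 * S') 0 with h1 | h1
  · rw [max_eq_left h1, zero_mul]; linarith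
  · rw [max_eq_right h1]
    have h2 : (2 - 16 * S') * (1 + y) ≤ (2 - 16 * S - 2 * y) * (1 + y) :=
      mul_le_mul_of_nonneg_right (by linarith) (by linarith)
    have h3 : (2 - 16 * S - 2 * y) * (1 + y) = 2 - 16 * S - 16 * S * y - 2 * y ^ 2 := by ring
    have h4 : 0 ≤ S * y := mul_nonneg hS0 hy
    have h5 := sq_nonneg y
    linarith

theorem combine {a a' A0 w U S S' D Q Q' q B m c c' Z AW AZ : ℝ} (ha' : 0 ≤ a')
    (hq : 11 / 16 ≤ q) (hB : 0 < B) (hm : 60 ≤ m)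
    (hQ : Q = q * (m * B / 3)) (hQ' : Q' = (m - 9) * B / 3) (hD : D = q * B)
    (hA0 : 85 / 100 ≤ A0)
    (hA : a' * A0 + 16 / (Q * Q') + 48 * m / (Q * Q' ^ 2) ≤ a)
    (hBB : 2600 * a' * D + 16 / Q' + 16 * (9 * m * D + 4) / Q' ^ 2 + c' ≤ c)
    (hS0 : 0 ≤ S) (hS : 16 * S < 1) (hS' : S' = S + U / (Q * Q'))
    (hU : 0 ≤ U) (hUw : U ≤ w)
    (hAW : AW ≤ w * (A0 + 36 * U / (m * D ^ 2 * (m - 3))) + 1300 * D)
    (hAZ : AZ ≤ (Z - 1) ^ 2 + 1 / Q' + (9 * m * D + 4) / Q' ^ 2 + 3 * m * U / (Q * Q' ^ 2)) :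
    a' * max 0 (2 - 16 * S') * AW + 16 * S' + 16 * AZ + c' ≤
      a * max 0 (2 - 16 * S) * w + 16 * S + 16 * (Z - 1) ^ 2 + c := by
  have hm0 : 0 < m := by linarith
  have hm9 : 0 < m - 9 := by linarith
  have hq0 : 0 < q := by linarith
  have hQ0 : 0 < Q := by rw [hQ]; positivity
  have hQ0' : 0 < Q' := by rw [hQ']; positivity
  have hD0 : 0 < D := by rw [hD]; positivity
  have hw : 0 ≤ w := hU.trans hUw
  set y := 45 * U / (m ^ 2 * D ^ 2) with hy
  have hy0 : 0 ≤ y := by positivity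
  have h1 := yfac hA0 hm hD0 hU
  have h2 : 2 * y ≤ 16 * (S' - S) := by
    have := yS hq hB hm hQ hQ' hD hU
    rw [hS']; linarith
  have h3 := maxfac hS0 hS hy0 h2
  set X := max 0 (2 - 16 * S') with hX
  have hX0 : 0 ≤ X := le_max_left _ _
  have hX2 : X ≤ 2 := by
    rw [hX]; apply max_le (by norm_num)
    have : 0 ≤ U / (Q * Q') := by positivity
    rw [hS']; linarith
  have hm1 : max 0 (2 - 16 * S) = 2 - 16 * S := max_eq_right (by linarith)
  rw [hm1]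
  have h4 : a' * X * AW ≤ a' * (2 - 16 * S) * (A0 * w) + 2600 * a' * D := by
    have h5 : AW ≤ w * (A0 * (1 + y)) + 1300 * D := by
      have := mul_le_mul_of_nonneg_left h1 hw
      linarith
    have h6 : X * AW ≤ (2 - 16 * S) * (A0 * w) + 2600 * D := by
      have h7 : X * AW ≤ X * (w * (A0 * (1 + y)) + 1300 * D) := mul_le_mul_of_nonneg_left h5 hX0
      have h8 : X * (w * (A0 * (1 + y)) + 1300 * D) = (X * (1 + y)) * (A0 * w) + X * (1300 * D) := by
        ring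
      have h9 : (X * (1 + y)) * (A0 * w) ≤ (2 - 16 * S) * (A0 * w) :=
        mul_le_mul_of_nonneg_right h3 (by positivity)
      have h10 : X * (1300 * D) ≤ 2 * (1300 * D) := mul_le_mul_of_nonneg_right hX2 (by positivity)
      linarith
    have h11 := mul_le_mul_of_nonneg_left h6 ha'
    linarith
  -- coefficient of W
  have hc0 : 0 ≤ 16 / (Q * Q') + 48 * m / (Q * Q' ^ 2) := by positivity
  have h5 : (16 / (Q * Q') + 48 * m / (Q * Q' ^ 2)) * U ≤ (a - a' * A0) * ((2 - 16 * S) * w) := by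
    have h6 : 16 / (Q * Q') + 48 * m / (Q * Q' ^ 2) ≤ a - a' * A0 := by linarith
    have h7 : U ≤ (2 - 16 * S) * w := by
      have : 1 * w ≤ (2 - 16 * S) * w := mul_le_mul_of_nonneg_right (by linarith) hw
      linarith
    exact mul_le_mul h6 h7 hU (by linarith)
  have h6 : 16 * S' = 16 * S + 16 / (Q * Q') * U := by rw [hS']; ring
  have h7 : 48 * m / (Q * Q' ^ 2) * U = 16 * (3 * m * U / (Q * Q' ^ 2)) := by ring
  have h8 : 16 * AZ ≤ 16 * (Z - 1) ^ 2 + 16 / Q' + 16 * (9 * m * D + 4) / Q' ^ 2 +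
      16 * (3 * m * U / (Q * Q' ^ 2)) := by
    have e1 : 16 / Q' = 16 * (1 / Q') := by ring
    have e2 : 16 * (9 * m * D + 4) / Q' ^ 2 = 16 * ((9 * m * D + 4) / Q' ^ 2) := by ring
    rw [e1, e2]; linarith
  have h9 : (a - a' * A0) * ((2 - 16 * S) * w) = a * (2 - 16 * S) * w -
      a' * (2 - 16 * S) * (A0 * w) := by ring
  rw [h9] at h5
  rw [h6]
  linarith

end Vale.Agent.P046
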