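import Vale.Agent.P046.Tail

/-!
Expectation bound from the tail bound.
-/

namespace Vale.Agent.P046

open Finset MeasureTheory
open scoped ENNReal

theorem integral_le_of_tail (p : PMF ℕ) (B : ℕ) (hB : p.toMeasure {k | B < k} = 0) {X : ℝ}
    (hX : 1 ≤ X) (C : ℝ) (hC : 0 ≤ C)
    (htail : ∀ x : ℝ, 0 < x → (p.toMeasure {k : ℕ | x < k}).toReal ≤ C * X / x ^ 2) :
    ∫ k, (k : ℝ) ∂p.toMeasure ≤ (2 + 2 * C) * Real.sqrt X := by
  have hs1 : 1 ≤ Real.sqrt X := by rw [Real.one_le_sqrt]; exact hX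
  have hs0 : 0 < Real.sqrt X := by linarith
  have hss : Real.sqrt X * Real.sqrt X = X := Real.mul_self_sqrt (by linarith)
  have h1 : ∫ k, (k : ℝ) ∂p.toMeasure ≤
      ∫ k, (∑ j ∈ range B, Set.indicator {k : ℕ | j < k} (fun _ => (1 : ℝ)) k) ∂p.toMeasure := by
    refine integral_mono_of_nonneg (Filter.Eventually.of_forall fun k => Nat.cast_nonneg k) ?_ ?_
    · refine integrable_finsetSum _ fun j _ => ?_
      exact (integrable_const (1 : ℝ)).indicator (MeasurableSet.of_discrete)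
    · have h2 : ∀ᵐ k ∂p.toMeasure, k ≤ B := by
        rw [ae_iff]
        simpa using hB
      filter_upwards [h2] with k hk
      have h3 : ∀ j ∈ range B, Set.indicator {k : ℕ | j < k} (fun _ => (1 : ℝ)) k =
          if j < k then (1 : ℝ) else 0 := by
        intro j _
        rw [Set.indicator_apply]
        rfl
      rw [sum_congr rfl h3, ← Finset.sum_filter, sum_const, nsmul_eq_mul, mul_one]
      have h4 : (range B).filter (fun j => j < k) = range k := by
        ext j; simp only [mem_filter, mem_range]; omega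
      rw [h4, card_range]
  have h2 : ∫ k, (∑ j ∈ range B, Set.indicator {k : ℕ | j < k} (fun _ => (1 : ℝ)) k) ∂p.toMeasure =
      ∑ j ∈ range B, (p.toMeasure {k : ℕ | j < k}).toReal := by
    rw [integral_finsetSum]
    · refine sum_congr rfl fun j _ => ?_
      rw [integral_indicator_const _ MeasurableSet.of_discrete, smul_eq_mul, mul_one]
      rfl
    · intro j _
      exact (integrable_const (1 : ℝ)).indicator (MeasurableSet.of_discrete)
  obtain ⟨a, ha⟩ : ∃ a : ℕ, a = ⌈Real.sqrt X⌉₊ := ⟨_, rfl⟩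
  have ha1 : Real.sqrt X ≤ a := by rw [ha]; exact Nat.le_ceil _
  have ha2 : (a : ℝ) < Real.sqrt X + 1 := by rw [ha]; exact Nat.ceil_lt_add_one hs0.le
  have ha0 : 0 < a := by
    have : (0 : ℝ) < a := by linarith
    exact_mod_cast this
  obtain ⟨A, rfl⟩ : ∃ A, a = A + 1 := ⟨a - 1, by omega⟩
  have hsub : range B ⊆ range (A + 1) ∪ Ioo A B := by
    intro j hj
    simp only [mem_union, mem_range, mem_Ioo] at hj ⊢
    omega
  have h3 : ∑ j ∈ range B, (p.toMeasure {k : ℕ | j < k}).toReal ≤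
      ∑ j ∈ range (A + 1), (p.toMeasure {k : ℕ | j < k}).toReal +
      ∑ j ∈ Ioo A B, (p.toMeasure {k : ℕ | j < k}).toReal := by
    refine (sum_le_sum_of_subset_of_nonneg hsub fun _ _ _ => ENNReal.toReal_nonneg).trans ?_
    rw [← sum_union_inter]
    have : 0 ≤ ∑ j ∈ range (A + 1) ∩ Ioo A B, (p.toMeasure {k : ℕ | j < k}).toReal :=
      sum_nonneg fun _ _ => ENNReal.toReal_nonneg
    linarith
  have h4 : ∑ j ∈ range (A + 1), (p.toMeasure {k : ℕ | j < k}).toReal ≤ (A + 1 : ℕ) := by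
    calc _ ≤ ∑ _j ∈ range (A + 1), (1 : ℝ) := by
          refine sum_le_sum fun j _ => ?_
          have h : p.toMeasure {k : ℕ | j < k} ≤ 1 := prob_le_one
          exact ENNReal.toReal_le_of_le_ofReal zero_le_one (by simpa using h)
      _ = _ := by simp
  have h5 : ∑ j ∈ Ioo A B, (p.toMeasure {k : ℕ | j < k}).toReal ≤ C * X * (2 / (A + 1)) := by
    calc _ ≤ ∑ j ∈ Ioo A B, C * X * ((j : ℝ) ^ 2)⁻¹ := by
          refine sum_le_sum fun j hj => ?_
          rw [mem_Ioo] at hj
          have hj0 : (0 : ℝ) < j := by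
            have : 0 < j := by omega
            exact_mod_cast this
          have h := htail j hj0
          simp only [Nat.cast_lt] at h
          rw [div_eq_mul_inv] at h
          exact h
      _ = C * X * ∑ j ∈ Ioo A B, ((j : ℝ) ^ 2)⁻¹ := by rw [mul_sum]
      _ ≤ C * X * (2 / (A + 1)) :=
          mul_le_mul_of_nonneg_left (sum_Ioo_inv_sq_le A B) (by positivity)
  have h6 : C * X * (2 / (A + 1)) ≤ 2 * C * Real.sqrt X := by
    have h7 : (0 : ℝ) < A + 1 := by positivity
    rw [mul_div_assoc', div_le_iff₀ h7]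
    push_cast at ha1
    have h8 := mul_le_mul_of_nonneg_left ha1 (by positivity : 0 ≤ 2 * C * Real.sqrt X)
    calc C * X * 2 = 2 * C * Real.sqrt X * Real.sqrt X := by rw [mul_assoc _ (Real.sqrt X), hss]; ring
      _ ≤ _ := h8
  push_cast at h4 ha2
  rw [h2] at h1
  linarith

theorem expect_Kn (n : ℕ) (hn : 2 ≤ n) :
    ∫ k, (k : ℝ) ∂(finalEdges n).toMeasure ≤
      2000002 * (n : ℝ) ^ (3 / 2 : ℝ) * Real.sqrt (Real.log n) := by
  have hnR : (2 : ℝ) ≤ n := by exact_mod_cast hn
  have hn0 : (0 : ℝ) < n := by linarith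
  have hlog2 : 1 / 2 ≤ Real.log n := by
    have h1 : Real.log 2 ≤ Real.log n := Real.log_le_log (by norm_num) hnR
    have h2 := Real.log_two_gt_d9
    linarith
  have hn3 : (8 : ℝ) ≤ (n : ℝ) ^ 3 := by
    calc (8 : ℝ) = 2 ^ 3 := by norm_num
      _ ≤ (n : ℝ) ^ 3 := pow_le_pow_left₀ (by norm_num) hnR 3
  have hX : 1 ≤ (n : ℝ) ^ 3 * Real.log n := by
    have := mul_le_mul hn3 hlog2 (by norm_num) (by positivity)
    linarith
  have h := integral_le_of_tail (finalEdges n) (n.choose 2) (final_le n) hX 1000000 (by norm_num)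
    (fun x hx => by
      have := tail_Kn n hn x hx
      rwa [mul_assoc] at this)
  refine h.trans (le_of_eq ?_)
  have h1 : Real.sqrt ((n : ℝ) ^ 3 * Real.log n) = (n : ℝ) ^ (3 / 2 : ℝ) * Real.sqrt (Real.log n) := by
    rw [Real.sqrt_mul (by positivity)]
    congr 1
    rw [Real.sqrt_eq_rpow, ← Real.rpow_natCast, ← Real.rpow_mul hn0.le]
    norm_num
  rw [h1]; ring

end Vale.Agent.P046
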