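import Mathlib

/-!
The function `H(d, D) = D² f(d / D)`, `f(x) = 2x³ - 3x² + 1` for `x ≤ 1`,
`f(x) = x² + 2/x - 3` for `x ≥ 1`.
-/

namespace Vale.Agent.P046

noncomputable section

def HL (d D : ℝ) : ℝ := 2 * d ^ 3 / D - 3 * d ^ 2 + D ^ 2
def HR (d D : ℝ) : ℝ := d ^ 2 + 2 * D ^ 3 / d - 3 * D ^ 2
def Hf (d D : ℝ) : ℝ := if d ≤ D then HL d D else HR d D
/-- derivative in `d` -/
def Hd (d D : ℝ) : ℝ := if d ≤ D then 6 * d ^ 2 / D - 6 * d else 2 * d - 2 * D ^ 3 / d ^ 2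
/-- derivative in `D` -/
def HD (d D : ℝ) : ℝ := if d ≤ D then 2 * D - 2 * d ^ 3 / D ^ 2 else 6 * D ^ 2 / d - 6 * D

theorem Hf_self {D : ℝ} (hD : 0 < D) : Hf D D = 0 := by
  unfold Hf HL; rw [if_pos le_rfl]; field_simp; ring

theorem sq_le_Hf {d D : ℝ} (hd : 0 ≤ d) (hD : 0 < D) : (d - D) ^ 2 ≤ Hf d D := by
  unfold Hf HL HR
  split_ifs with h
  · have : 2 * d ^ 3 / D - 3 * d ^ 2 + D ^ 2 - (d - D) ^ 2 = 2 * d * (D - d) ^ 2 / D := by
      field_simp; ring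
    have h2 : 0 ≤ 2 * d * (D - d) ^ 2 / D := by positivity
    linarith
  · push Not at h
    have hd' : 0 < d := hD.trans h
    have : d ^ 2 + 2 * D ^ 3 / d - 3 * D ^ 2 - (d - D) ^ 2 = 2 * D * (d - D) ^ 2 / d := by
      field_simp; ring
    have h2 : 0 ≤ 2 * D * (d - D) ^ 2 / d := by positivity
    linarith

theorem Hf_nonneg {d D : ℝ} (hd : 0 ≤ d) (hD : 0 < D) : 0 ≤ Hf d D :=
  (sq_nonneg _).trans (sq_le_Hf hd hD)

theorem euler {d D : ℝ} (hd : 0 ≤ d) (hD : 0 < D) : d * Hd d D + D * HD d D = 2 * Hf d D := by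
  unfold Hf HL HR Hd HD
  split_ifs with h
  · field_simp; ring
  · push Not at h
    have hd' : 0 < d := hD.trans h
    field_simp; ring

theorem neg_DHD_le {d D : ℝ} (hd : 0 ≤ d) (hD : 0 < D) :
    -(D * HD d D) ≤ 4 * Hf d D + 6 * D * (d - D) := by
  unfold Hf HL HR HD
  split_ifs with h
  · have : 4 * (2 * d ^ 3 / D - 3 * d ^ 2 + D ^ 2) + 6 * D * (d - D) +
      D * (2 * D - 2 * d ^ 3 / D ^ 2) = 6 * d * (D - d) ^ 2 / D := by field_simp; ring
    have h2 : 0 ≤ 6 * d * (D - d) ^ 2 / D := by positivity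
    linarith
  · push Not at h
    have hd' : 0 < d := hD.trans h
    have : 4 * (d ^ 2 + 2 * D ^ 3 / d - 3 * D ^ 2) + 6 * D * (d - D) +
      D * (6 * D ^ 2 / d - 6 * D) = (d - D) ^ 2 * (4 * d + 14 * D) / d := by field_simp; ring
    have h2 : 0 ≤ (d - D) ^ 2 * (4 * d + 14 * D) / d := by positivity
    linarith

theorem HD_le {d D : ℝ} (hd : 0 ≤ d) (hD : 0 < D) : |HD d D| ≤ 6 * D := by
  unfold HD
  split_ifs with h
  · have h1 : 0 ≤ 2 * d ^ 3 / D ^ 2 := by positivity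
    have h2 : 2 * d ^ 3 / D ^ 2 ≤ 2 * D := by
      rw [div_le_iff₀ (by positivity)]
      have : d ^ 3 ≤ D ^ 3 := pow_le_pow_left₀ hd h 3
      nlinarith
    rw [abs_le]; constructor <;> linarith
  · push Not at h
    have hd' : 0 < d := hD.trans h
    have h1 : 0 ≤ 6 * D ^ 2 / d := by positivity
    have h2 : 6 * D ^ 2 / d ≤ 6 * D := by
      rw [div_le_iff₀ hd']; nlinarith
    rw [abs_le]; constructor <;> linarith

theorem Hf_le_HL {d D : ℝ} (hd : 0 ≤ d) (hD : 0 < D) : Hf d D ≤ HL d D := by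
  unfold Hf
  split_ifs with h
  · exact le_rfl
  · push Not at h
    have hd' : 0 < d := hD.trans h
    have : HL d D - HR d D = 2 * (d - D) ^ 3 * (d + D) / (d * D) := by
      unfold HL HR; field_simp; ring
    have h2 : 0 ≤ 2 * (d - D) ^ 3 * (d + D) / (d * D) := by
      have : 0 ≤ (d - D) := by linarith
      positivity
    linarith

theorem Hf_le_HR {d D : ℝ} (hd : 0 < d) (hD : 0 < D) : Hf d D ≤ HR d D := by
  unfold Hf
  split_ifs with h
  · have : HR d D - HL d D = 2 * (D - d) ^ 3 * (d + D) / (d * D) := by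
      unfold HL HR; field_simp; ring
    have h2 : 0 ≤ 2 * (D - d) ^ 3 * (d + D) / (d * D) := by
      have : 0 ≤ (D - d) := by linarith
      positivity
    linarith
  · exact le_rfl

end

end Vale.Agent.P046
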