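import Mathlib

/-!
Linear 3-uniform hypergraphs: counting identities for the deletion of an edge together with its
vertices.
-/

namespace Vale.Agent.P046

open Finset

variable {V : Type*} [DecidableEq V]

structure IsLin3 (H : Finset (Finset V)) : Prop where
  card3 : ∀ T ∈ H, T.card = 3
  lin : ∀ T ∈ H, ∀ T' ∈ H, T ≠ T' → (T ∩ T').card ≤ 1

/-- the edges inside `M` -/
def sub (H : Finset (Finset V)) (M : Finset V) : Finset (Finset V) := H.filter (fun T => T ⊆ M)

/-- degree inside `M` -/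
def deg (H : Finset (Finset V)) (M : Finset V) (x : V) : ℕ :=
  ((sub H M).filter (fun T => x ∈ T)).card

/-- sum of the degrees on an edge -/
def sT (H : Finset (Finset V)) (M T : Finset V) : ℕ := ∑ x ∈ T, deg H M x

/-- number of edges through `x` meeting `T` -/
def dl (H : Finset (Finset V)) (M T : Finset V) (x : V) : ℕ :=
  ((sub H M).filter (fun T' => x ∈ T' ∧ ¬ Disjoint T' T)).card

variable {H : Finset (Finset V)} {M T : Finset V}

theorem mem_sub : T ∈ sub H M ↔ T ∈ H ∧ T ⊆ M := by simp [sub]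

theorem sum_sub_sum (g : V → ℝ) :
    ∑ T ∈ sub H M, ∑ x ∈ T, g x = ∑ x ∈ M, (deg H M x : ℝ) * g x := by
  have h1 : ∀ T ∈ sub H M, ∑ x ∈ T, g x = ∑ x ∈ M, if x ∈ T then g x else 0 := by
    intro T hT
    rw [← Finset.sum_filter]
    congr 1
    have := (mem_sub.1 hT).2
    ext x; simp only [mem_filter]; exact ⟨fun h => ⟨this h, h⟩, fun h => h.2⟩
  rw [Finset.sum_congr rfl h1, Finset.sum_comm]
  refine Finset.sum_congr rfl fun x _ => ?_
  rw [← Finset.sum_filter, Finset.sum_const, nsmul_eq_mul, deg]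

theorem sum_deg (hH : IsLin3 H) : ∑ x ∈ M, (deg H M x : ℝ) = 3 * (sub H M).card := by
  have h := sum_sub_sum (H := H) (M := M) (fun _ => 1)
  simp only [mul_one] at h
  rw [← h]
  have h1 : ∀ T ∈ sub H M, ∑ x ∈ T, (1 : ℝ) = 3 := by
    intro T hT
    rw [Finset.sum_const, hH.card3 T (mem_sub.1 hT).1]; norm_num
  rw [Finset.sum_congr rfl h1, Finset.sum_const, nsmul_eq_mul]; ring

theorem sum_sT : ∑ T ∈ sub H M, (sT H M T : ℝ) = ∑ x ∈ M, (deg H M x : ℝ) ^ 2 := by
  have h := sum_sub_sum (H := H) (M := M) (fun x => (deg H M x : ℝ))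
  have h1 : ∀ T ∈ sub H M, (sT H M T : ℝ) = ∑ x ∈ T, (deg H M x : ℝ) := by
    intro T _; unfold sT; push_cast; rfl
  rw [Finset.sum_congr rfl h1, h]
  exact Finset.sum_congr rfl fun x _ => by ring

theorem sub_sdiff : sub H (M \ T) = (sub H M).filter (fun T' => Disjoint T' T) := by
  ext T'
  simp only [sub, mem_filter, subset_sdiff, and_assoc]

theorem card_inter (hH : IsLin3 H) (hT : T ∈ sub H M) {T' : Finset V} (hT' : T' ∈ sub H M) :
    (T ∩ T').card = (if T' = T then 3 else 0) + (if T' ≠ T ∧ ¬ Disjoint T' T then 1 else 0) := by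
  by_cases h : T' = T
  · subst h; simp [hH.card3 T' (mem_sub.1 hT').1]
  · have h1 := hH.lin T (mem_sub.1 hT).1 T' (mem_sub.1 hT').1 (fun e => h e.symm)
    by_cases hd : Disjoint T' T
    · have : T ∩ T' = ∅ := by rw [inter_comm]; exact disjoint_iff_inter_eq_empty.1 hd
      simp [h, hd, this]
    · have h2 : (T ∩ T').card ≠ 0 := by
        intro h0
        rw [card_eq_zero] at h0
        exact hd (disjoint_iff_inter_eq_empty.2 (by rw [inter_comm]; exact h0))
      simp [h, hd]; omega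

theorem sT_eq_sum_inter (T : Finset V) : sT H M T = ∑ T' ∈ sub H M, (T ∩ T').card := by
  unfold sT deg
  have h1 : ∀ T' ∈ sub H M, (T ∩ T').card = ∑ x ∈ T, if x ∈ T' then 1 else 0 := by
    intro T' _
    rw [← Finset.sum_filter, Finset.sum_const, smul_eq_mul, mul_one, Finset.filter_mem_eq_inter]
  rw [Finset.sum_congr rfl h1, Finset.sum_comm]
  refine Finset.sum_congr rfl fun x _ => ?_
  rw [← Finset.sum_filter, Finset.sum_const, smul_eq_mul, mul_one]

/-- other edges meeting `T` -/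
def nb (H : Finset (Finset V)) (M T : Finset V) : ℕ :=
  ((sub H M).filter (fun T' => T' ≠ T ∧ ¬ Disjoint T' T)).card

theorem sT_eq (hH : IsLin3 H) (hT : T ∈ sub H M) : sT H M T = 3 + nb H M T := by
  rw [sT_eq_sum_inter, Finset.sum_congr rfl fun T' hT' => card_inter hH hT hT',
    Finset.sum_add_distrib]
  congr 1
  · rw [Finset.sum_ite_eq' (sub H M) T (fun _ => 3), if_pos hT]
  · rw [← Finset.sum_filter, Finset.sum_const, smul_eq_mul, mul_one, nb]

theorem card_meet (hH : IsLin3 H) (hT : T ∈ sub H M) :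
    ((sub H M).filter (fun T' => ¬ Disjoint T' T)).card = 1 + nb H M T := by
  have h3 := hH.card3 T (mem_sub.1 hT).1
  have : (sub H M).filter (fun T' => ¬ Disjoint T' T) =
      insert T ((sub H M).filter (fun T' => T' ≠ T ∧ ¬ Disjoint T' T)) := by
    ext T'
    simp only [mem_filter, mem_insert]
    constructor
    · rintro ⟨h1, h2⟩
      by_cases h : T' = T
      · exact Or.inl h
      · exact Or.inr ⟨h1, h, h2⟩
    · rintro (h | ⟨h1, _, h2⟩)
      · subst h
        refine ⟨hT, ?_⟩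
        rw [disjoint_self, bot_eq_empty]
        intro h0; rw [h0] at h3; simp at h3
      · exact ⟨h1, h2⟩
  rw [this, card_insert_of_notMem (by simp), nb]; ring

theorem card_sub_sdiff (hH : IsLin3 H) (hT : T ∈ sub H M) :
    (sub H (M \ T)).card + (1 + nb H M T) = (sub H M).card := by
  rw [sub_sdiff, ← card_meet hH hT]
  exact card_filter_add_card_filter_not _

theorem deg_sdiff (T : Finset V) (x : V) : deg H (M \ T) x + dl H M T x = deg H M x := by
  unfold deg dl
  rw [sub_sdiff, filter_filter]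
  have : (sub H M).filter (fun T' => Disjoint T' T ∧ x ∈ T') =
      ((sub H M).filter (fun T' => x ∈ T')).filter (fun T' => Disjoint T' T) := by
    rw [filter_filter]; congr 1; ext; tauto
  rw [this]
  have h2 : (sub H M).filter (fun T' => x ∈ T' ∧ ¬ Disjoint T' T) =
      ((sub H M).filter (fun T' => x ∈ T')).filter (fun T' => ¬ Disjoint T' T) := by
    rw [filter_filter]
  rw [h2]
  exact card_filter_add_card_filter_not _

theorem codeg_le_one (hH : IsLin3 H) {x y : V} (hxy : x ≠ y) :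
    ((sub H M).filter (fun T' => x ∈ T' ∧ y ∈ T')).card ≤ 1 := by
  rw [card_le_one]
  intro A hA B hB
  simp only [mem_filter] at hA hB
  by_contra hne
  have h := hH.lin A (mem_sub.1 hA.1).1 B (mem_sub.1 hB.1).1 hne
  have : ({x, y} : Finset V) ⊆ A ∩ B := by
    intro z hz
    simp only [mem_insert, mem_singleton] at hz
    rcases hz with rfl | rfl
    · exact mem_inter.2 ⟨hA.2.1, hB.2.1⟩
    · exact mem_inter.2 ⟨hA.2.2, hB.2.2⟩
  have h2 := card_le_card this
  rw [card_pair hxy] at h2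
  omega

theorem dl_le (hH : IsLin3 H) (hT : T ∈ sub H M) {x : V} (hx : x ∉ T) : dl H M T x ≤ 3 := by
  unfold dl
  have h1 : (sub H M).filter (fun T' => x ∈ T' ∧ ¬ Disjoint T' T) ⊆
      T.biUnion fun y => (sub H M).filter (fun T' => x ∈ T' ∧ y ∈ T') := by
    intro T' hT'
    simp only [mem_filter] at hT'
    obtain ⟨y, hy1, hy2⟩ := not_disjoint_iff.1 hT'.2.2
    simp only [mem_biUnion, mem_filter]
    exact ⟨y, hy2, hT'.1, hT'.2.1, hy1⟩
  calc _ ≤ _ := card_le_card h1
    _ ≤ ∑ y ∈ T, ((sub H M).filter (fun T' => x ∈ T' ∧ y ∈ T')).card := card_biUnion_le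
    _ ≤ ∑ y ∈ T, 1 := by
      refine Finset.sum_le_sum fun y hy => codeg_le_one hH ?_
      rintro rfl; exact hx hy
    _ = 3 := by rw [sum_const, smul_eq_mul, mul_one, hH.card3 T (mem_sub.1 hT).1]

theorem sum_dl (hH : IsLin3 H) (hT : T ∈ sub H M) :
    ∑ x ∈ M \ T, dl H M T x = 2 * nb H M T := by
  have h1 : ∀ x ∈ M \ T, dl H M T x =
      ∑ T' ∈ (sub H M).filter (fun T' => ¬ Disjoint T' T), if x ∈ T' then 1 else 0 := by
    intro x _
    rw [← Finset.sum_filter, Finset.sum_const, smul_eq_mul, mul_one, dl, filter_filter]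
    congr 2; ext; tauto
  rw [Finset.sum_congr rfl h1, Finset.sum_comm]
  have h2 : ∀ T' ∈ (sub H M).filter (fun T' => ¬ Disjoint T' T),
      (∑ x ∈ M \ T, if x ∈ T' then 1 else 0) = if T' ≠ T then 2 else 0 := by
    intro T' hT'
    rw [mem_filter] at hT'
    rw [← Finset.sum_filter, Finset.sum_const, smul_eq_mul, mul_one]
    have h3 : (M \ T).filter (· ∈ T') = T' \ T := by
      ext x; simp only [mem_filter, mem_sdiff]
      have := (mem_sub.1 hT'.1).2
      exact ⟨fun h => ⟨h.2, h.1.2⟩, fun h => ⟨⟨this h.1, h.2⟩, h.1⟩⟩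
    rw [h3]
    have h4 := card_inter hH hT hT'.1
    have h5 : (T' \ T).card + (T ∩ T').card = T'.card := by
      rw [inter_comm]; exact card_sdiff_add_card_inter T' T
    rw [hH.card3 T' (mem_sub.1 hT'.1).1, h4] at h5
    by_cases h : T' = T
    · simp [h] at h5 ⊢
    · simp [h, hT'.2] at h5 ⊢; omega
  rw [Finset.sum_congr rfl h2, ← Finset.sum_filter, Finset.sum_const, smul_eq_mul, nb, filter_filter]
  rw [mul_comm]
  congr 2; ext; simp only [mem_filter]; tauto

theorem sum_sub_sum_dl (hH : IsLin3 H) (g : V → ℝ) :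
    ∑ T ∈ sub H M, ∑ x ∈ M \ T, (dl H M T x : ℝ) * g x =
      ∑ T ∈ sub H M, ∑ x ∈ T, ((sT H M T : ℝ) - deg H M x - 2) * g x := by
  have h1 : ∀ T ∈ sub H M, ∑ x ∈ M \ T, (dl H M T x : ℝ) * g x =
      ∑ T' ∈ sub H M, ∑ x ∈ T', if (x ∉ T ∧ ¬ Disjoint T' T) then g x else 0 := by
    intro T _
    have h2 : ∀ x ∈ M \ T, (dl H M T x : ℝ) * g x =
        ∑ T' ∈ sub H M, if (x ∈ T' ∧ ¬ Disjoint T' T) then g x else 0 := by
      intro x _
      rw [← Finset.sum_filter, Finset.sum_const, nsmul_eq_mul, dl]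
    rw [Finset.sum_congr rfl h2, Finset.sum_comm]
    refine Finset.sum_congr rfl fun T' hT' => ?_
    rw [← Finset.sum_filter, ← Finset.sum_filter]
    refine Finset.sum_congr ?_ fun _ _ => rfl
    ext x
    simp only [mem_filter, mem_sdiff]
    have := (mem_sub.1 hT').2
    constructor
    · rintro ⟨⟨_, h3⟩, h4, h5⟩; exact ⟨h4, h3, h5⟩
    · rintro ⟨h4, h3, h5⟩; exact ⟨⟨this h4, h3⟩, h4, h5⟩
  rw [Finset.sum_congr rfl h1, Finset.sum_comm]
  refine Finset.sum_congr rfl fun T' hT' => ?_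
  rw [Finset.sum_comm]
  refine Finset.sum_congr rfl fun x hx => ?_
  rw [← Finset.sum_filter, Finset.sum_const, nsmul_eq_mul]
  congr 1
  have h5 := card_meet hH hT'
  have h6 := sT_eq hH hT'
  have h7 : ((sub H M).filter (fun T => x ∉ T ∧ ¬ Disjoint T' T)).card + deg H M x =
      1 + nb H M T' := by
    rw [← h5]
    have h8 : (sub H M).filter (fun T => ¬ Disjoint T T') =
        (sub H M).filter (fun T => x ∉ T ∧ ¬ Disjoint T' T) ∪
          (sub H M).filter (fun T => x ∈ T) := by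
      ext T
      simp only [mem_filter, mem_union]
      constructor
      · rintro ⟨h9, h10⟩
        by_cases h : x ∈ T
        · exact Or.inr ⟨h9, h⟩
        · exact Or.inl ⟨h9, h, fun h11 => h10 h11.symm⟩
      · rintro (⟨h9, _, h10⟩ | ⟨h9, h10⟩)
        · exact ⟨h9, fun h11 => h10 h11.symm⟩
        · exact ⟨h9, not_disjoint_iff.2 ⟨x, h10, hx⟩⟩
    rw [h8, card_union_of_disjoint, deg]
    rw [disjoint_filter]
    intro T _ h9 h10
    exact h9.1 h10
  have h12 : (((sub H M).filter (fun T => x ∉ T ∧ ¬ Disjoint T' T)).card : ℝ) + deg H M x =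
      1 + nb H M T' := by exact_mod_cast h7
  have h13 : (sT H M T' : ℝ) = 3 + nb H M T' := by exact_mod_cast h6
  rw [h13]; linarith

theorem deg_le_of_subset {M' : Finset V} (h : M' ⊆ M) (x : V) : deg H M' x ≤ deg H M x := by
  unfold deg sub
  refine card_le_card ?_
  intro T hT
  simp only [mem_filter] at hT ⊢
  exact ⟨⟨hT.1.1, hT.1.2.trans h⟩, hT.2⟩

theorem card_sdiff_of_mem (hH : IsLin3 H) (hT : T ∈ sub H M) : (M \ T).card + 3 = M.card := by
  have h := (mem_sub.1 hT).2
  have h3 := hH.card3 T (mem_sub.1 hT).1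
  have := card_sdiff_add_card_eq_card h
  omega

end Vale.Agent.P046
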