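import Vale.Agent.P046.Hfun

/-!
The three-variable inequality behind the energy method.
-/

namespace Vale.Agent.P046

theorem K2_nonneg {u t : ℝ} (hu : 0 ≤ u) (ht : 0 ≤ t) (ht1 : t ≤ 1) :
    0 ≤ (24 * t ^ 2 - 14 * t ^ 3) + (-24 * t + 60 * t ^ 2 - 28 * t ^ 3) * u +
      (6 - 36 * t + 48 * t ^ 2 - 14 * t ^ 3) * u ^ 2 + (5 - 16 * t + 12 * t ^ 2) * u ^ 3 + u ^ 4 := by
  have h1t : 0 ≤ 1 - t := by linarith
  set r := u - 2 * t with hr
  have hur : u = r + 2 * t := by rw [hr]; ring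
  set E := 6 - 6 * t - 24 * t ^ 2 + 58 * t ^ 3 with hE
  set e := 5 - 8 * t + 12 * t ^ 2 with he
  set b := -24 * t ^ 2 + 4 * t ^ 3 + 88 * t ^ 4 with hb
  set c := 2 * t ^ 3 + 24 * t ^ 4 + 40 * t ^ 5 with hc
  have hK : (24 * t ^ 2 - 14 * t ^ 3) + (-24 * t + 60 * t ^ 2 - 28 * t ^ 3) * u +
      (6 - 36 * t + 48 * t ^ 2 - 14 * t ^ 3) * u ^ 2 + (5 - 16 * t + 12 * t ^ 2) * u ^ 3 + u ^ 4 =
      c + b * r + E * r ^ 2 + e * r ^ 3 + r ^ 4 := by
    rw [hur, hE, he, hb, hc]; ring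
  have hepos : 0 < e := by rw [he]; nlinarith [sq_nonneg (t - 1 / 3)]
  rcases le_or_gt 0 r with hr0 | hr0
  · rw [hK]
    have hEpos : 0 < E := by
      rw [hE]; nlinarith [sq_nonneg (t - 37 / 100), mul_nonneg ht (sq_nonneg (t - 37 / 100))]
    have hdisc : b ^ 2 ≤ 4 * E * c := by
      have : 4 * E * c - b ^ 2 = 8 * t ^ 3 * (6 - 6 * t + 48 * t ^ 2 + 176 * t ^ 3 + 128 * t ^ 4 + 192 * t ^ 5) := by
        rw [hE, hb, hc]; ring
      have h2 : 0 ≤ 8 * t ^ 3 * (6 - 6 * t + 48 * t ^ 2 + 176 * t ^ 3 + 128 * t ^ 4 + 192 * t ^ 5) := by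
        apply mul_nonneg (by positivity)
        have : 0 ≤ 48 * t ^ 2 + 176 * t ^ 3 + 128 * t ^ 4 + 192 * t ^ 5 := by positivity
        linarith
      linarith
    have hq : 0 ≤ c + b * r + E * r ^ 2 := by
      have h3 : 0 ≤ 4 * E * (c + b * r + E * r ^ 2) := by nlinarith [sq_nonneg (2 * E * r + b)]
      exact nonneg_of_mul_nonneg_right h3 (by positivity)
    have : 0 ≤ e * r ^ 3 + r ^ 4 := by positivity
    linarith
  · rcases le_total t (1 / 2) with ht2 | ht2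
    · rw [hK]
      have hb0 : b ≤ 0 := by
        have : b = -(4 * t ^ 2 * (6 - t - 22 * t ^ 2)) := by rw [hb]; ring
        rw [this]
        have h2 : 0 ≤ 6 - t - 22 * t ^ 2 := by nlinarith
        have : 0 ≤ 4 * t ^ 2 * (6 - t - 22 * t ^ 2) := by positivity
        linarith
      have hc0 : 0 ≤ c := by rw [hc]; positivity
      have hrt : -(2 * t) ≤ r := by rw [hr]; linarith
      have h1 : 0 ≤ E - 2 * t * e := by
        have : E - 2 * t * e = 6 - 16 * t - 8 * t ^ 2 + 34 * t ^ 3 := by rw [hE, he]; ring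
        rw [this]; nlinarith [sq_nonneg (t - 48 / 100), mul_nonneg ht (sq_nonneg (t - 48 / 100))]
      have h2 : 0 ≤ E + e * r := by nlinarith
      have h3 : 0 ≤ b * r := mul_nonneg_of_nonpos_of_nonpos hb0 hr0.le
      have h4 : 0 ≤ r ^ 2 * (E + e * r) := by positivity
      nlinarith [sq_nonneg (r ^ 2)]
    · have h0 : 4 ≤ 24 * t ^ 2 - 14 * t ^ 3 := by nlinarith [mul_nonneg (sub_nonneg.2 ht2) h1t]
      have h1 : -(1 / 2) ≤ -24 * t + 60 * t ^ 2 - 28 * t ^ 3 := by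
        nlinarith [mul_nonneg (sub_nonneg.2 ht2) h1t, mul_nonneg ht (mul_nonneg (sub_nonneg.2 ht2) h1t)]
      have h2 : -(18 / 10) ≤ 6 - 36 * t + 48 * t ^ 2 - 14 * t ^ 3 := by
        nlinarith [mul_nonneg (sub_nonneg.2 ht2) h1t, mul_nonneg ht (mul_nonneg (sub_nonneg.2 ht2) h1t),
          sq_nonneg (t - 1 / 2), mul_nonneg h1t (sq_nonneg (t - 1 / 2)), sq_nonneg (t - 52/100)]
      have h3 : -(34 / 100) ≤ 5 - 16 * t + 12 * t ^ 2 := by nlinarith [sq_nonneg (t - 2 / 3)]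
      have hu2 : 0 ≤ u ^ 2 := by positivity
      have hu3 : 0 ≤ u ^ 3 := by positivity
      have k1 := mul_le_mul_of_nonneg_right h1 hu
      have k2 := mul_le_mul_of_nonneg_right h2 hu2
      have k3 := mul_le_mul_of_nonneg_right h3 hu3
      nlinarith [sq_nonneg (u ^ 2 - 1), sq_nonneg (u ^ 2 - u), sq_nonneg (u - 1)]

theorem J1_nonneg {r t : ℝ} (hr : 0 ≤ r) (ht : 0 ≤ t) (ht1 : t ≤ 1) :
    0 ≤ r * (2 * (t + r) * ((t + r) ^ 2 + 3 * (t + r) + 3) - 6 * t * (1 - t) * (1 + t + r) ^ 2)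
      - (t + r) ^ 3 * (1 + t + r) + 5 * t ^ 3 * (1 + t + r) ^ 2 := by
  have h1t : 0 ≤ 1 - t := by linarith
  have e : r * (2 * (t + r) * ((t + r) ^ 2 + 3 * (t + r) + 3) - 6 * t * (1 - t) * (1 + t + r) ^ 2)
      - (t + r) ^ 3 * (1 + t + r) + 5 * t ^ 3 * (1 + t + r) ^ 2 =
      3 * r ^ 2 * (1 - t) + 4 * r ^ 3 * (1 - t) + 3 * (r - t ^ 2 / 2) ^ 2 + (33 / 4 * t ^ 4 + 4 * t ^ 3
        + r ^ 3 + 14 * r * t ^ 3 + r ^ 4 + 5 * t ^ 5 + 16 * r * t ^ 4 + 17 * r ^ 2 * t ^ 3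
        + 6 * r ^ 3 * t ^ 2) := by
    ring
  rw [e]
  positivity

/-- one summand, normalized -/
noncomputable def Aone (x s : ℝ) : ℝ := Hf x 1 * (1 + 1 / x) + Hd x 1 * (s - 2)

theorem Aone_L {t s : ℝ} (ht : 0 ≤ t) (ht1 : t < 1) :
    6 * t ^ 2 - t ^ 3 - 6 * t * (1 - t) * (s - 2) ≤ Aone (1 - t) s := by
  have hx : 0 < 1 - t := by linarith
  have hle : 1 - t ≤ 1 := by linarith
  unfold Aone Hf Hd HL
  rw [if_pos hle, if_pos hle]
  have e : (2 * (1 - t) ^ 3 / 1 - 3 * (1 - t) ^ 2 + 1 ^ 2) * (1 + 1 / (1 - t)) +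
      (6 * (1 - t) ^ 2 / 1 - 6 * (1 - t)) * (s - 2) -
      (6 * t ^ 2 - t ^ 3 - 6 * t * (1 - t) * (s - 2)) = t ^ 4 / (1 - t) := by
    field_simp; ring
  have h2 : 0 ≤ t ^ 4 / (1 - t) := by positivity
  linarith

theorem Aone_R {u s : ℝ} (hu : 0 ≤ u) :
    Aone (1 + u) s = u ^ 2 * (u + 3) * (u + 2) / (1 + u) ^ 2 +
      2 * u * (u ^ 2 + 3 * u + 3) / (1 + u) ^ 2 * (s - 2) := by
  have hx : 0 < 1 + u := by linarith
  unfold Aone Hf Hd HL HR
  by_cases h : 1 + u ≤ 1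
  · have : u = 0 := by linarith
    subst this; norm_num
  · rw [if_neg h, if_neg h]
    field_simp; ring

theorem Aone_R_nonneg {u s : ℝ} (hu : 0 ≤ u) (hs : 2 ≤ s) : 0 ≤ Aone (1 + u) s := by
  rw [Aone_R hu]
  have : 0 ≤ s - 2 := by linarith
  positivity

theorem Aone_L_nonneg {t s : ℝ} (ht : 0 ≤ t) (ht1 : t < 1) (hs : s ≤ 2) : 0 ≤ Aone (1 - t) s := by
  refine le_trans ?_ (Aone_L ht ht1)
  have h1 : 0 ≤ 1 - t := by linarith
  have h2 : 0 ≤ 2 - s := by linarith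
  have h3 : 0 ≤ 6 * t * (1 - t) * (2 - s) := by positivity
  nlinarith [sq_nonneg t]

theorem case_RLL {u s t : ℝ} (hu : 0 ≤ u) (hs : 0 ≤ s) (hs1 : s < 1) (ht : 0 ≤ t) (ht1 : t < 1) :
    0 ≤ Aone (1 + u) ((1 - s) + (1 - t)) + Aone (1 - s) ((1 + u) + (1 - t)) +
      Aone (1 - t) ((1 + u) + (1 - s)) := by
  have h1 := Aone_L (s := (1 + u) + (1 - t)) hs hs1
  have h2 := Aone_L (s := (1 + u) + (1 - s)) ht ht1
  rw [Aone_R hu]
  have hx : 0 < 1 + u := by linarith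
  have hm := K2_nonneg (u := u) (t := (s + t) / 2) hu (by linarith) (by linarith)
  have hd : 0 ≤ (1 + u) ^ 2 * ((s - t) ^ 2 / 4) * (12 * u + 6 * ((s + t) / 2)) := by positivity
  have e : (u ^ 2 * (u + 3) * (u + 2) / (1 + u) ^ 2 +
      2 * u * (u ^ 2 + 3 * u + 3) / (1 + u) ^ 2 * ((1 - s) + (1 - t) - 2)) +
      (6 * s ^ 2 - s ^ 3 - 6 * s * (1 - s) * ((1 + u) + (1 - t) - 2)) +
      (6 * t ^ 2 - t ^ 3 - 6 * t * (1 - t) * ((1 + u) + (1 - s) - 2)) =
      ((24 * ((s + t) / 2) ^ 2 - 14 * ((s + t) / 2) ^ 3) +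
        (-24 * ((s + t) / 2) + 60 * ((s + t) / 2) ^ 2 - 28 * ((s + t) / 2) ^ 3) * u +
      (6 - 36 * ((s + t) / 2) + 48 * ((s + t) / 2) ^ 2 - 14 * ((s + t) / 2) ^ 3) * u ^ 2 +
      (5 - 16 * ((s + t) / 2) + 12 * ((s + t) / 2) ^ 2) * u ^ 3 + u ^ 4 +
      (1 + u) ^ 2 * ((s - t) ^ 2 / 4) * (12 * u + 6 * ((s + t) / 2))) / (1 + u) ^ 2 := by
    field_simp; ring
  have h3 : 0 ≤ (u ^ 2 * (u + 3) * (u + 2) / (1 + u) ^ 2 +
      2 * u * (u ^ 2 + 3 * u + 3) / (1 + u) ^ 2 * ((1 - s) + (1 - t) - 2)) +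
      (6 * s ^ 2 - s ^ 3 - 6 * s * (1 - s) * ((1 + u) + (1 - t) - 2)) +
      (6 * t ^ 2 - t ^ 3 - 6 * t * (1 - t) * ((1 + u) + (1 - s) - 2)) := by
    rw [e]
    apply div_nonneg _ (by positivity)
    linarith
  linarith

/-- `p(u) = 2 ((1+u) - (1+u)⁻²)` -/
noncomputable def pp (u : ℝ) : ℝ := 2 * u * (u ^ 2 + 3 * u + 3) / (1 + u) ^ 2

theorem pp_le {u : ℝ} (hu : 0 ≤ u) : pp u ≤ 6 * u := by
  unfold pp
  rw [div_le_iff₀ (by positivity)]
  have : 0 ≤ u ^ 2 * (10 * u + 6 * u ^ 0) := by positivity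
  nlinarith [pow_nonneg hu 2, pow_nonneg hu 3]

theorem pp_add {u v : ℝ} (hu : 0 ≤ u) (hv : 0 ≤ v) : pp (u + v) ≤ pp u + pp v := by
  have h1 : 0 < 1 + u := by linarith
  have h2 : 0 < 1 + v := by linarith
  have h3 : 0 < 1 + (u + v) := by linarith
  have e : pp u + pp v - pp (u + v) =
      2 * (u * v * (6 + 12 * v + 12 * u + 8 * v ^ 2 + 18 * u * v + 8 * u ^ 2 + 2 * v ^ 3 +
        8 * u * v ^ 2 + 8 * u ^ 2 * v + 2 * u ^ 3 + u * v ^ 3 + 2 * u ^ 2 * v ^ 2 + u ^ 3 * v)) /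
        ((1 + u) ^ 2 * (1 + v) ^ 2 * (1 + (u + v)) ^ 2) := by
    unfold pp
    field_simp; ring
  have h4 : 0 ≤ 2 * (u * v * (6 + 12 * v + 12 * u + 8 * v ^ 2 + 18 * u * v + 8 * u ^ 2 + 2 * v ^ 3 +
        8 * u * v ^ 2 + 8 * u ^ 2 * v + 2 * u ^ 3 + u * v ^ 3 + 2 * u ^ 2 * v ^ 2 + u ^ 3 * v)) /
        ((1 + u) ^ 2 * (1 + v) ^ 2 * (1 + (u + v)) ^ 2) := by positivity
  linarith

theorem cube_add {u v : ℝ} (hu : 0 ≤ u) (hv : 0 ≤ v) :
    u ^ 3 / (1 + u) + v ^ 3 / (1 + v) ≤ (u + v) ^ 3 / (1 + (u + v)) := by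
  have h1 : 0 < 1 + u := by linarith
  have h2 : 0 < 1 + v := by linarith
  have h3 : 0 < 1 + (u + v) := by linarith
  have e : (u + v) ^ 3 / (1 + (u + v)) - (u ^ 3 / (1 + u) + v ^ 3 / (1 + v)) =
      u * v * (3 * v + 3 * u + 2 * v ^ 2 + 6 * u * v + 2 * u ^ 2 + 2 * u * v ^ 2 + 2 * u ^ 2 * v) /
        ((1 + u) * (1 + v) * (1 + (u + v))) := by
    field_simp; ring
  have h4 : 0 ≤ u * v * (3 * v + 3 * u + 2 * v ^ 2 + 6 * u * v + 2 * u ^ 2 + 2 * u * v ^ 2 +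
      2 * u ^ 2 * v) / ((1 + u) * (1 + v) * (1 + (u + v))) := by positivity
  linarith

theorem case_RRL {u v t : ℝ} (hu : 0 ≤ u) (hv : 0 ≤ v) (ht : 0 ≤ t) (ht1 : t < 1) :
    0 ≤ Aone (1 + u) ((1 + v) + (1 - t)) + Aone (1 + v) ((1 + u) + (1 - t)) +
      Aone (1 - t) ((1 + u) + (1 + v)) := by
  have h2 := Aone_L (s := (1 + u) + (1 + v)) ht ht1
  have hx : 0 < 1 + u := by linarith
  have hy : 0 < 1 + v := by linarith
  have hw : 0 < 1 + (u + v) := by linarith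
  have e : Aone (1 + u) ((1 + v) + (1 - t)) + Aone (1 + v) ((1 + u) + (1 - t)) +
      (6 * t ^ 2 - t ^ 3 - 6 * t * (1 - t) * ((1 + u) + (1 + v) - 2)) =
      (u + v - t) * (pp u + pp v - 6 * t * (1 - t)) - (u ^ 3 / (1 + u) + v ^ 3 / (1 + v))
        + 5 * t ^ 3 := by
    rw [Aone_R hu, Aone_R hv]
    unfold pp
    field_simp; ring
  have h3 : 0 ≤ (u + v - t) * (pp u + pp v - 6 * t * (1 - t)) - (u ^ 3 / (1 + u) + v ^ 3 / (1 + v))
        + 5 * t ^ 3 := by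
    have hc := cube_add hu hv
    rcases le_total t (u + v) with h | h
    · -- w ≥ t
      have hp := pp_add hu hv
      have hJ := J1_nonneg (r := u + v - t) (t := t) (by linarith) ht ht1.le
      have e2 : (u + v - t) * (pp (u + v) - 6 * t * (1 - t)) - (u + v) ^ 3 / (1 + (u + v)) + 5 * t ^ 3
        = ((u + v - t) * (2 * (t + (u + v - t)) * ((t + (u + v - t)) ^ 2 + 3 * (t + (u + v - t)) + 3)
          - 6 * t * (1 - t) * (1 + t + (u + v - t)) ^ 2)
      - (t + (u + v - t)) ^ 3 * (1 + t + (u + v - t)) + 5 * t ^ 3 * (1 + t + (u + v - t)) ^ 2) /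
        (1 + (u + v)) ^ 2 := by
        unfold pp
        have h5 : t + (u + v - t) = u + v := by ring
        have h6 : 1 + t + (u + v - t) = 1 + (u + v) := by ring
        rw [h5, h6]
        field_simp
      have h7 : 0 ≤ (u + v - t) * (pp (u + v) - 6 * t * (1 - t)) - (u + v) ^ 3 / (1 + (u + v))
          + 5 * t ^ 3 := by
        rw [e2]; exact div_nonneg hJ (by positivity)
      have h8 : (u + v - t) * (pp (u + v) - 6 * t * (1 - t)) ≤
          (u + v - t) * (pp u + pp v - 6 * t * (1 - t)) :=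
        mul_le_mul_of_nonneg_left (by linarith) (by linarith)
      linarith
    · have hc2 : (u + v) ^ 3 / (1 + (u + v)) ≤ t ^ 3 := by
        rw [div_le_iff₀ hw]
        have h5 : (u + v) ^ 3 ≤ t ^ 3 := pow_le_pow_left₀ (by positivity) h 3
        have : 0 ≤ t ^ 3 * (u + v) := by positivity
        nlinarith
      have hpu := pp_le hu
      have hpv := pp_le hv
      have h6 : (t - (u + v)) * (pp u + pp v - 6 * t * (1 - t)) ≤
          (t - (u + v)) * (6 * (u + v) - 6 * t * (1 - t)) :=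
        mul_le_mul_of_nonneg_left (by linarith) (by linarith)
      have h7 : (t - (u + v)) * (6 * (u + v) - 6 * t * (1 - t)) ≤ 3 / 2 * t ^ 4 := by
        nlinarith [sq_nonneg (t - (u + v) - t ^ 2 / 2)]
      have h8 : t ^ 4 ≤ t ^ 3 := by
        have : 0 ≤ t ^ 3 := by positivity
        nlinarith
      have h9 : 0 ≤ t ^ 3 := by positivity
      nlinarith
  linarith

/-- the normalized inequality -/
theorem triple_norm {x y z : ℝ} (hx : 0 < x) (hy : 0 < y) (hz : 0 < z) :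
    0 ≤ Aone x (y + z) + Aone y (x + z) + Aone z (x + y) := by
  have hxe : x = 1 + (x - 1) := by ring
  have hxe' : x = 1 - (1 - x) := by ring
  have hye : y = 1 + (y - 1) := by ring
  have hye' : y = 1 - (1 - y) := by ring
  have hze : z = 1 + (z - 1) := by ring
  have hze' : z = 1 - (1 - z) := by ring
  rcases le_total x 1 with h1 | h1 <;> rcases le_total y 1 with h2 | h2 <;>
    rcases le_total z 1 with h3 | h3
  · -- LLL
    rw [hxe', hye', hze']
    have a1 := Aone_L_nonneg (t := 1 - x) (s := (1 - (1 - y)) + (1 - (1 - z))) (by linarith) (by linarith) (by linarith)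
    have a2 := Aone_L_nonneg (t := 1 - y) (s := (1 - (1 - x)) + (1 - (1 - z))) (by linarith) (by linarith) (by linarith)
    have a3 := Aone_L_nonneg (t := 1 - z) (s := (1 - (1 - x)) + (1 - (1 - y))) (by linarith) (by linarith) (by linarith)
    linarith
  · -- LLR
    have := case_RLL (u := z - 1) (s := 1 - x) (t := 1 - y) (by linarith) (by linarith) (by linarith) (by linarith) (by linarith)
    rw [← hxe', ← hye', ← hze] at this
    rw [add_comm x z, add_comm y z] 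
    linarith
  · -- LRL
    have := case_RLL (u := y - 1) (s := 1 - x) (t := 1 - z) (by linarith) (by linarith) (by linarith) (by linarith) (by linarith)
    rw [← hxe', ← hze', ← hye] at this
    rw [add_comm x y]
    linarith
  · -- LRR
    have := case_RRL (u := y - 1) (v := z - 1) (t := 1 - x) (by linarith) (by linarith) (by linarith) (by linarith)
    rw [← hxe', ← hze, ← hye] at this
    rw [add_comm x y, add_comm x z]
    linarith
  · -- RLL
    have := case_RLL (u := x - 1) (s := 1 - y) (t := 1 - z) (by linarith) (by linarith) (by linarith) (by linarith) (by linarith)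
    rw [← hye', ← hze', ← hxe] at this
    linarith
  · -- RLR
    have := case_RRL (u := x - 1) (v := z - 1) (t := 1 - y) (by linarith) (by linarith) (by linarith) (by linarith)
    rw [← hye', ← hze, ← hxe] at this
    rw [add_comm y z]
    linarith
  · -- RRL
    have := case_RRL (u := x - 1) (v := y - 1) (t := 1 - z) (by linarith) (by linarith) (by linarith) (by linarith)
    rw [← hye, ← hze', ← hxe] at this
    linarith
  · -- RRR
    rw [hxe, hye, hze]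
    have a1 := Aone_R_nonneg (u := x - 1) (s := (1 + (y - 1)) + (1 + (z - 1))) (by linarith) (by linarith)
    have a2 := Aone_R_nonneg (u := y - 1) (s := (1 + (x - 1)) + (1 + (z - 1))) (by linarith) (by linarith)
    have a3 := Aone_R_nonneg (u := z - 1) (s := (1 + (x - 1)) + (1 + (y - 1))) (by linarith) (by linarith)
    linarith

theorem Hf_scale {d D : ℝ} (hD : 0 < D) : Hf d D = D ^ 2 * Hf (d / D) 1 := by
  unfold Hf HL HR
  by_cases h : d ≤ D
  · rw [if_pos h, if_pos ((div_le_one hD).2 h)]; field_simp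
  · rw [if_neg h, if_neg (by rw [div_le_one hD]; exact h)]
    have hd : 0 < d := hD.trans (not_le.1 h)
    field_simp

theorem Hd_scale {d D : ℝ} (hD : 0 < D) : Hd d D = D * Hd (d / D) 1 := by
  unfold Hd
  by_cases h : d ≤ D
  · rw [if_pos h, if_pos ((div_le_one hD).2 h)]; field_simp
  · rw [if_neg h, if_neg (by rw [div_le_one hD]; exact h)]
    have hd : 0 < d := hD.trans (not_le.1 h)
    field_simp

/-- the homogeneous inequality -/
theorem triple_ineq {a b c D : ℝ} (ha : 0 < a) (hb : 0 < b) (hc : 0 < c) (hD : 0 < D) :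
    0 ≤ (Hf a D * (1 + D / a) + Hd a D * (b + c - 2 * D)) +
      (Hf b D * (1 + D / b) + Hd b D * (a + c - 2 * D)) +
      (Hf c D * (1 + D / c) + Hd c D * (a + b - 2 * D)) := by
  have h := triple_norm (div_pos ha hD) (div_pos hb hD) (div_pos hc hD)
  unfold Aone at h
  rw [Hf_scale hD, Hf_scale (d := b) hD, Hf_scale (d := c) hD, Hd_scale hD, Hd_scale (d := b) hD,
    Hd_scale (d := c) hD]
  have e1 : (1 : ℝ) / (a / D) = D / a := by field_simp
  have e2 : (1 : ℝ) / (b / D) = D / b := by field_simp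
  have e3 : (1 : ℝ) / (c / D) = D / c := by field_simp
  rw [e1, e2, e3] at h
  have h2 := mul_nonneg (sq_nonneg D) h
  refine h2.trans_eq ?_
  field_simp

end Vale.Agent.P046
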