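import Mathlib

/-!
The random triangle removal process.
-/

namespace Vale.Agent.P046

open Classical in
/-- One step of the process: if the current graph has a triangle, choose one uniformly at random
and delete its three edges; otherwise do nothing. -/
noncomputable def triStep {n : ℕ} (G : SimpleGraph (Fin n)) : PMF (SimpleGraph (Fin n)) :=
  if h : (G.cliqueFinset 3).Nonempty then
    (PMF.uniformOfFinset (G.cliqueFinset 3) h).map fun t => G.deleteEdges {e | ∀ v ∈ e, v ∈ t}
  else PMF.pure G

/-- The law of the graph after `k` steps started from `G`. -/
noncomputable def triRun {n : ℕ} : ℕ → SimpleGraph (Fin n) → PMF (SimpleGraph (Fin n))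
  | 0, G => PMF.pure G
  | k + 1, G => (triStep G).bind (triRun k)

/-- The law of the final graph of the process started from the complete graph (the process makes
fewer than `n ^ 2` steps before it stops). -/
noncomputable def finalGraph (n : ℕ) : PMF (SimpleGraph (Fin n)) := triRun (n ^ 2) ⊤

/-- The law of the number `F_n` of edges of the final graph. -/
noncomputable def finalEdges (n : ℕ) : PMF ℕ := (finalGraph n).map fun G => G.edgeSet.ncard

end Vale.Agent.P046
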