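import Vale.Agent.P046.Hyper
import Vale.Agent.P046.Process

/-!
The hypergraph whose vertices are the edges of `K_n` and whose edges are the triangles.
-/

namespace Vale.Agent.P046

open Finset

variable {n : ℕ}

/-- the edges inside a vertex set -/
def Es (t : Finset (Fin n)) : Finset (Sym2 (Fin n)) := t.offDiag.image Sym2.mk.uncurry

theorem mem_Es {t : Finset (Fin n)} {a b : Fin n} : s(a, b) ∈ Es t ↔ a ≠ b ∧ a ∈ t ∧ b ∈ t := by
  unfold Es
  rw [mem_image]
  constructor
  · rintro ⟨⟨c, d⟩, hcd, he⟩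
    rw [mem_offDiag] at hcd
    simp only [Function.uncurry_apply_pair, Sym2.eq_iff] at he
    simp only at hcd
    rcases he with ⟨rfl, rfl⟩ | ⟨rfl, rfl⟩
    · exact ⟨hcd.2.2, hcd.1, hcd.2.1⟩
    · exact ⟨hcd.2.2.symm, hcd.2.1, hcd.1⟩
  · rintro ⟨h1, h2, h3⟩
    exact ⟨(a, b), mem_offDiag.2 ⟨h2, h3, h1⟩, rfl⟩

theorem card_Es (t : Finset (Fin n)) : (Es t).card = t.card.choose 2 :=
  Sym2.card_image_offDiag t

theorem Es_inter (s t : Finset (Fin n)) : Es s ∩ Es t = Es (s ∩ t) := by
  ext e
  induction e with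
  | h a b =>
    rw [mem_inter, mem_Es, mem_Es, mem_Es, mem_inter, mem_inter]
    tauto

theorem Es_inj {s t : Finset (Fin n)} (hs : s.card = 3) (ht : t.card = 3) (h : Es s = Es t) :
    s = t := by
  by_contra hne
  have h1 : (s ∩ t).card < 3 := by
    rw [← hs]
    refine card_lt_card ⟨inter_subset_left, fun hsub => hne ?_⟩
    exact eq_of_subset_of_card_le (hsub.trans inter_subset_right) (by rw [hs, ht])
  have h2 : (Es s ∩ Es t).card = 3 := by rw [← h, inter_self, card_Es, hs]; rfl
  rw [Es_inter, card_Es] at h2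
  have h3 : (s ∩ t).card.choose 2 ≤ Nat.choose 2 2 := Nat.choose_le_choose 2 (by omega)
  rw [h2] at h3
  simp at h3

/-- the triangle hypergraph -/
def Hn (n : ℕ) : Finset (Finset (Sym2 (Fin n))) := ((univ : Finset (Fin n)).powersetCard 3).image Es

theorem Hn_lin : IsLin3 (Hn n) := by
  constructor
  · intro T hT
    obtain ⟨t, ht, rfl⟩ := mem_image.1 hT
    rw [card_Es, (mem_powersetCard.1 ht).2]; rfl
  · intro T hT T' hT' hne
    obtain ⟨t, ht, rfl⟩ := mem_image.1 hT
    obtain ⟨t', ht', rfl⟩ := mem_image.1 hT'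
    have hs := (mem_powersetCard.1 ht).2
    have hs' := (mem_powersetCard.1 ht').2
    rw [Es_inter, card_Es]
    have h1 : (t ∩ t').card < 3 := by
      rw [← hs]
      refine card_lt_card ⟨inter_subset_left, fun hsub => hne ?_⟩
      rw [eq_of_subset_of_card_le (hsub.trans inter_subset_right) (by rw [hs, hs'])]
    exact (Nat.choose_le_choose 2 (by omega : (t ∩ t').card ≤ 2)).trans (by norm_num)

open Classical in
/-- edge set as a finset -/
noncomputable def EF (G : SimpleGraph (Fin n)) : Finset (Sym2 (Fin n)) := G.edgeFinset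

open Classical in
theorem mem_EF {G : SimpleGraph (Fin n)} {a b : Fin n} : s(a, b) ∈ EF G ↔ G.Adj a b := by
  rw [EF, SimpleGraph.mem_edgeFinset, SimpleGraph.mem_edgeSet]

open Classical in
theorem Es_subset_iff (G : SimpleGraph (Fin n)) (t : Finset (Fin n)) :
    Es t ⊆ EF G ↔ G.IsClique t := by
  constructor
  · intro h a ha b hb hab
    have h1 := h (mem_Es.2 ⟨hab, ha, hb⟩)
    rwa [mem_EF] at h1
  · intro h e
    induction e with
    | h a b =>
      intro he
      rw [mem_Es] at he
      rw [mem_EF]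
      exact h he.2.1 he.2.2 he.1

theorem mem_sub_Hn (G : SimpleGraph (Fin n)) {T : Finset (Sym2 (Fin n))} :
    T ∈ sub (Hn n) (EF G) ↔ ∃ t : Finset (Fin n), G.IsNClique 3 t ∧ Es t = T := by
  rw [mem_sub, Hn, mem_image]
  constructor
  · rintro ⟨⟨t, ht, rfl⟩, hsub⟩
    refine ⟨t, ?_, rfl⟩
    rw [SimpleGraph.isNClique_iff]
    exact ⟨(Es_subset_iff G t).1 hsub, (mem_powersetCard.1 ht).2⟩
  · rintro ⟨t, ht, rfl⟩
    rw [SimpleGraph.isNClique_iff] at ht
    exact ⟨⟨t, mem_powersetCard.2 ⟨subset_univ _, ht.2⟩, rfl⟩, (Es_subset_iff G t).2 ht.1⟩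

open Classical in
theorem sub_Hn (G : SimpleGraph (Fin n)) : sub (Hn n) (EF G) = (G.cliqueFinset 3).image Es := by
  ext T
  rw [mem_sub_Hn, mem_image]
  simp only [SimpleGraph.mem_cliqueFinset_iff]

open Classical in
theorem edgeFinset_delete (G : SimpleGraph (Fin n)) (t : Finset (Fin n)) :
    EF (G.deleteEdges {e | ∀ v ∈ e, v ∈ t}) = EF G \ Es t := by
  ext e
  induction e with
  | h a b =>
    rw [mem_sdiff, mem_EF, mem_EF, SimpleGraph.deleteEdges_adj, mem_Es]
    simp only [Set.mem_ofPred_eq, Sym2.mem_iff, forall_eq_or_imp, forall_eq]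
    constructor
    · rintro ⟨h1, h2⟩
      exact ⟨h1, fun h3 => h2 ⟨h3.2.1, h3.2.2⟩⟩
    · rintro ⟨h1, h2⟩
      exact ⟨h1, fun h3 => h2 ⟨h1.ne, h3.1, h3.2⟩⟩

open Classical in
theorem deg_top {e : Sym2 (Fin n)} (he : e ∈ EF (⊤ : SimpleGraph (Fin n))) :
    deg (Hn n) (EF (⊤ : SimpleGraph (Fin n))) e = n - 2 := by
  induction e with
  | h a b =>
    rw [mem_EF, SimpleGraph.top_adj] at he
    unfold deg
    have h1 : ((univ : Finset (Fin n)) \ {a, b}).card = n - 2 := by
      rw [card_sdiff_of_subset (subset_univ _), card_pair he, card_univ, Fintype.card_fin]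
    rw [← h1]
    symm
    refine card_bij (fun c _ => Es {a, b, c}) ?_ ?_ ?_
    · intro c hc
      simp only [mem_sdiff, mem_univ, true_and, mem_insert, mem_singleton, not_or] at hc
      rw [mem_filter, mem_sub_Hn]
      refine ⟨⟨{a, b, c}, ?_, rfl⟩, ?_⟩
      · rw [SimpleGraph.isNClique_iff]
        refine ⟨fun x _ y _ hxy => hxy, ?_⟩
        exact card_eq_three.2 ⟨a, b, c, he, fun h => hc.1 h.symm, fun h => hc.2 h.symm, rfl⟩
      · rw [mem_Es]; simp [he]
    · intro c hc d hd hcd
      simp only [mem_sdiff, mem_univ, true_and, mem_insert, mem_singleton, not_or] at hc hd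
      have h2 : ({a, b, c} : Finset (Fin n)) = {a, b, d} :=
        Es_inj (card_eq_three.2 ⟨a, b, c, he, fun h => hc.1 h.symm, fun h => hc.2 h.symm, rfl⟩)
          (card_eq_three.2 ⟨a, b, d, he, fun h => hd.1 h.symm, fun h => hd.2 h.symm, rfl⟩) hcd
      have h3 : c ∈ ({a, b, d} : Finset (Fin n)) := by rw [← h2]; simp
      simp only [mem_insert, mem_singleton] at h3
      tauto
    · intro T hT
      rw [mem_filter, mem_sub_Hn] at hT
      obtain ⟨⟨t, ht, rfl⟩, hab⟩ := hT
      rw [SimpleGraph.isNClique_iff] at ht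
      rw [mem_Es] at hab
      have h2 : ({a, b} : Finset (Fin n)) ⊆ t := by
        intro x hx
        simp only [mem_insert, mem_singleton] at hx
        rcases hx with rfl | rfl
        · exact hab.2.1
        · exact hab.2.2
      have h3 : (t \ {a, b}).card = 1 := by
        rw [card_sdiff_of_subset h2, card_pair he, ht.2]
      obtain ⟨c, hc⟩ := card_eq_one.1 h3
      have hct : c ∈ t \ {a, b} := by rw [hc]; simp
      refine ⟨c, ?_, ?_⟩
      · rw [mem_sdiff] at hct ⊢
        exact ⟨mem_univ _, hct.2⟩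
      · have h4 : t = {a, b, c} := by
          rw [← sdiff_union_of_subset h2, hc]
          ext x; simp only [mem_union, mem_insert, mem_singleton]; tauto
        simp only [← h4]

open Classical in
theorem card_top : (EF (⊤ : SimpleGraph (Fin n))).card = n.choose 2 := by
  have h := SimpleGraph.card_edgeFinset_top_eq_card_choose_two (V := Fin n)
  rw [Fintype.card_fin] at h
  rw [← h]
  congr 1
  ext e
  induction e with
  | h a b => rw [mem_EF, SimpleGraph.mem_edgeFinset, SimpleGraph.mem_edgeSet]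

open Classical in
theorem ncard_eq (G : SimpleGraph (Fin n)) : G.edgeSet.ncard = (EF G).card := by
  rw [← SimpleGraph.coe_edgeFinset, Set.ncard_coe_finset, EF]

end Vale.Agent.P046
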