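import Vale.Agent.P046.Potential

/-!
Tail bound for regular linear 3-uniform hypergraphs.
-/

namespace Vale.Agent.P046

open Finset

variable {V : Type*} [DecidableEq V] {H : Finset (Finset V)} {M T : Finset V}

theorem tail_hyper (hH : IsLin3 H) {D0 μ : ℝ} {k : ℕ} (hD0 : 0 < D0)
    (hreg : ∀ x ∈ M, (deg H M x : ℝ) = D0) (hμ : 60 ≤ μ) (hDμ : D0 ≤ μ)
    (hM : (M.card : ℝ) = μ + 3 * k) :
    fail H k M ≤ 255000 * (M.card : ℝ) ^ 2 / (D0 * μ ^ 2) * (1 + Real.log (M.card / μ)) := by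
  obtain ⟨N, hN⟩ : ∃ N : ℝ, N = M.card := ⟨_, rfl⟩
  rw [← hN] at hM ⊢
  have hk0 : (0 : ℝ) ≤ k := by positivity
  have hNμ : μ ≤ N := by linarith
  have hN60 : 60 ≤ N := by linarith
  have hN0 : 0 < N := by linarith
  have hμ0 : 0 < μ := by linarith
  have hN3 : 0 < N - 3 := by linarith
  have hN6 : 0 < N - 6 := by linarith
  have hlog : 0 ≤ Real.log (N / μ) := Real.log_nonneg (by rw [le_div_iff₀ hμ0]; linarith)
  obtain ⟨κ, hκ⟩ : ∃ κ : ℝ, κ = D0 / ((N - 3) * (N - 6)) := ⟨_, rfl⟩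
  have hκ0 : 0 < κ := by rw [hκ]; positivity
  have hκe : κ * ((N - 3) * (N - 6)) = D0 := by rw [hκ]; field_simp
  have hNN : (N - 3) * (N - 6) ≤ N ^ 2 := by nlinarith
  have hkey : 1 / κ ≤ N ^ 2 / D0 := by
    rw [div_le_div_iff₀ hκ0 hD0, ← hκe]
    have := mul_le_mul_of_nonneg_left hNN hκ0.le
    linarith
  have hkey2 : 255000 / (κ * μ ^ 2) ≤ 255000 * N ^ 2 / (D0 * μ ^ 2) := by
    have h1 : 255000 / (κ * μ ^ 2) = 255000 / μ ^ 2 * (1 / κ) := by field_simp
    have h2 : 255000 * N ^ 2 / (D0 * μ ^ 2) = 255000 / μ ^ 2 * (N ^ 2 / D0) := by field_simp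
    rw [h1, h2]
    exact mul_le_mul_of_nonneg_left hkey (by positivity)
  by_cases hcase : 2390 ≤ κ * μ ^ 2
  · have h1 := fail_le_Lam (H := H) hH hκ0 hμ hcase k M 0 (by rw [← hN, hM]) le_rfl
      (fun x hx => (hreg x hx).le.trans hDμ)
    have hQ : 3 * ((sub H M).card : ℝ) = N * D0 := by
      rw [← sum_deg hH, sum_congr rfl hreg, sum_const, nsmul_eq_mul, ← hN]
    have hDD : DD H M = D0 := by
      unfold DD; rw [hQ, ← hN]; field_simp
    have hW : W H M = 0 := by
      unfold W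
      refine sum_eq_zero fun x hx => ?_
      rw [hreg x hx, hDD, Hf_self hD0]
    have hQh : ((sub H M).card : ℝ) / Qh κ N = 1 := by
      have h2 : Qh κ N = N * D0 / 3 := by unfold Qh; rw [← hκe]; ring
      have h3 : ((sub H M).card : ℝ) = N * D0 / 3 := by linarith
      rw [h2, h3]
      exact div_self (by positivity)
    unfold Lam at h1
    rw [← hN, hW, hQh] at h1
    have h2 : fail H k M ≤ cc κ μ N := by
      refine h1.trans (le_of_eq ?_)
      ring
    refine h2.trans ?_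
    unfold cc
    refine mul_le_mul hkey2 (by linarith) hlog (by positivity)
  · push Not at hcase
    refine (fail_le_one k M).trans ?_
    have h1 : 1 ≤ 255000 / (κ * μ ^ 2) := by
      rw [one_le_div (by positivity)]; linarith
    have h2 := h1.trans hkey2
    have h3 : 255000 * N ^ 2 / (D0 * μ ^ 2) * 1 ≤
        255000 * N ^ 2 / (D0 * μ ^ 2) * (1 + Real.log (N / μ)) :=
      mul_le_mul_of_nonneg_left (by linarith) (by positivity)
    linarith

end Vale.Agent.P046
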