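import Vale.Agent.P046.Kn
import Vale.Agent.P046.Regular

/-!
The law of the process in terms of `fail`.
-/

namespace Vale.Agent.P046

open Finset
open scoped ENNReal

variable {n : ℕ}

theorem fail_nonneg {V : Type*} [DecidableEq V] (H : Finset (Finset V)) (k : ℕ) :
    ∀ M, 0 ≤ fail H k M := by
  induction k with
  | zero => intro M; simp [fail]
  | succ k ih =>
    intro M
    unfold fail
    split_ifs with h
    · exact zero_le_one
    · exact div_nonneg (Finset.sum_nonneg fun T _ => ih _) (Nat.cast_nonneg _)

open Classical in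
theorem triStep_support (G G' : SimpleGraph (Fin n)) (h : G' ∈ (triStep G).support) : G' ≤ G := by
  unfold triStep at h
  split_ifs at h with h1
  · rw [PMF.mem_support_map_iff] at h
    obtain ⟨t, _, rfl⟩ := h
    exact SimpleGraph.deleteEdges_le _
  · rw [PMF.mem_support_pure_iff] at h
    rw [h]

theorem triRun_support (k : ℕ) : ∀ G G' : SimpleGraph (Fin n), G' ∈ (triRun k G).support → G' ≤ G := by
  induction k with
  | zero =>
    intro G G' h
    rw [triRun, PMF.mem_support_pure_iff] at h
    rw [h]
  | succ k ih =>
    intro G G' h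
    rw [triRun, PMF.mem_support_bind_iff] at h
    obtain ⟨G1, h1, h2⟩ := h
    exact (ih G1 G' h2).trans (triStep_support G G1 h1)

theorem EF_mono {G G' : SimpleGraph (Fin n)} (h : G' ≤ G) : EF G' ⊆ EF G := by
  intro e
  induction e with
  | h a b => rw [mem_EF, mem_EF]; exact fun h1 => h h1

theorem toOuter_le_one {α : Type*} (p : PMF α) (s : Set α) : p.toOuterMeasure s ≤ 1 := by
  have h := (p.toOuterMeasure_apply_eq_one_iff Set.univ).2 (Set.subset_univ _)
  rw [← h]
  exact MeasureTheory.measure_mono (Set.subset_univ s)

open Classical in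
theorem prob_le_fail (k : ℕ) : ∀ (K : ℕ) (G : SimpleGraph (Fin n)), k ≤ K →
    (triRun K G).toOuterMeasure {G' | (EF G).card < (EF G').card + 3 * k} ≤
      ENNReal.ofReal (fail (Hn n) k (EF G)) := by
  induction k with
  | zero =>
    intro K G _
    have h0 : (triRun K G).toOuterMeasure {G' | (EF G).card < (EF G').card + 3 * 0} = 0 := by
      rw [PMF.toOuterMeasure_apply_eq_zero_iff, Set.disjoint_left]
      intro G' h1 h2
      rw [Set.mem_ofPred_eq] at h2
      have h3 := card_le_card (EF_mono (triRun_support K G G' h1))
      omega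
    rw [h0]; exact zero_le
  | succ k ih =>
    intro K G hK
    obtain ⟨K', rfl⟩ : ∃ K', K = K' + 1 := ⟨K - 1, by omega⟩
    by_cases hne : (G.cliqueFinset 3).Nonempty
    · have hsub : sub (Hn n) (EF G) ≠ ∅ := by
        rw [sub_Hn]
        exact (hne.image _).ne_empty
      have hinj : Set.InjOn Es (G.cliqueFinset 3 : Set (Finset (Fin n))) := by
        intro s hs t ht hst
        rw [mem_coe, SimpleGraph.mem_cliqueFinset_iff, SimpleGraph.isNClique_iff] at hs ht
        exact Es_inj hs.2 ht.2 hst
      have hcard : (sub (Hn n) (EF G)).card = (G.cliqueFinset 3).card := by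
        rw [sub_Hn, card_image_of_injOn hinj]
      rw [fail, if_neg hsub, hcard]
      have hsum : ∑ T ∈ sub (Hn n) (EF G), fail (Hn n) k (EF G \ T) =
          ∑ t ∈ G.cliqueFinset 3, fail (Hn n) k (EF G \ Es t) := by
        rw [sub_Hn, sum_image hinj]
      rw [hsum, triRun, triStep, dif_pos hne, PMF.bind_map, PMF.toOuterMeasure_bind_apply]
      have hc : (0 : ℝ) < (G.cliqueFinset 3).card := by exact_mod_cast card_pos.2 hne
      rw [tsum_eq_sum (s := G.cliqueFinset 3)]
      · have hpt : ∀ t ∈ G.cliqueFinset 3,
            (PMF.uniformOfFinset (G.cliqueFinset 3) hne) t *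
              ((triRun K' ∘ fun t => G.deleteEdges {e | ∀ v ∈ e, v ∈ t}) t).toOuterMeasure
                {G' | (EF G).card < (EF G').card + 3 * (k + 1)} ≤
            ENNReal.ofReal (fail (Hn n) k (EF G \ Es t) / (G.cliqueFinset 3).card) := by
          intro t ht
          rw [PMF.uniformOfFinset_apply_of_mem _ ht]
          have h1 := ih K' (G.deleteEdges {e | ∀ v ∈ e, v ∈ t}) (by omega)
          rw [edgeFinset_delete] at h1
          have h2 : (EF G \ Es t).card + 3 = (EF G).card := by
            refine card_sdiff_of_mem Hn_lin ?_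
            rw [sub_Hn]
            exact mem_image_of_mem _ ht
          have h3 : {G' : SimpleGraph (Fin n) | (EF G \ Es t).card < (EF G').card + 3 * k} =
              {G' | (EF G).card < (EF G').card + 3 * (k + 1)} := by
            ext G'
            rw [Set.mem_ofPred_eq, Set.mem_ofPred_eq]
            omega
          rw [h3] at h1
          rw [div_eq_inv_mul, ENNReal.ofReal_mul (by positivity)]
          refine mul_le_mul' ?_ h1
          rw [ENNReal.ofReal_inv_of_pos hc, ENNReal.ofReal_natCast]
        refine (Finset.sum_le_sum hpt).trans (le_of_eq ?_)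
        rw [← ENNReal.ofReal_sum_of_nonneg, ← Finset.sum_div]
        intro t _
        exact div_nonneg (fail_nonneg _ _ _) (Nat.cast_nonneg _)
      · intro t ht
        rw [PMF.uniformOfFinset_apply_of_notMem _ ht, zero_mul]
    · have hsub : sub (Hn n) (EF G) = ∅ := by
        rw [sub_Hn, not_nonempty_iff_eq_empty.1 hne, image_empty]
      rw [fail, if_pos hsub, ENNReal.ofReal_one]
      exact toOuter_le_one _ _

end Vale.Agent.P046
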