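import Vale.Agent.P046.Potential

/-!
The submartingale used for the lower bound.
-/

namespace Vale.Agent.P046

open Finset

variable {V : Type*} [DecidableEq V] {H G : Finset (Finset V)} {M T : Finset V}

/-- For disjoint edges `T`, `T0`, some vertex of `T` lies in no edge meeting `T0`. -/
def NS (H : Finset (Finset V)) : Prop :=
  ∀ T ∈ H, ∀ T0 ∈ H, Disjoint T T0 → ∃ x ∈ T, ∀ T' ∈ H, x ∈ T' → Disjoint T' T0

/-- number of isolated vertices -/
def deadc (H : Finset (Finset V)) (M : Finset V) : ℕ := (M.filter (fun x => deg H M x = 0)).card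

/-- the isolated edges in `G` -/
def isoS (G H : Finset (Finset V)) (M : Finset V) : Finset (Finset V) :=
  (sub H M).filter (fun T => T ∈ G ∧ sT H M T = 3)

/-- the half-open edges: some vertex of degree one, but not isolated -/
def HO (H : Finset (Finset V)) (M : Finset V) : Finset (Finset V) :=
  (sub H M).filter (fun T => (∃ x ∈ T, deg H M x = 1) ∧ 3 < sT H M T)

/-- number of edges outside `G` -/
def bG (G H : Finset (Finset V)) (M : Finset V) : ℕ := ((sub H M).filter (fun T => T ∉ G)).card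

theorem one_le_deg (hT : T ∈ sub H M) {x : V} (hx : x ∈ T) : 1 ≤ deg H M x := by
  unfold deg; exact card_pos.2 ⟨T, mem_filter.2 ⟨hT, hx⟩⟩

theorem eq_of_deg_one {x : V} (hd : deg H M x = 1) {T' : Finset V} (hT : T ∈ sub H M) (hx : x ∈ T)
    (hT' : T' ∈ sub H M) (hx' : x ∈ T') : T' = T := by
  unfold deg at hd
  rw [card_eq_one] at hd
  obtain ⟨A, hA⟩ := hd
  have h1 : T ∈ ({A} : Finset (Finset V)) := by rw [← hA]; exact mem_filter.2 ⟨hT, hx⟩
  have h2 : T' ∈ ({A} : Finset (Finset V)) := by rw [← hA]; exact mem_filter.2 ⟨hT', hx'⟩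
  rw [mem_singleton] at h1 h2
  rw [h1, h2]

theorem sub_mono {M' : Finset V} (h : M' ⊆ M) : sub H M' ⊆ sub H M := by
  intro T hT
  rw [mem_sub] at hT ⊢
  exact ⟨hT.1, hT.2.trans h⟩

theorem sT_mono {M' : Finset V} (h : M' ⊆ M) (T : Finset V) : sT H M' T ≤ sT H M T :=
  Finset.sum_le_sum fun x _ => deg_le_of_subset h x

theorem three_le_sT (hH : IsLin3 H) (hT : T ∈ sub H M) : 3 ≤ sT H M T := by
  rw [sT_eq hH hT]; omega

/-- increase of the number of dead vertices -/
theorem dead_sdiff (hH : IsLin3 H) (hT0 : T ∈ sub H M) :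
    deadc H M + ((HO H M).filter (fun T' => T' ≠ T ∧ ¬ Disjoint T' T)).card ≤
      deadc H (M \ T) := by
  classical
  have hTne : T.Nonempty := card_pos.1 (by rw [hH.card3 T (mem_sub.1 hT0).1]; norm_num)
  have : Nonempty V := ⟨hTne.choose⟩
  have hch : ∀ T' ∈ (HO H M).filter (fun T' => T' ≠ T ∧ ¬ Disjoint T' T),
      ∃ x ∈ T', deg H M x = 1 := by
    intro T' hT'
    rw [mem_filter, HO, mem_filter] at hT'
    exact hT'.1.2.1
  choose! v hv1 hv2 using hch
  have hinj : Set.InjOn v ((HO H M).filter (fun T' => T' ≠ T ∧ ¬ Disjoint T' T) :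
      Set (Finset V)) := by
    intro A hA B hB hAB
    have hA' := mem_coe.1 hA
    have hB' := mem_coe.1 hB
    have h1 := hv1 A hA'
    have h2 := hv1 B hB'
    rw [← hAB] at h2
    rw [mem_filter, HO, mem_filter] at hA' hB'
    exact eq_of_deg_one (hv2 A (mem_coe.1 hA)) hB'.1.1 h2 hA'.1.1 h1
  rw [← card_image_of_injOn hinj, deadc, deadc, ← card_union_of_disjoint]
  · refine card_le_card ?_
    intro x hx
    rw [mem_union] at hx
    rcases hx with hx | hx
    · rw [mem_filter] at hx ⊢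
      refine ⟨mem_sdiff.2 ⟨hx.1, fun h => ?_⟩, ?_⟩
      · have := one_le_deg hT0 h
        omega
      · have := deg_le_of_subset (H := H) (M := M) (M' := M \ T) sdiff_subset x
        omega
    · rw [mem_image] at hx
      obtain ⟨T', hT', rfl⟩ := hx
      have h1 := hv1 T' hT'
      have h2 := hv2 T' hT'
      rw [mem_filter, HO, mem_filter] at hT'
      rw [mem_filter]
      refine ⟨mem_sdiff.2 ⟨(mem_sub.1 hT'.1.1).2 h1, fun h => ?_⟩, ?_⟩
      · exact hT'.2.1 (eq_of_deg_one h2 hT0 h hT'.1.1 h1)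
      · by_contra hne
        have hpos : 0 < deg H (M \ T) (v T') := Nat.pos_of_ne_zero hne
        unfold deg at hpos
        obtain ⟨A, hA⟩ := card_pos.1 hpos
        rw [mem_filter] at hA
        have hA2 := sub_mono (H := H) (sdiff_subset : M \ T ⊆ M) hA.1
        have h3 := eq_of_deg_one h2 hT'.1.1 h1 hA2 hA.2
        rw [h3] at hA
        have h4 := (mem_sub.1 hA.1).2
        rw [subset_sdiff] at h4
        exact hT'.2.2 h4.2
  · rw [disjoint_left]
    intro x hx hx'
    rw [mem_image] at hx'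
    obtain ⟨T', hT', rfl⟩ := hx'
    have h2 := hv2 T' hT'
    rw [mem_filter] at hx
    omega

theorem sum_dead (hH : IsLin3 H) :
    (sub H M).card * deadc H M + (HO H M).card ≤ ∑ T ∈ sub H M, deadc H (M \ T) := by
  have h1 : ∑ T ∈ sub H M, (deadc H M +
      ((HO H M).filter (fun T' => T' ≠ T ∧ ¬ Disjoint T' T)).card) ≤
      ∑ T ∈ sub H M, deadc H (M \ T) := Finset.sum_le_sum fun T hT => dead_sdiff hH hT
  refine le_trans ?_ h1
  rw [sum_add_distrib, sum_const, smul_eq_mul]
  refine Nat.add_le_add_left ?_ _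
  have h2 : ∑ T ∈ sub H M, ((HO H M).filter (fun T' => T' ≠ T ∧ ¬ Disjoint T' T)).card =
      ∑ T' ∈ HO H M, nb H M T' := by
    simp only [card_filter, nb]
    rw [Finset.sum_comm]
    refine Finset.sum_congr rfl fun T' _ => ?_
    refine Finset.sum_congr rfl fun T _ => ?_
    have : (T' ≠ T ∧ ¬ Disjoint T' T) ↔ (T ≠ T' ∧ ¬ Disjoint T T') := by
      rw [disjoint_comm, ne_comm]
    simp only [this]
  rw [h2, card_eq_sum_ones]
  refine Finset.sum_le_sum fun T' hT' => ?_
  rw [HO, mem_filter] at hT'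
  have := sT_eq hH hT'.1
  omega

/-- environment condition: every neighbour of an edge of `G` has small degree sum -/
def Env (G H : Finset (Finset V)) (R : ℕ) (M : Finset V) : Prop :=
  ∀ T ∈ sub H M, T ∈ G → ∀ A ∈ sub H M, A ≠ T → ¬ Disjoint A T → sT H M A ≤ R

theorem Env.mono {R : ℕ} {M' : Finset V} (h : Env G H R M) (hM : M' ⊆ M) : Env G H R M' := by
  intro T hT hG A hA hAT hd
  exact (sT_mono hM A).trans (h T (sub_mono hM hT) hG A (sub_mono hM hA) hAT hd)

theorem deg_sdiff_of_NS {x : V} (hT : T ∈ sub H M) (hx : ∀ T' ∈ H, x ∈ T' → Disjoint T' T) :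
    deg H (M \ T) x = deg H M x := by
  unfold deg
  congr 1
  rw [sub_sdiff]
  ext A
  simp only [mem_filter]
  exact ⟨fun h => ⟨h.1.1, h.2⟩, fun h => ⟨⟨h.1, hx A (mem_sub.1 h.1).1 h.2⟩, h.2⟩⟩

/-- isolated edges after the removal of `T` -/
theorem iso_sdiff (hH : IsLin3 H) (hNS : NS H) (hT : T ∈ sub H M) (φ : Finset V → Finset V)
    (hφ : ∀ A ∈ HO H M, φ A ∈ sub H M ∧ φ A ≠ A ∧ ¬ Disjoint (φ A) A) :
    (isoS G H (M \ T)).card + (if T ∈ isoS G H M then 1 else 0) ≤
      (isoS G H M).card +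
        ((HO H M).filter (fun A => A ∈ G ∧ ¬ Disjoint (φ A) T)).card := by
  classical
  have hsub : isoS G H (M \ T) ⊆ (isoS G H M).erase T ∪
      ((HO H M).filter (fun A => A ∈ G ∧ ¬ Disjoint (φ A) T)) := by
    intro A hA
    rw [isoS, mem_filter] at hA
    obtain ⟨hA1, hAG, hA3⟩ := hA
    have hAM : A ∈ sub H M := sub_mono sdiff_subset hA1
    have hAT : Disjoint A T := by
      have := (mem_sub.1 hA1).2
      rw [subset_sdiff] at this
      exact this.2
    have hATne : A ≠ T := by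
      intro h
      rw [h, disjoint_self] at hAT
      have h3 := hH.card3 T (mem_sub.1 hT).1
      rw [hAT] at h3
      simp at h3
    rw [mem_union]
    by_cases h3 : sT H M A = 3
    · left
      rw [mem_erase, isoS, mem_filter]
      exact ⟨hATne, hAM, hAG, h3⟩
    · right
      have h4 := three_le_sT hH hAM
      -- all degrees are one after the removal
      have hone : ∀ x ∈ A, deg H (M \ T) x = 1 := by
        intro x hx
        have hge : ∀ y ∈ A, 1 ≤ deg H (M \ T) y := fun y hy => one_le_deg hA1 hy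
        have hsum : ∑ y ∈ A, deg H (M \ T) y = ∑ y ∈ A, 1 := by
          rw [sum_const, hH.card3 A (mem_sub.1 hAM).1]; exact hA3
        exact ((sum_eq_sum_iff_of_le hge).1 hsum.symm x hx).symm
      obtain ⟨x, hx, hx2⟩ := hNS A (mem_sub.1 hAM).1 T (mem_sub.1 hT).1 hAT
      have hdx : deg H M x = 1 := by
        rw [← deg_sdiff_of_NS hT hx2]; exact hone x hx
      have hHO : A ∈ HO H M := by
        rw [HO, mem_filter]
        exact ⟨hAM, ⟨x, hx, hdx⟩, by omega⟩
      rw [mem_filter]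
      refine ⟨hHO, hAG, fun hd => ?_⟩
      obtain ⟨h5, h6, h7⟩ := hφ A hHO
      have h8 : φ A ∈ sub H (M \ T) := by
        rw [mem_sub, subset_sdiff]
        exact ⟨(mem_sub.1 h5).1, (mem_sub.1 h5).2, hd⟩
      obtain ⟨y, hy1, hy2⟩ := not_disjoint_iff.1 h7
      exact h6 (eq_of_deg_one (hone y hy2) hA1 hy2 h8 hy1)
  have h1 := (card_le_card hsub).trans (card_union_le _ _)
  by_cases hTi : T ∈ isoS G H M
  · rw [if_pos hTi]
    rw [card_erase_of_mem hTi] at h1
    have h2 : 0 < (isoS G H M).card := card_pos.2 ⟨T, hTi⟩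
    omega
  · rw [if_neg hTi]
    rw [erase_eq_of_notMem hTi] at h1
    omega

theorem sum_iso {R : ℕ} (hH : IsLin3 H) (hNS : NS H) (hE : Env G H R M) :
    ∑ T ∈ sub H M, (isoS G H (M \ T)).card + (isoS G H M).card ≤
      (sub H M).card * (isoS G H M).card + ((HO H M).filter (· ∈ G)).card * R := by
  classical
  -- choose a neighbour of each half-open edge
  have hch : ∀ A ∈ HO H M, ∃ B, B ∈ sub H M ∧ B ≠ A ∧ ¬ Disjoint B A := by
    intro A hA
    rw [HO, mem_filter] at hA
    have h1 := sT_eq hH hA.1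
    have h2 : 0 < nb H M A := by omega
    unfold nb at h2
    obtain ⟨B, hB⟩ := card_pos.1 h2
    rw [mem_filter] at hB
    exact ⟨B, hB.1, hB.2.1, hB.2.2⟩
  choose! φ hφ using hch
  have h1 : ∑ T ∈ sub H M, ((isoS G H (M \ T)).card + (if T ∈ isoS G H M then 1 else 0)) ≤
      ∑ T ∈ sub H M, ((isoS G H M).card +
        ((HO H M).filter (fun A => A ∈ G ∧ ¬ Disjoint (φ A) T)).card) :=
    Finset.sum_le_sum fun T hT => iso_sdiff hH hNS hT φ hφ
  rw [sum_add_distrib, sum_add_distrib, sum_const, smul_eq_mul] at h1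
  have h2 : ∑ T ∈ sub H M, (if T ∈ isoS G H M then 1 else 0) = (isoS G H M).card := by
    rw [← card_filter]
    congr 1
    ext T
    rw [mem_filter]
    exact ⟨fun h => h.2, fun h => ⟨(mem_filter.1 h).1, h⟩⟩
  have h3 : ∑ T ∈ sub H M, ((HO H M).filter (fun A => A ∈ G ∧ ¬ Disjoint (φ A) T)).card ≤
      ((HO H M).filter (· ∈ G)).card * R := by
    have e1 : ∑ T ∈ sub H M, ((HO H M).filter (fun A => A ∈ G ∧ ¬ Disjoint (φ A) T)).card =
        ∑ A ∈ (HO H M).filter (· ∈ G), ((sub H M).filter (fun T => ¬ Disjoint T (φ A))).card := by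
      simp only [card_filter]
      rw [Finset.sum_comm, Finset.sum_filter]
      refine Finset.sum_congr rfl fun A _ => ?_
      by_cases hA : A ∈ G
      · simp only [hA, true_and, if_true]
        refine Finset.sum_congr rfl fun T _ => ?_
        simp only [disjoint_comm]
      · simp [hA]
    rw [e1, ← smul_eq_mul, ← sum_const]
    refine Finset.sum_le_sum fun A hA => ?_
    rw [mem_filter] at hA
    obtain ⟨h5, h6, h7⟩ := hφ A hA.1
    rw [card_meet hH h5]
    have h8 := sT_eq hH h5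
    have h9 := hE A (mem_filter.1 hA.1).1 hA.2 (φ A) h5 h6 h7
    omega
  omega

end Vale.Agent.P046
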