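import Vale.Agent.P046.Lower

/-!
Lower bound for the expected final size of the random greedy matching.
-/

namespace Vale.Agent.P046

open Finset

variable {V : Type*} [DecidableEq V] {H G : Finset (Finset V)} {M T : Finset V}

/-- expected final size after at most `k` steps -/
noncomputable def EFv (H : Finset (Finset V)) : ℕ → Finset V → ℝ
  | 0, M => M.card
  | k + 1, M => if sub H M = ∅ then (M.card : ℝ) else
      (∑ T ∈ sub H M, EFv H k (M \ T)) / ((sub H M).card : ℝ)

theorem EFv_nonneg (k : ℕ) : ∀ M, 0 ≤ EFv H k M := by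
  induction k with
  | zero => intro M; unfold EFv; positivity
  | succ k ih =>
    intro M
    unfold EFv
    split_ifs
    · positivity
    · exact div_nonneg (Finset.sum_nonneg fun T _ => ih _) (Nat.cast_nonneg _)

/-- first part of the potential -/
noncomputable def Psi1 (R : ℝ) (G H : Finset (Finset V)) (M : Finset V) : ℝ :=
  R * deadc H M - (isoS G H M).card - bG G H M

theorem bG_sdiff (hH : IsLin3 H) (hT : T ∈ sub H M) :
    bG G H (M \ T) + (if T ∉ G then 1 else 0) ≤ bG G H M := by
  unfold bG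
  have hsub : (sub H (M \ T)).filter (fun A => A ∉ G) ⊆
      ((sub H M).filter (fun A => A ∉ G)).erase T := by
    intro A hA
    rw [mem_filter] at hA
    have hAT : A ≠ T := by
      rintro rfl
      have := (mem_sub.1 hA.1).2
      rw [subset_sdiff, disjoint_self] at this
      have h3 := hH.card3 A (mem_sub.1 hT).1
      rw [this.2] at h3
      simp at h3
    rw [mem_erase, mem_filter]
    exact ⟨hAT, sub_mono sdiff_subset hA.1, hA.2⟩
  have h1 := card_le_card hsub
  by_cases hTG : T ∈ G
  · rw [if_neg (not_not.2 hTG)]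
    exact h1.trans (card_erase_le)
  · rw [if_pos hTG]
    rw [card_erase_of_mem (mem_filter.2 ⟨hT, hTG⟩)] at h1
    have h2 : 0 < ((sub H M).filter (fun A => A ∉ G)).card :=
      card_pos.2 ⟨T, mem_filter.2 ⟨hT, hTG⟩⟩
    omega

/-- the edges with a vertex of degree one -/
def NO (H : Finset (Finset V)) (M : Finset V) : Finset (Finset V) :=
  (sub H M).filter (fun T => ∃ x ∈ T, deg H M x = 1)

theorem NO_card (hH : IsLin3 H) :
    ((NO H M).filter (· ∈ G)).card ≤ ((HO H M).filter (· ∈ G)).card + (isoS G H M).card := by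
  classical
  refine (card_le_card ?_).trans (card_union_le _ _)
  intro T hT
  rw [mem_filter, NO, mem_filter] at hT
  rw [mem_union, mem_filter, HO, mem_filter, isoS, mem_filter]
  have h3 := three_le_sT hH hT.1.1
  by_cases h : sT H M T = 3
  · right; exact ⟨hT.1.1, hT.2, h⟩
  · left; exact ⟨⟨hT.1.1, hT.1.2, by omega⟩, hT.2⟩

theorem NO_split : (NO H M).card ≤ ((NO H M).filter (· ∈ G)).card + bG G H M := by
  have h := card_filter_add_card_filter_not (s := NO H M) (· ∈ G)
  have h2 : ((NO H M).filter (fun T => ¬ (T ∈ G))).card ≤ bG G H M := by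
    unfold bG
    refine card_le_card ?_
    intro T hT
    rw [mem_filter, NO, mem_filter] at hT
    exact mem_filter.2 ⟨hT.1.1, hT.2⟩
  omega

theorem sum_Psi1 {R : ℕ} (hH : IsLin3 H) (hNS : NS H) (hE : Env G H R M) :
    ((sub H M).card : ℝ) * Psi1 (R + 1) G H M + (NO H M).card ≤
      ∑ T ∈ sub H M, Psi1 (R + 1) G H (M \ T) := by
  have h1 : (((sub H M).card * deadc H M + (HO H M).card : ℕ) : ℝ) ≤
      ((∑ T ∈ sub H M, deadc H (M \ T) : ℕ) : ℝ) := by exact_mod_cast sum_dead hH
  have h2 : ((∑ T ∈ sub H M, (isoS G H (M \ T)).card + (isoS G H M).card : ℕ) : ℝ) ≤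
      (((sub H M).card * (isoS G H M).card + ((HO H M).filter (· ∈ G)).card * R : ℕ) : ℝ) := by
    exact_mod_cast sum_iso hH hNS hE
  have h3 : ∑ T ∈ sub H M, (bG G H (M \ T) + (if T ∉ G then 1 else 0)) ≤
      (sub H M).card * bG G H M := by
    refine (Finset.sum_le_sum fun T hT => bG_sdiff (G := G) hH hT).trans ?_
    rw [sum_const, smul_eq_mul]
  rw [sum_add_distrib, ← card_filter] at h3
  have h3' : ((∑ T ∈ sub H M, bG G H (M \ T) + bG G H M : ℕ) : ℝ) ≤
      (((sub H M).card * bG G H M : ℕ) : ℝ) := by exact_mod_cast h3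
  have h4 : (((HO H M).filter (· ∈ G)).card : ℝ) ≤ (HO H M).card := by
    exact_mod_cast card_le_card (filter_subset _ _)
  have h5 : (((NO H M).filter (· ∈ G)).card : ℝ) ≤
      ((HO H M).filter (· ∈ G)).card + (isoS G H M).card := by exact_mod_cast NO_card hH
  have h6 : ((NO H M).card : ℝ) ≤ ((NO H M).filter (· ∈ G)).card + bG G H M := by
    exact_mod_cast NO_split
  push_cast at h1 h2 h3'
  unfold Psi1
  rw [sum_sub_distrib, sum_sub_distrib, ← mul_sum]
  have hR : (0 : ℝ) ≤ R := by positivity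
  have h7 : (((R : ℝ) + 1)) * (((sub H M).card : ℝ) * deadc H M + (HO H M).card) ≤
      ((R : ℝ) + 1) * ∑ T ∈ sub H M, (deadc H (M \ T) : ℝ) :=
    mul_le_mul_of_nonneg_left h1 (by positivity)
  have h8 : ((HO H M).filter (· ∈ G)).card * (R : ℝ) ≤ (HO H M).card * (R : ℝ) :=
    mul_le_mul_of_nonneg_right h4 hR
  nlinarith

/-- the counting part -/
theorem N_step (hH : IsLin3 H) (hT : T ∈ sub H M) :
    (4 / 9 * (M.card : ℝ) - (sub H M).card / 3) - (if T ∈ NO H M then 1 else 0) ≤
      4 / 9 * ((M \ T).card : ℝ) - (sub H (M \ T)).card / 3 := by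
  have h1 : ((M \ T).card : ℝ) + 3 = M.card := by exact_mod_cast card_sdiff_of_mem hH hT
  have h2 := card_sub_sdiff hH hT
  have h3 := sT_eq hH hT
  have h2' : ((sub H (M \ T)).card : ℝ) + (1 + nb H M T) = (sub H M).card := by exact_mod_cast h2
  split_ifs with hNO
  · have h4 : (0 : ℝ) ≤ nb H M T := by positivity
    linarith
  · have hd : ∀ x ∈ T, 2 ≤ deg H M x := by
      intro x hx
      have h5 := one_le_deg hT hx
      by_contra h6
      have h7 : deg H M x = 1 := by omega
      exact hNO (mem_filter.2 ⟨hT, x, hx, h7⟩)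
    have h4 : 6 ≤ sT H M T := by
      unfold sT
      calc 6 = ∑ x ∈ T, 2 := by rw [sum_const, hH.card3 T (mem_sub.1 hT).1]; rfl
        _ ≤ _ := Finset.sum_le_sum hd
    have h5 : (3 : ℝ) ≤ nb H M T := by
      have : 3 ≤ nb H M T := by omega
      exact_mod_cast this
    linarith

noncomputable def Psi (R : ℝ) (G H : Finset (Finset V)) (M : Finset V) : ℝ :=
  Psi1 R G H M + (4 / 9 * (M.card : ℝ) - (sub H M).card / 3)

theorem sum_Psi {R : ℕ} (hH : IsLin3 H) (hNS : NS H) (hE : Env G H R M) :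
    ((sub H M).card : ℝ) * Psi (R + 1) G H M ≤ ∑ T ∈ sub H M, Psi (R + 1) G H (M \ T) := by
  have h1 := sum_Psi1 hH hNS hE
  have h2 := Finset.sum_le_sum fun T hT => N_step (M := M) hH hT
  rw [sum_sub_distrib, sum_const, nsmul_eq_mul] at h2
  have h3 : ∑ T ∈ sub H M, (if T ∈ NO H M then (1 : ℝ) else 0) = (NO H M).card := by
    rw [← Finset.sum_filter, sum_const, nsmul_eq_mul, mul_one]
    congr 2
    ext T
    rw [mem_filter]
    exact ⟨fun h => h.2, fun h => ⟨(mem_filter.1 h).1, h⟩⟩
  rw [h3] at h2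
  unfold Psi
  rw [sum_add_distrib]
  linarith

theorem deadc_of_empty (h : sub H M = ∅) : deadc H M = M.card := by
  unfold deadc
  congr 1
  rw [filter_true_of_mem]
  intro x _
  unfold deg
  rw [h]; rfl

theorem sub_empty_of_card (hH : IsLin3 H) (hM : M.card ≤ 2) : sub H M = ∅ := by
  by_contra h
  obtain ⟨T, hT⟩ := nonempty_iff_ne_empty.2 h
  have h1 := card_le_card (mem_sub.1 hT).2
  rw [hH.card3 T (mem_sub.1 hT).1] at h1
  omega

theorem Psi_of_empty {R : ℝ} (h : sub H M = ∅) : Psi R G H M = R * M.card + 4 / 9 * M.card := by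
  unfold Psi Psi1 isoS bG
  rw [deadc_of_empty h, h]
  simp

theorem EFv_ge_Psi {R : ℕ} (hH : IsLin3 H) (hNS : NS H) (k : ℕ) : ∀ M : Finset V,
    M.card ≤ 3 * k + 2 → Env G H R M → Psi (R + 1) G H M ≤ (R + 2) * EFv H k M := by
  have hbase : ∀ M : Finset V, sub H M = ∅ → Psi (R + 1) G H M ≤ (R + 2) * (M.card : ℝ) := by
    intro M h
    rw [Psi_of_empty h]
    have : (0 : ℝ) ≤ M.card := by positivity
    linarith
  induction k with
  | zero =>
    intro M hM _
    unfold EFv
    exact hbase M (sub_empty_of_card hH (by omega))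
  | succ k ih =>
    intro M hM hE
    unfold EFv
    split_ifs with h
    · exact hbase M h
    · have hQ : 0 < ((sub H M).card : ℝ) := by
        exact_mod_cast card_pos.2 (nonempty_iff_ne_empty.2 h)
      rw [mul_div_assoc', le_div_iff₀ hQ, mul_comm, mul_sum]
      refine (sum_Psi hH hNS hE).trans (Finset.sum_le_sum fun T hT => ?_)
      refine ih (M \ T) ?_ (hE.mono sdiff_subset)
      have := card_sdiff_of_mem hH hT
      omega

end Vale.Agent.P046
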