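import Vale.Agent.P046.Lower2

/-!
The potential between the sizes `m*` and `m2`.
-/

namespace Vale.Agent.P046

open Finset

variable {V : Type*} [DecidableEq V] {H G : Finset (Finset V)} {M T : Finset V}

noncomputable def P3 (m : ℝ) : ℝ := m * (m - 3) * (m - 6)

theorem P3_pos {m : ℝ} (hm : 6 < m) : 0 < P3 m := by
  unfold P3
  have h1 : 0 < m - 3 := by linarith
  have h2 : 0 < m - 6 := by linarith
  have h3 : 0 < m := by linarith
  positivity

theorem P3_mono {a b : ℝ} (ha : 6 < a) (hab : a ≤ b) : P3 a ≤ P3 b := by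
  unfold P3
  have h1 : a * (a - 3) ≤ b * (b - 3) :=
    mul_le_mul hab (by linarith) (by linarith) (by linarith)
  have h0 : 0 ≤ a * (a - 3) := mul_nonneg (by linarith) (by linarith)
  exact mul_le_mul h1 (by linarith) (by linarith) (h0.trans h1)

noncomputable def Psi2 (R m2 : ℝ) (G H : Finset (Finset V)) (M : Finset V) : ℝ :=
  Psi1 R G H M + (4 / 9 * m2 - 1 / 3 * (m2 / 3 + ((sub H M).card - (M.card : ℝ) / 3) *
    (P3 m2 / P3 M.card)))

theorem sum_Psi2 {R : ℕ} {m2 : ℝ} (hH : IsLin3 H) (hNS : NS H) (hE : Env G H R M)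
    (hm2 : 9 < m2) (hm : m2 + 3 ≤ (M.card : ℝ)) (hne : sub H M ≠ ∅) :
    ((sub H M).card : ℝ) * Psi2 (R + 1) m2 G H M ≤
      ∑ T ∈ sub H M, Psi2 (R + 1) m2 G H (M \ T) := by
  obtain ⟨m, hmd⟩ : ∃ m : ℝ, m = M.card := ⟨_, rfl⟩
  obtain ⟨Q, hQd⟩ : ∃ Q : ℝ, Q = (sub H M).card := ⟨_, rfl⟩
  have hQ0 : 0 < Q := by
    rw [hQd]; exact_mod_cast card_pos.2 (nonempty_iff_ne_empty.2 hne)
  rw [← hmd] at hm
  have hm0 : 0 < m := by linarith
  have h1 := sum_Psi1 hH hNS hE
  rw [← hQd] at h1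
  have hP : 0 < P3 m2 := P3_pos (by linarith)
  have hPm : 0 < P3 m := P3_pos (by linarith)
  have hPm3 : 0 < P3 (m - 3) := P3_pos (by linarith)
  have hrho : P3 m2 / P3 (m - 3) * (1 - 9 / m) = P3 m2 / P3 m := by
    have e : P3 m * (1 - 9 / m) = P3 (m - 3) := by unfold P3; field_simp; ring
    rw [← e]
    have h9 : 0 < 1 - 9 / m := by
      rw [sub_pos, div_lt_one hm0]; linarith
    rw [div_mul_eq_mul_div, mul_div_mul_right _ _ h9.ne']
  have hterm : ∀ T ∈ sub H M, Psi2 (R + 1) m2 G H (M \ T) = Psi1 (R + 1) G H (M \ T) +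
      ((4 / 9 * m2 - 1 / 3 * (m2 / 3 + (Q + 2 - (m - 3) / 3) * (P3 m2 / P3 (m - 3)))) +
        (1 / 3 * (P3 m2 / P3 (m - 3))) * sT H M T) := by
    intro T hT
    have e1 : ((M \ T).card : ℝ) = m - 3 := by
      have : ((M \ T).card : ℝ) + 3 = M.card := by exact_mod_cast card_sdiff_of_mem hH hT
      linarith
    have h2 := card_sub_sdiff hH hT
    have h3 := sT_eq hH hT
    have h2' : ((sub H (M \ T)).card : ℝ) + (1 + nb H M T) = (sub H M).card := by exact_mod_cast h2
    have h3' : (sT H M T : ℝ) = 3 + nb H M T := by exact_mod_cast h3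
    have e2 : ((sub H (M \ T)).card : ℝ) = Q + 2 - sT H M T := by rw [hQd]; linarith
    unfold Psi2
    rw [e1, e2]; ring
  rw [sum_congr rfl hterm, sum_add_distrib, sum_add_distrib, sum_const, nsmul_eq_mul, ← mul_sum,
    sum_sT, ← hQd]
  have hU := U_nonneg (H := H) (M := M) hH (by rw [← hmd]; exact hm0.ne')
  have hDD : DD H M = 3 * Q / m := by rw [hQd, hmd]; rfl
  rw [← hmd, hDD] at hU
  unfold S2 at hU
  have hS : 9 * Q ^ 2 / m ≤ ∑ x ∈ M, (deg H M x : ℝ) ^ 2 := by
    have e : m * (3 * Q / m) ^ 2 = 9 * Q ^ 2 / m := by field_simp; ring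
    rw [e] at hU
    linarith
  unfold Psi2
  rw [← hmd, ← hQd]
  have hρ0 : 0 < P3 m2 / P3 (m - 3) := by positivity
  set ρ' := P3 m2 / P3 (m - 3) with hρ'
  have hS2 := mul_le_mul_of_nonneg_left hS (by positivity : 0 ≤ 1 / 3 * ρ')
  have key : Q * ((Q - m / 3) * (P3 m2 / P3 m)) =
      ρ' * (Q * (Q + 2 - (m - 3) / 3)) - ρ' * (9 * Q ^ 2 / m) := by
    rw [← hrho]
    field_simp
    ring
  have hNO : (0 : ℝ) ≤ (NO H M).card := by positivity
  nlinarith

theorem EFv_ge_Psi2 {R : ℕ} {m2 : ℝ} (hH : IsLin3 H) (hNS : NS H) (hm2 : 9 < m2) (j : ℕ) :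
    ∀ (k : ℕ) (M : Finset V), (M.card : ℝ) = m2 + 3 * j → M.card ≤ 3 * k + 2 → Env G H R M →
      Psi2 (R + 1) m2 G H M ≤ (R + 2) * EFv H k M := by
  induction j with
  | zero =>
    intro k M hM hk hE
    have h1 := EFv_ge_Psi hH hNS k M hk hE
    have h2 : Psi2 (R + 1) m2 G H M = Psi (R + 1) G H M := by
      have e : (M.card : ℝ) = m2 := by rw [hM]; simp
      unfold Psi2 Psi
      rw [e, div_self (P3_pos (by linarith)).ne']
      ring
    rw [h2]; exact h1
  | succ j ih =>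
    intro k M hM hk hE
    have hj : (0 : ℝ) ≤ j := by positivity
    push_cast at hM
    have hkpos : k ≠ 0 := by
      rintro rfl
      have : (M.card : ℝ) ≤ 2 := by exact_mod_cast (by omega : M.card ≤ 2)
      linarith
    obtain ⟨k', rfl⟩ := Nat.exists_eq_succ_of_ne_zero hkpos
    unfold EFv
    split_ifs with h
    · have hPm : P3 m2 / P3 M.card ≤ 1 := by
        rw [div_le_one (P3_pos (by linarith))]
        exact P3_mono (by linarith) (by linarith)
      have hPm0 : 0 ≤ P3 m2 / P3 M.card :=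
        (div_pos (P3_pos (by linarith)) (P3_pos (by linarith))).le
      unfold Psi2 Psi1 isoS bG
      rw [deadc_of_empty h, h]
      simp only [filter_empty, card_empty, Nat.cast_zero]
      have hmc : 0 ≤ (M.card : ℝ) := by positivity
      nlinarith
    · have hQ : 0 < ((sub H M).card : ℝ) := by
        exact_mod_cast card_pos.2 (nonempty_iff_ne_empty.2 h)
      rw [mul_div_assoc', le_div_iff₀ hQ, mul_comm, mul_sum]
      refine (sum_Psi2 hH hNS hE hm2 (by linarith) h).trans (Finset.sum_le_sum fun T hT => ?_)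
      have h3 := card_sdiff_of_mem hH hT
      refine ih k' (M \ T) ?_ (by omega) (hE.mono sdiff_subset)
      have h3' : ((M \ T).card : ℝ) + 3 = M.card := by exact_mod_cast h3
      linarith

end Vale.Agent.P046
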