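import Vale.Agent.P046.Lower3

/-!
Lower bound for the expected final size from a good state.
-/

namespace Vale.Agent.P046

open Finset

variable {V : Type*} [DecidableEq V] {H G : Finset (Finset V)} {M T : Finset V}

theorem iso_bound (hH : IsLin3 H) (hm : (M.card : ℝ) ≠ 0) (hD : 1 ≤ DD H M) :
    ((isoS G H M).card : ℝ) * (DD H M - 1) ^ 2 ≤ S2 H M - M.card * DD H M ^ 2 := by
  have h1 := sum_sub_sum (H := H) (M := M) (fun x => if deg H M x = 1 then (1 : ℝ) else 0)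
  have h2 : ((isoS G H M).card : ℝ) ≤
      ∑ T ∈ sub H M, ∑ x ∈ T, (if deg H M x = 1 then (1 : ℝ) else 0) := by
    calc ((isoS G H M).card : ℝ) = ∑ T ∈ isoS G H M, (1 : ℝ) := by simp
      _ ≤ ∑ T ∈ isoS G H M, ∑ x ∈ T, (if deg H M x = 1 then (1 : ℝ) else 0) := by
        refine Finset.sum_le_sum fun T hT => ?_
        rw [isoS, mem_filter] at hT
        have h3 := hH.card3 T (mem_sub.1 hT.1).1
        obtain ⟨x, hx⟩ := card_pos.1 (by omega : 0 < T.card)
        have hone : deg H M x = 1 := by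
          have hge : ∀ y ∈ T, 1 ≤ deg H M y := fun y hy => one_le_deg hT.1 hy
          have hsum : ∑ y ∈ T, deg H M y = ∑ y ∈ T, 1 := by
            rw [sum_const, h3]; exact hT.2.2
          exact ((sum_eq_sum_iff_of_le hge).1 hsum.symm x hx).symm
        calc (1 : ℝ) = (if deg H M x = 1 then (1 : ℝ) else 0) := by rw [if_pos hone]
          _ ≤ _ := Finset.single_le_sum (f := fun x => if deg H M x = 1 then (1 : ℝ) else 0)
              (fun _ _ => by split_ifs <;> norm_num) hx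
      _ ≤ _ := Finset.sum_le_sum_of_subset_of_nonneg (filter_subset _ _)
          (fun _ _ _ => Finset.sum_nonneg fun _ _ => by split_ifs <;> norm_num)
  rw [h1] at h2
  rw [← sum_sq_dev hH hm]
  calc ((isoS G H M).card : ℝ) * (DD H M - 1) ^ 2 ≤
        (∑ x ∈ M, (deg H M x : ℝ) * (if deg H M x = 1 then (1 : ℝ) else 0)) *
          (DD H M - 1) ^ 2 := mul_le_mul_of_nonneg_right h2 (sq_nonneg _)
    _ ≤ ∑ x ∈ M, ((deg H M x : ℝ) - DD H M) ^ 2 := by
      rw [sum_mul]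
      refine Finset.sum_le_sum fun x _ => ?_
      split_ifs with h
      · rw [h]; push_cast
        have : (1 : ℝ) * 1 * (DD H M - 1) ^ 2 = (1 - DD H M) ^ 2 := by ring
        rw [this]
      · rw [mul_zero, zero_mul]; exact sq_nonneg _

theorem heavy_bound (hH : IsLin3 H) (hm : (M.card : ℝ) ≠ 0) {Δ : ℕ} (hD : 0 ≤ DD H M)
    (hΔ : 2 * DD H M ≤ Δ) :
    (Δ : ℝ) * ∑ x ∈ M with Δ < deg H M x, (deg H M x : ℝ) ≤
      4 * (S2 H M - M.card * DD H M ^ 2) := by
  rw [← sum_sq_dev hH hm, mul_sum, mul_sum, Finset.sum_filter]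
  refine Finset.sum_le_sum fun x _ => ?_
  split_ifs with h
  · have h1 : (Δ : ℝ) < deg H M x := by exact_mod_cast h
    have h2 : (deg H M x : ℝ) / 2 ≤ deg H M x - DD H M := by linarith
    have h3 : ((deg H M x : ℝ) / 2) ^ 2 ≤ (deg H M x - DD H M) ^ 2 :=
      pow_le_pow_left₀ (by positivity) h2 2
    have h4 : (Δ : ℝ) * deg H M x ≤ deg H M x * deg H M x :=
      mul_le_mul_of_nonneg_right h1.le (by positivity)
    linarith
  · positivity

theorem card_bG_le (Δ1 Δ2 : ℕ) (hH : IsLin3 H) :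
    (((sub H M).filter (fun T => ¬ ∀ A ∈ sub H M, A ≠ T → ¬ Disjoint A T →
      sT H M A ≤ 3 * Δ2)).card : ℝ) ≤
      ∑ x ∈ M with Δ1 < deg H M x, (deg H M x : ℝ) +
        3 * Δ1 * ∑ x ∈ M with Δ2 < deg H M x, (deg H M x : ℝ) := by
  classical
  let E : V → Finset (Finset V) := fun x => (sub H M).filter (fun T => x ∈ T)
  have hE : ∀ x, (E x).card = deg H M x := fun x => rfl
  have hsub : (sub H M).filter (fun T => ¬ ∀ A ∈ sub H M, A ≠ T → ¬ Disjoint A T →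
      sT H M A ≤ 3 * Δ2) ⊆
      (M.filter (fun x => Δ1 < deg H M x)).biUnion E ∪
      (M.filter (fun x => Δ2 < deg H M x)).biUnion (fun x => (E x).biUnion
        (fun A => (A.filter (fun y => deg H M y ≤ Δ1)).biUnion E)) := by
    intro T hT
    rw [mem_filter] at hT
    obtain ⟨hTs, hT2⟩ := hT
    push Not at hT2
    obtain ⟨A, hA, _, hd, hs⟩ := hT2
    obtain ⟨y, hyA, hyT⟩ := not_disjoint_iff.1 hd
    have hx : ∃ x ∈ A, Δ2 < deg H M x := by
      by_contra hcon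
      push Not at hcon
      have : sT H M A ≤ ∑ _x ∈ A, Δ2 := Finset.sum_le_sum hcon
      rw [sum_const, hH.card3 A (mem_sub.1 hA).1, smul_eq_mul] at this
      omega
    obtain ⟨x, hxA, hx2⟩ := hx
    rw [mem_union, mem_biUnion, mem_biUnion]
    by_cases hy : Δ1 < deg H M y
    · left
      exact ⟨y, mem_filter.2 ⟨(mem_sub.1 hTs).2 hyT, hy⟩, mem_filter.2 ⟨hTs, hyT⟩⟩
    · right
      refine ⟨x, mem_filter.2 ⟨(mem_sub.1 hA).2 hxA, hx2⟩, ?_⟩
      rw [mem_biUnion]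
      refine ⟨A, mem_filter.2 ⟨hA, hxA⟩, ?_⟩
      rw [mem_biUnion]
      exact ⟨y, mem_filter.2 ⟨hyA, not_lt.1 hy⟩, mem_filter.2 ⟨hTs, hyT⟩⟩
  have h1 : ((sub H M).filter (fun T => ¬ ∀ A ∈ sub H M, A ≠ T → ¬ Disjoint A T →
      sT H M A ≤ 3 * Δ2)).card ≤
      ∑ x ∈ M.filter (fun x => Δ1 < deg H M x), deg H M x +
      ∑ x ∈ M.filter (fun x => Δ2 < deg H M x), deg H M x * (3 * Δ1) := by
    refine (card_le_card hsub).trans ((card_union_le _ _).trans (Nat.add_le_add ?_ ?_))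
    · exact card_biUnion_le
    · refine card_biUnion_le.trans (Finset.sum_le_sum fun x _ => ?_)
      refine card_biUnion_le.trans ?_
      rw [← hE x, ← smul_eq_mul, ← sum_const]
      refine Finset.sum_le_sum fun A hA => ?_
      have hA1 := (mem_filter.1 hA).1
      refine card_biUnion_le.trans ?_
      calc ∑ y ∈ A.filter (fun y => deg H M y ≤ Δ1), (E y).card ≤
            ∑ _y ∈ A.filter (fun y => deg H M y ≤ Δ1), Δ1 :=
            Finset.sum_le_sum fun y hy => (mem_filter.1 hy).2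
        _ = (A.filter (fun y => deg H M y ≤ Δ1)).card * Δ1 := by rw [sum_const, smul_eq_mul]
        _ ≤ 3 * Δ1 := by
          refine Nat.mul_le_mul_right _ ?_
          rw [← hH.card3 A (mem_sub.1 hA1).1]
          exact card_filter_le _ _
  have h2 : ((((sub H M).filter (fun T => ¬ ∀ A ∈ sub H M, A ≠ T → ¬ Disjoint A T →
      sT H M A ≤ 3 * Δ2)).card : ℕ) : ℝ) ≤
      ((∑ x ∈ M.filter (fun x => Δ1 < deg H M x), deg H M x +
      ∑ x ∈ M.filter (fun x => Δ2 < deg H M x), deg H M x * (3 * Δ1) : ℕ) : ℝ) := by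
    exact_mod_cast h1
  refine h2.trans (le_of_eq ?_)
  push_cast
  rw [← sum_mul]
  ring

theorem good_lower {m2 κ w0 : ℝ} {j k Δ1 Δ2 : ℕ} (hH : IsLin3 H) (hNS : NS H) (hm2 : 9 < m2)
    (hM : (M.card : ℝ) = m2 + 3 * j) (hk : M.card ≤ 3 * k + 2) (hκ : 0 < κ)
    (hκ2 : κ * m2 ^ 2 ≤ 1) (hQ : ((sub H M).card : ℝ) ≤ 5 / 4 * Qh κ M.card)
    (hW : W H M ≤ w0) (hD : 2 ≤ DD H M) (hΔ1 : 2 * DD H M ≤ Δ1) (hΔ : Δ1 ≤ Δ2)
    (h1 : w0 ≤ m2 / 36 * (DD H M - 1) ^ 2) (h2 : 4 * w0 ≤ m2 / 36 * Δ1)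
    (h3 : 12 * Δ1 * w0 ≤ m2 / 36 * Δ2) :
    m2 / 9 ≤ (3 * (Δ2 : ℝ) + 2) * EFv H k M := by
  obtain ⟨m, hmd⟩ : ∃ m : ℝ, m = M.card := ⟨_, rfl⟩
  have hj0 : (0 : ℝ) ≤ j := by positivity
  have hm9 : 9 < m := by rw [hmd, hM]; linarith
  have hmc : (M.card : ℝ) ≠ 0 := by rw [← hmd]; linarith
  set G : Finset (Finset V) := (sub H M).filter (fun T => ∀ A ∈ sub H M, A ≠ T → ¬ Disjoint A T →
      sT H M A ≤ 3 * Δ2) with hG
  have hE : Env G H (3 * Δ2) M := by
    intro T _ hTG A hA hAT hd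
    rw [hG, mem_filter] at hTG
    exact hTG.2 A hA hAT hd
  have hmain := EFv_ge_Psi2 (G := G) hH hNS hm2 j k M hM hk hE
  push_cast at hmain
  have hU := U_le_W hH hmc (by linarith : 0 < DD H M)
  have hU0 := U_nonneg (H := H) hH hmc
  set U := S2 H M - M.card * DD H M ^ 2 with hUd
  have hUw : U ≤ w0 := hU.trans hW
  -- isolated edges
  have hiso : ((isoS G H M).card : ℝ) ≤ m2 / 36 := by
    have h4 := iso_bound (G := G) hH hmc (by linarith : 1 ≤ DD H M)
    have h5 : 0 < (DD H M - 1) ^ 2 := by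
      have : 0 < DD H M - 1 := by linarith
      positivity
    have h6 : ((isoS G H M).card : ℝ) * (DD H M - 1) ^ 2 ≤ m2 / 36 * (DD H M - 1) ^ 2 := by
      linarith
    exact le_of_mul_le_mul_right h6 h5
  have hΔ1pos : (0 : ℝ) < Δ1 := by linarith
  have hΔR : (Δ1 : ℝ) ≤ Δ2 := by exact_mod_cast hΔ
  have hΔ2pos : (0 : ℝ) < Δ2 := by linarith
  have hheavy1 : ∑ x ∈ M with Δ1 < deg H M x, (deg H M x : ℝ) ≤ m2 / 36 := by
    have h4 := heavy_bound (Δ := Δ1) hH hmc (by linarith) hΔ1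
    rw [← hUd] at h4
    have h6 : (Δ1 : ℝ) * ∑ x ∈ M with Δ1 < deg H M x, (deg H M x : ℝ) ≤ Δ1 * (m2 / 36) := by
      linarith
    exact le_of_mul_le_mul_left h6 hΔ1pos
  have hheavy2 : 3 * (Δ1 : ℝ) * ∑ x ∈ M with Δ2 < deg H M x, (deg H M x : ℝ) ≤ m2 / 36 := by
    have h4 := heavy_bound (Δ := Δ2) hH hmc (by linarith) (hΔ1.trans hΔR)
    rw [← hUd] at h4
    have h5 := mul_le_mul_of_nonneg_left h4 (by positivity : 0 ≤ 3 * (Δ1 : ℝ))
    have h7 : 3 * (Δ1 : ℝ) * (4 * U) ≤ 12 * Δ1 * w0 := by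
      have := mul_le_mul_of_nonneg_left hUw (by positivity : 0 ≤ 12 * (Δ1 : ℝ))
      linarith
    have h6 : (Δ2 : ℝ) * (3 * (Δ1 : ℝ) * ∑ x ∈ M with Δ2 < deg H M x, (deg H M x : ℝ)) ≤
        Δ2 * (m2 / 36) := by
      linarith
    exact le_of_mul_le_mul_left h6 hΔ2pos
  have hbG : (bG G H M : ℝ) ≤ m2 / 36 + m2 / 36 := by
    have h4 := card_bG_le (M := M) Δ1 Δ2 hH
    have h5 : bG G H M = ((sub H M).filter (fun T => ¬ ∀ A ∈ sub H M, A ≠ T → ¬ Disjoint A T →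
      sT H M A ≤ 3 * Δ2)).card := by
      unfold bG
      congr 1
      ext T
      simp only [hG, mem_filter]
      tauto
    rw [h5]
    linarith
  -- the `Q` term
  have hQρ : ((sub H M).card - (M.card : ℝ) / 3) * (P3 m2 / P3 M.card) ≤ 5 / 12 * m2 := by
    have hP : 0 < P3 m2 := P3_pos (by linarith)
    have hPm : 0 < P3 (M.card : ℝ) := P3_pos (by rw [← hmd]; linarith)
    have hρ : 0 < P3 m2 / P3 (M.card : ℝ) := by positivity
    have e1 : Qh κ M.card = κ / 3 * P3 M.card := rfl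
    calc ((sub H M).card - (M.card : ℝ) / 3) * (P3 m2 / P3 M.card) ≤
          (5 / 4 * Qh κ M.card) * (P3 m2 / P3 M.card) := by
          refine mul_le_mul_of_nonneg_right ?_ hρ.le
          have : (0 : ℝ) ≤ M.card := by positivity
          linarith
      _ = 5 / 12 * κ * P3 m2 := by rw [e1]; field_simp; norm_num
      _ ≤ 5 / 12 * κ * m2 ^ 3 := by
          refine mul_le_mul_of_nonneg_left ?_ (by positivity)
          unfold P3
          have : 0 < m2 := by linarith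
          nlinarith
      _ = 5 / 12 * m2 * (κ * m2 ^ 2) := by ring
      _ ≤ 5 / 12 * m2 * 1 := mul_le_mul_of_nonneg_left hκ2 (by linarith)
      _ = 5 / 12 * m2 := by ring
  have hdead : (0 : ℝ) ≤ (3 * (Δ2 : ℝ) + 1) * deadc H M := by positivity
  unfold Psi2 Psi1 at hmain
  linarith

end Vale.Agent.P046
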