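import Vale.Agent.P046.LowerKn

/-!
Numerics for the lower bound.
-/

namespace Vale.Agent.P046

open Finset MeasureTheory

/-- choice of a real number `≡ N mod 3` just above `a` -/
theorem exists_mod {N a : ℝ} (ha : a ≤ N) : ∃ k : ℕ, a ≤ N - 3 * k ∧ N - 3 * k ≤ a + 3 := by
  refine ⟨⌊(N - a) / 3⌋₊, ?_, ?_⟩
  · have := Nat.floor_le (div_nonneg (by linarith : 0 ≤ N - a) (by norm_num : (0 : ℝ) ≤ 3))
    linarith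
  · have := Nat.lt_floor_add_one ((N - a) / 3)
    linarith

theorem num_core {κ σ A ℓ μ m2 w0 : ℝ} (hκ : 0 < κ) (hκσ : κ * σ ^ 2 = 1) (hA : A = 10 ^ 7 * ℓ)
    (hℓ : 1 ≤ ℓ) (hσ : 60 ≤ σ) (hμ1 : A * σ ≤ μ) (hμ2 : μ ≤ A * σ + 3) (hm1 : σ - 3 ≤ m2)
    (hw0 : w0 = 10200 * ((κ * μ ^ 2) * μ) * ℓ) :
    A ^ 2 ≤ κ * μ ^ 2 ∧ κ * μ ^ 2 ≤ 2 * A ^ 2 ∧ 0 ≤ w0 ∧
    w0 ≤ 12000 * (A ^ 3 * σ * ℓ) ∧
    w0 ≤ m2 / 36 * (A ^ 2 / 3) ^ 2 := by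
  have hA7 : 10 ^ 7 ≤ A := by rw [hA]; nlinarith
  have hσ0 : 0 < σ := by linarith
  have hA0 : 0 < A := by linarith
  have hAσ : 0 < A * σ := by positivity
  have hμ0 : 0 < μ := by linarith
  have hμ3 : μ ≤ (1 + 1 / 1000) * (A * σ) := by
    have : (10 ^ 7 : ℝ) * 60 ≤ A * σ := mul_le_mul hA7 hσ (by norm_num) hA0.le
    linarith
  have hP1 : A ^ 2 ≤ κ * μ ^ 2 := by
    have h1 : (A * σ) ^ 2 ≤ μ ^ 2 := pow_le_pow_left₀ hAσ.le hμ1 2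
    have h2 := mul_le_mul_of_nonneg_left h1 hκ.le
    have h3 : κ * (A * σ) ^ 2 = A ^ 2 * (κ * σ ^ 2) := by ring
    rw [h3, hκσ, mul_one] at h2
    exact h2
  have hP2 : κ * μ ^ 2 ≤ (1 + 1 / 1000) ^ 2 * A ^ 2 := by
    have h1 : μ ^ 2 ≤ ((1 + 1 / 1000) * (A * σ)) ^ 2 := pow_le_pow_left₀ hμ0.le hμ3 2
    have h2 := mul_le_mul_of_nonneg_left h1 hκ.le
    have h3 : κ * ((1 + 1 / 1000) * (A * σ)) ^ 2 = (1 + 1 / 1000) ^ 2 * A ^ 2 * (κ * σ ^ 2) := by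
      ring
    rw [h3, hκσ, mul_one] at h2
    exact h2
  have hA2 : 0 < A ^ 2 := by positivity
  have hP0 : 0 < κ * μ ^ 2 := by positivity
  have hw : w0 ≤ 12000 * (A ^ 3 * σ * ℓ) := by
    rw [hw0]
    have h1 : (κ * μ ^ 2) * μ ≤ ((1 + 1 / 1000) ^ 2 * A ^ 2) * ((1 + 1 / 1000) * (A * σ)) :=
      mul_le_mul hP2 hμ3 hμ0.le (by positivity)
    have h2 : ((1 + 1 / 1000) ^ 2 * A ^ 2) * ((1 + 1 / 1000) * (A * σ)) =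
        (1 + 1 / 1000) ^ 3 * (A ^ 3 * σ) := by ring
    rw [h2] at h1
    have h3 : 0 < A ^ 3 * σ := by positivity
    have h4 : (κ * μ ^ 2) * μ * ℓ ≤ (1 + 1 / 1000) ^ 3 * (A ^ 3 * σ) * ℓ :=
      mul_le_mul_of_nonneg_right h1 (by linarith)
    have h5 : 0 < A ^ 3 * σ * ℓ := by positivity
    nlinarith
  refine ⟨hP1, ?_, ?_, hw, ?_⟩
  · nlinarith
  · rw [hw0]; positivity
  · refine hw.trans ?_
    have h1 : 12000 * (A ^ 3 * σ * ℓ) = 12000 / 10 ^ 7 * (A ^ 4 * σ) := by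
      rw [show ℓ = A / 10 ^ 7 by rw [hA]; ring]; ring
    rw [h1]
    have h2 : σ / 2 ≤ m2 := by linarith
    have h3 : 0 < A ^ 4 := by positivity
    have h4 : m2 / 36 * (A ^ 2 / 3) ^ 2 = m2 * A ^ 4 / 324 := by ring
    rw [h4]
    have h5 : σ * (9 / 10) ≤ m2 := by linarith
    have h6 := mul_le_mul_of_nonneg_right h5 h3.le
    nlinarith [mul_pos h3 hσ0]

theorem DD_bounds {V : Type*} [DecidableEq V] {H : Finset (Finset V)} {M : Finset V} {κ μ : ℝ}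
    (hκ : 0 < κ) (hM : (M.card : ℝ) = μ) (hμ : 1000 ≤ μ)
    (hc1 : ((sub H M).card : ℝ) ≤ 5 / 4 * Qh κ μ) (hc2 : 11 / 16 * Qh κ μ ≤ (sub H M).card) :
    κ * μ ^ 2 / 2 ≤ DD H M ∧ DD H M ≤ 5 / 4 * (κ * μ ^ 2) := by
  have hμ0 : 0 < μ := by linarith
  have e1 : (μ - 3) * (μ - 6) = μ ^ 2 - 9 * μ + 18 := by ring
  have hμ36 : 99 / 100 * μ ^ 2 ≤ (μ - 3) * (μ - 6) := by
    have : 1000 * μ ≤ μ * μ := mul_le_mul_of_nonneg_right hμ hμ0.le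
    rw [e1]; nlinarith
  have hμ36' : (μ - 3) * (μ - 6) ≤ μ ^ 2 := by rw [e1]; linarith
  have hκμ : 0 < κ * μ := by positivity
  obtain ⟨t, ht⟩ : ∃ t, t = κ * μ * ((μ - 3) * (μ - 6)) := ⟨_, rfl⟩
  obtain ⟨s, hs⟩ : ∃ s, s = κ * μ * μ ^ 2 := ⟨_, rfl⟩
  have hQt : Qh κ μ = t / 3 := by rw [ht]; unfold Qh; ring
  have h1 : 99 / 100 * s ≤ t := by
    rw [ht, hs]
    have := mul_le_mul_of_nonneg_left hμ36 hκμ.le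
    linarith
  have h2 : t ≤ s := by rw [ht, hs]; exact mul_le_mul_of_nonneg_left hμ36' hκμ.le
  have hs0 : 0 < s := by rw [hs]; positivity
  rw [hQt] at hc1 hc2
  unfold DD
  rw [hM, le_div_iff₀ hμ0, div_le_iff₀ hμ0]
  have e2 : κ * μ ^ 2 / 2 * μ = s / 2 := by rw [hs]; ring
  have e3 : 5 / 4 * (κ * μ ^ 2) * μ = 5 / 4 * s := by rw [hs]; ring
  rw [e2, e3]
  constructor <;> linarith

theorem lower_good {V : Type*} [DecidableEq V] {H : Finset (Finset V)} {M : Finset V}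
    (hH : IsLin3 H) (hNS : NS H)
    {κ σ A ℓ μ m2 w0 : ℝ} {j k Δ1 Δ2 : ℕ} (hκ0 : 0 < κ) (hκσ : κ * σ ^ 2 = 1)
    (hA7 : 10 ^ 7 ≤ A)
    (hℓ : 1 ≤ ℓ) (hσ0 : 60 ≤ σ) (hμ : 1000 ≤ μ) (hMr : (M.card : ℝ) = μ)
    (hm2 : μ = m2 + 3 * j) (hk : M.card ≤ 3 * k + 2)
    (hj : σ - 3 ≤ m2) (hj' : m2 ≤ σ)
    (hP1 : A ^ 2 ≤ κ * μ ^ 2) (hP2 : κ * μ ^ 2 ≤ 2 * A ^ 2) (hw00 : 0 ≤ w0)
    (hw1 : w0 ≤ 12000 * (A ^ 3 * σ * ℓ)) (hw2 : w0 ≤ m2 / 36 * (A ^ 2 / 3) ^ 2)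
    (hΔ1a : 2 * 10 ^ 6 * (A ^ 3 * ℓ) ≤ Δ1) (hΔ1b : (Δ1 : ℝ) ≤ 3 * 10 ^ 6 * (A ^ 3 * ℓ))
    (hΔ2a : 2 * 10 ^ 13 * (A ^ 6 * ℓ ^ 2) ≤ Δ2) (hΔ12 : Δ1 ≤ Δ2)
    (hc1 : ((sub H M).card : ℝ) ≤ 5 / 4 * Qh κ μ) (hc2 : 11 / 16 * Qh κ μ ≤ (sub H M).card)
    (hc3 : W H M ≤ w0) :
    m2 / 9 ≤ (3 * (Δ2 : ℝ) + 2) * EFv H k M := by
  obtain ⟨hD1, hD2⟩ := DD_bounds hκ0 hMr hμ hc1 hc2
  have hA0 : 0 < A := by linarith
  have hA2 : 10 ^ 14 ≤ A ^ 2 := by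
    calc (10 : ℝ) ^ 14 = (10 ^ 7) ^ 2 := by norm_num
      _ ≤ A ^ 2 := pow_le_pow_left₀ (by norm_num) hA7 2
  have hσp : 0 < σ := by linarith
  have hm2pos : 0 < m2 := by linarith
  refine good_lower (H := H) (M := M) (m2 := m2) (κ := κ) (w0 := w0) (j := j)
      (k := k) (Δ1 := Δ1) (Δ2 := Δ2) hH hNS (by linarith)
      (by rw [hMr, hm2]) hk hκ0 ?_ (by rw [hMr]; exact hc1) hc3 (by linarith) ?_ hΔ12 ?_ ?_ ?_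
  · have h1 : m2 ^ 2 ≤ σ ^ 2 := pow_le_pow_left₀ hm2pos.le hj' 2
    have h2 := mul_le_mul_of_nonneg_left h1 hκ0.le
    linarith
  · refine le_trans ?_ hΔ1a
    have h1 : A ^ 2 ≤ A ^ 3 * ℓ := by
      have e : A ^ 3 * ℓ = A ^ 2 * (A * ℓ) := by ring
      rw [e]
      have : 1 ≤ A * ℓ := by
        calc (1 : ℝ) = 1 * 1 := by norm_num
          _ ≤ A * ℓ := mul_le_mul (by linarith) hℓ (by norm_num) hA0.le
      have h0 : 0 ≤ A ^ 2 := by positivity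
      calc A ^ 2 = A ^ 2 * 1 := by ring
        _ ≤ A ^ 2 * (A * ℓ) := mul_le_mul_of_nonneg_left this h0
    linarith
  · refine hw2.trans (mul_le_mul_of_nonneg_left ?_ (by positivity))
    refine pow_le_pow_left₀ (by positivity) ?_ 2
    linarith
  · have h1 : 4 * w0 ≤ 4 * (12000 * (A ^ 3 * σ * ℓ)) := by linarith
    refine h1.trans ?_
    have h2 : σ * (9 / 10) / 36 * (2 * 10 ^ 6 * (A ^ 3 * ℓ)) ≤ m2 / 36 * Δ1 :=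
      mul_le_mul (by linarith) hΔ1a (by positivity) (by positivity)
    refine le_trans ?_ h2
    have h3 : σ * (9 / 10) / 36 * (2 * 10 ^ 6 * (A ^ 3 * ℓ)) = 50000 * (A ^ 3 * σ * ℓ) := by ring
    have h4 : 0 < A ^ 3 * σ * ℓ := by positivity
    linarith
  · have h1 : 12 * (Δ1 : ℝ) * w0 ≤ 12 * (3 * 10 ^ 6 * (A ^ 3 * ℓ)) *
        (12000 * (A ^ 3 * σ * ℓ)) :=
      mul_le_mul (by linarith) hw1 hw00 (by positivity)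
    refine h1.trans ?_
    have h2 : σ * (9 / 10) / 36 * (2 * 10 ^ 13 * (A ^ 6 * ℓ ^ 2)) ≤ m2 / 36 * Δ2 :=
      mul_le_mul (by linarith) hΔ2a (by positivity) (by positivity)
    refine le_trans ?_ h2
    have h3 : σ * (9 / 10) / 36 * (2 * 10 ^ 13 * (A ^ 6 * ℓ ^ 2)) =
      5 * 10 ^ 11 * (A ^ 6 * σ * ℓ ^ 2) := by ring
    have h4 : 0 < A ^ 6 * σ * ℓ ^ 2 := by positivity
    have h5 : 12 * (3 * 10 ^ 6 * (A ^ 3 * ℓ)) * (12000 * (A ^ 3 * σ * ℓ)) =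
      432 * 10 ^ 9 * (A ^ 6 * σ * ℓ ^ 2) := by ring
    rw [h3, h5]
    linarith

theorem lower_core {n : ℕ} {κ σ ℓ D0 N : ℝ} (hn : 2 ≤ n) (hD0 : D0 = n - 2) (hD0' : 0 < D0)
    (hN : N = ((n.choose 2 : ℕ) : ℝ)) (hN6 : 12 ≤ N)
    (hκ : κ = D0 / ((N - 3) * (N - 6))) (hσ0 : 60 ≤ σ) (hκσ : κ * σ ^ 2 = 1) (hℓ1 : 1 ≤ ℓ)
    (hlog : Real.log N ≤ ℓ + Real.log (10 ^ 7 * ℓ * σ)) (hAN : 10 ^ 7 * ℓ * σ ≤ N)
    (hDσ : D0 ≤ 10 ^ 7 * ℓ * σ) :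
    σ / 10 ^ 60 ≤ ℓ ^ 8 * EFv (Hn n) (n ^ 2) (EF (⊤ : SimpleGraph (Fin n))) := by
  obtain ⟨A, hA⟩ : ∃ A : ℝ, A = 10 ^ 7 * ℓ := ⟨_, rfl⟩
  rw [← hA] at hlog hAN hDσ
  have hA7 : 10 ^ 7 ≤ A := by rw [hA]; nlinarith
  have hA0 : 0 < A := by linarith
  have hσp : 0 < σ := by linarith
  have hκ0 : 0 < κ := by
    rw [hκ]
    have h3 : 0 < N - 3 := by linarith
    have h6 : 0 < N - 6 := by linarith
    positivity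
  obtain ⟨k1, hk1, hk1'⟩ := exists_mod hAN
  obtain ⟨μ, hμ⟩ : ∃ μ : ℝ, μ = N - 3 * k1 := ⟨_, rfl⟩
  rw [← hμ] at hk1 hk1'
  have hAσ : 10 ^ 7 * 60 ≤ A * σ := mul_le_mul hA7 hσ0 (by norm_num) hA0.le
  have hσμ : σ - 3 ≤ μ := by
    have : (1 : ℝ) * σ ≤ A * σ := mul_le_mul_of_nonneg_right (by linarith) hσp.le
    linarith
  obtain ⟨j, hj, hj'⟩ := exists_mod hσμ
  obtain ⟨m2, hm2⟩ : ∃ m2 : ℝ, m2 = μ - 3 * j := ⟨_, rfl⟩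
  rw [← hm2] at hj hj'
  obtain ⟨w0, hw0⟩ : ∃ w0 : ℝ, w0 = 10200 * ((κ * μ ^ 2) * μ) * ℓ := ⟨_, rfl⟩
  obtain ⟨hP1, hP2, hw00, hw1, hw2⟩ := num_core hκ0 hκσ hA hℓ1 hσ0 hk1 hk1' hj hw0
  have hμ0 : 0 < μ := by linarith
  have hμ60 : 60 ≤ μ := by linarith
  have hA2 : 10 ^ 14 ≤ A ^ 2 := by
    calc (10 : ℝ) ^ 14 = (10 ^ 7) ^ 2 := by norm_num
      _ ≤ A ^ 2 := pow_le_pow_left₀ (by norm_num) hA7 2
  have hPpos : 0 < κ * μ ^ 2 := by linarith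
  -- the size as a natural number
  obtain ⟨μN, hμN⟩ : ∃ μN : ℕ, μN = n.choose 2 - 3 * k1 := ⟨_, rfl⟩
  have hk1N : 3 * k1 ≤ n.choose 2 := by
    have : (3 * k1 : ℝ) ≤ n.choose 2 := by rw [← hN]; linarith
    exact_mod_cast this
  have hμNe : n.choose 2 = μN + 3 * k1 := by omega
  have hμNr : (μN : ℝ) = μ := by
    have : ((n.choose 2 : ℕ) : ℝ) = μN + 3 * k1 := by exact_mod_cast hμNe
    rw [hμ, hN]; linarith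
  have hn2 : n.choose 2 ≤ n ^ 2 := Nat.choose_le_pow n 2
  have hk1n : k1 ≤ n ^ 2 := by omega
  -- Δ's
  obtain ⟨Δ1, hΔ1⟩ : ∃ Δ1 : ℕ, Δ1 = ⌈2 * 10 ^ 6 * (A ^ 3 * ℓ)⌉₊ := ⟨_, rfl⟩
  obtain ⟨Δ2, hΔ2⟩ : ∃ Δ2 : ℕ, Δ2 = ⌈2 * 10 ^ 13 * (A ^ 6 * ℓ ^ 2)⌉₊ := ⟨_, rfl⟩
  have hA3ℓ : 1 ≤ A ^ 3 * ℓ := by
    have : 1 ≤ A ^ 3 := one_le_pow₀ (by linarith)
    calc (1 : ℝ) = 1 * 1 := by norm_num
      _ ≤ A ^ 3 * ℓ := mul_le_mul this hℓ1 (by norm_num) (by linarith)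
  have hA6ℓ : 1 ≤ A ^ 6 * ℓ ^ 2 := by
    have h1 : A ^ 6 * ℓ ^ 2 = (A ^ 3 * ℓ) ^ 2 := by ring
    rw [h1]; exact one_le_pow₀ hA3ℓ
  have hΔ1a : 2 * 10 ^ 6 * (A ^ 3 * ℓ) ≤ Δ1 := by rw [hΔ1]; exact Nat.le_ceil _
  have hΔ1b : (Δ1 : ℝ) ≤ 3 * 10 ^ 6 * (A ^ 3 * ℓ) := by
    have := (Nat.ceil_lt_add_one (by positivity : 0 ≤ 2 * 10 ^ 6 * (A ^ 3 * ℓ))).le
    rw [← hΔ1] at this
    linarith
  have hΔ2a : 2 * 10 ^ 13 * (A ^ 6 * ℓ ^ 2) ≤ Δ2 := by rw [hΔ2]; exact Nat.le_ceil _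
  have hΔ2b : (Δ2 : ℝ) ≤ 3 * 10 ^ 13 * (A ^ 6 * ℓ ^ 2) := by
    have := (Nat.ceil_lt_add_one (by positivity : 0 ≤ 2 * 10 ^ 13 * (A ^ 6 * ℓ ^ 2))).le
    rw [← hΔ2] at this
    linarith
  have hA3A6 : A ^ 3 * ℓ ≤ A ^ 6 * ℓ ^ 2 := by
    have h1 : A ^ 6 * ℓ ^ 2 = (A ^ 3 * ℓ) * (A ^ 3 * ℓ) := by ring
    rw [h1]
    have h0 : 0 ≤ A ^ 3 * ℓ := by linarith
    have := mul_le_mul_of_nonneg_left hA3ℓ h0
    linarith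
  have hΔ12 : Δ1 ≤ Δ2 := by
    have : (Δ1 : ℝ) ≤ Δ2 := by linarith
    exact_mod_cast this
  -- good states
  have hgood : ∀ M : Finset (Sym2 (Fin n)), M.card = μN →
      (m2 / 9 / (3 * (Δ2 : ℝ) + 2)) * (1 - badg κ μ w0 (Hn n) M) ≤
        EFv (Hn n) (n ^ 2 - k1) M := by
    intro M hM
    have hMr : (M.card : ℝ) = μ := by rw [hM, hμNr]
    unfold badg
    split_ifs with hc
    swap
    · rw [sub_self, mul_zero]; exact EFv_nonneg _ _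
    obtain ⟨hc1, hc2, hc3⟩ := hc
    have hgl := lower_good (H := Hn n) (M := M) Hn_lin Hn_NS hκ0 hκσ hA7 hℓ1 hσ0
      (by linarith) hMr (by rw [hm2]; ring) (k := n ^ 2 - k1) (by omega) hj (by linarith) hP1 hP2
      hw00 hw1 hw2 hΔ1a hΔ1b hΔ2a hΔ12 hc1 hc2 hc3
    have hΔp : 0 < 3 * (Δ2 : ℝ) + 2 := by positivity
    rw [sub_zero, mul_one, div_le_iff₀ hΔp, mul_comm]
    exact hgl
  have hdeg : ∀ x ∈ EF (⊤ : SimpleGraph (Fin n)),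
      (deg (Hn n) (EF (⊤ : SimpleGraph (Fin n))) x : ℝ) = D0 := by
    intro x hx
    rw [deg_top hx, hD0]
    push_cast [Nat.cast_sub hn]
    ring
  have hlog2 : Real.log (N / μ) ≤ ℓ := by
    rw [Real.log_div (by linarith) hμ0.ne']
    have := Real.log_le_log (by positivity) hk1
    linarith
  have hcost := cost_badg_le (H := Hn n) (M := EF (⊤ : SimpleGraph (Fin n))) Hn_lin
    (D0 := D0) (μ := μ) (w0 := w0) (k := k1) hD0' hdeg hμ60 (hDσ.trans hk1)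
    (by rw [card_top, ← hN, hμ]; ring) (κ := κ) (lam := κ * μ ^ 2 / (1020000 * ℓ))
    (by rw [card_top, ← hN, hκ])
    (by
      rw [one_le_div (by positivity)]
      refine le_trans ?_ hP1
      have : A ^ 2 = 10 ^ 7 * ℓ * A := by rw [← hA]; ring
      rw [this]
      have h0 : (0 : ℝ) < 10 ^ 7 * ℓ := by linarith
      have := mul_le_mul_of_nonneg_left hA7 h0.le
      linarith)
    (by linarith)
    (by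
      rw [card_top, ← hN]
      unfold cc
      have h1 : κ * μ ^ 2 / (1020000 * ℓ) * (255000 / (κ * μ ^ 2) * Real.log (N / μ)) =
          Real.log (N / μ) / ℓ / 4 := by
        field_simp; ring
      rw [h1]
      have h2 : Real.log (N / μ) / ℓ ≤ 1 := (div_le_one (by linarith)).2 hlog2
      linarith)
    (by
      rw [hw0]
      have h1 : 100 * (κ * μ ^ 2 / (1020000 * ℓ)) * (10200 * (κ * μ ^ 2 * μ) * ℓ) =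
          κ ^ 2 * μ ^ 5 := by
        field_simp; norm_num
      rw [h1])
  have hfin := EFv_cost (H := Hn n) Hn_lin hgood k1 (EF (⊤ : SimpleGraph (Fin n)))
    (by rw [card_top, hμNe])
  have hkk : n ^ 2 - k1 + k1 = n ^ 2 := by omega
  rw [hkk] at hfin
  have hm2pos : 0 < m2 := by linarith
  have hL0 : 0 < m2 / 9 / (3 * (Δ2 : ℝ) + 2) := by positivity
  have hfin2 : m2 / 9 / (3 * (Δ2 : ℝ) + 2) * (3 / 4) ≤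
      EFv (Hn n) (n ^ 2) (EF (⊤ : SimpleGraph (Fin n))) := by
    refine le_trans (mul_le_mul_of_nonneg_left ?_ hL0.le) hfin
    linarith
  have hℓ0 : 0 < ℓ := by linarith
  have hΔ2c : 3 * (Δ2 : ℝ) + 2 ≤ 10 ^ 57 * ℓ ^ 8 := by
    have h1 : A ^ 6 * ℓ ^ 2 = 10 ^ 42 * ℓ ^ 8 := by rw [hA]; ring
    rw [h1] at hΔ2b
    have h2 : 1 ≤ ℓ ^ 8 := one_le_pow₀ hℓ1
    linarith
  have hΔp : 0 < 3 * (Δ2 : ℝ) + 2 := by positivity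
  have h3 : m2 / 12 ≤ EFv (Hn n) (n ^ 2) (EF (⊤ : SimpleGraph (Fin n))) * (3 * (Δ2 : ℝ) + 2) := by
    rw [← div_le_iff₀ hΔp]
    refine le_trans (le_of_eq ?_) hfin2
    ring
  have hE0 := EFv_nonneg (H := Hn n) (n ^ 2) (EF (⊤ : SimpleGraph (Fin n)))
  have h4 := mul_le_mul_of_nonneg_left hΔ2c hE0
  have h5 : σ * (9 / 10) ≤ m2 := by linarith
  have h6 : σ / 10 ^ 60 * 10 ^ 57 ≤ 10 ^ 57 *
      (ℓ ^ 8 * EFv (Hn n) (n ^ 2) (EF (⊤ : SimpleGraph (Fin n)))) := by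
    have : σ / 10 ^ 60 * 10 ^ 57 = σ / 1000 := by ring
    rw [this]
    have e1 : EFv (Hn n) (n ^ 2) (EF (⊤ : SimpleGraph (Fin n))) * (10 ^ 57 * ℓ ^ 8) = 10 ^ 57 *
      (ℓ ^ 8 * EFv (Hn n) (n ^ 2) (EF (⊤ : SimpleGraph (Fin n)))) := by ring
    rw [← e1]
    linarith
  have h7 : (0 : ℝ) < 10 ^ 57 := by norm_num
  rw [mul_comm] at h6
  exact le_of_mul_le_mul_left h6 h7

end Vale.Agent.P046
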