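import Vale.Agent.P046.Lower5

/-!
`E F_n ≥ c n^{3/2} / (log n)^8`.
-/

namespace Vale.Agent.P046

open Finset MeasureTheory Filter

theorem choose_two_real (n : ℕ) : ((n.choose 2 : ℕ) : ℝ) = n * (n - 1) / 2 :=
  Nat.cast_choose_two ℝ n

theorem sig_bounds {y N D0 X : ℝ} (hy : 10 ^ 5 ≤ y) (hN1 : y ^ 2 / 4 ≤ N) (hN2 : N ≤ y ^ 2 / 2)
    (hD0 : D0 = y - 2) (hXX : X ^ 2 = y ^ 3) :
    (X / 10) ^ 2 ≤ (N - 3) * (N - 6) / D0 ∧ (N - 3) * (N - 6) / D0 ≤ X ^ 2 := by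
  have hy0 : 0 < y := by linarith
  have hD0' : 0 < D0 := by linarith
  have hy2 : (10 ^ 5 : ℝ) ^ 2 ≤ y ^ 2 := pow_le_pow_left₀ (by norm_num) hy 2
  have hN1000 : 1000 ≤ N := by linarith
  have e1 : (N - 3) * (N - 6) = N ^ 2 - 9 * N + 18 := by ring
  constructor
  · rw [div_pow, hXX, div_le_div_iff₀ (by norm_num) hD0']
    have h1 : 99 / 100 * N ^ 2 ≤ (N - 3) * (N - 6) := by
      have : 1000 * N ≤ N * N := mul_le_mul_of_nonneg_right hN1000 (by linarith)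
      rw [e1]; linarith
    have h2 : (y ^ 2 / 4) ^ 2 ≤ N ^ 2 := pow_le_pow_left₀ (by positivity) hN1 2
    have h3 : y ^ 3 * D0 ≤ y ^ 3 * y := mul_le_mul_of_nonneg_left (by linarith) (by positivity)
    have e2 : (y ^ 2 / 4) ^ 2 = y ^ 3 * y / 16 := by ring
    rw [e2] at h2
    have h0 : 0 < y ^ 3 * y := by positivity
    linarith
  · rw [hXX, div_le_iff₀ hD0']
    have h1 : (N - 3) * (N - 6) ≤ N ^ 2 := by rw [e1]; linarith
    have h2 : N ^ 2 ≤ (y ^ 2 / 2) ^ 2 := pow_le_pow_left₀ (by linarith) hN2 2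
    have h3 : y ^ 3 * (y / 2) ≤ y ^ 3 * D0 := mul_le_mul_of_nonneg_left (by linarith) (by positivity)
    have e2 : (y ^ 2 / 2) ^ 2 = y ^ 3 * (y / 2) / 2 := by ring
    rw [e2] at h2
    have h0 : 0 < y ^ 3 * (y / 2) := by positivity
    linarith

theorem expect_lower_of {n : ℕ} (hn : 10 ^ 5 ≤ n)
    (hbig : 10 ^ 8 * Real.log n * (n : ℝ) ^ (3 / 2 : ℝ) ≤ (n : ℝ) ^ 2) :
    (n : ℝ) ^ (3 / 2 : ℝ) / 10 ^ 61 ≤
      Real.log n ^ 8 * EFv (Hn n) (n ^ 2) (EF (⊤ : SimpleGraph (Fin n))) := by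
  have hnR : (10 ^ 5 : ℝ) ≤ n := by exact_mod_cast hn
  obtain ⟨y, hy⟩ : ∃ y : ℝ, y = n := ⟨_, rfl⟩
  rw [← hy] at hbig hnR ⊢
  have hy0 : 0 < y := by linarith
  obtain ⟨N, hN⟩ : ∃ N : ℝ, N = ((n.choose 2 : ℕ) : ℝ) := ⟨_, rfl⟩
  have hNe : N = y * (y - 1) / 2 := by rw [hN, choose_two_real, hy]
  have hN1 : y ^ 2 / 4 ≤ N := by
    have : 10 ^ 5 * y ≤ y * y := mul_le_mul_of_nonneg_right hnR hy0.le
    rw [hNe]; linarith
  have hN2 : N ≤ y ^ 2 / 2 := by rw [hNe]; linarith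
  have hy2 : (10 ^ 5 : ℝ) ^ 2 ≤ y ^ 2 := pow_le_pow_left₀ (by norm_num) hnR 2
  have hN12 : 1000 ≤ N := by linarith
  obtain ⟨D0, hD0⟩ : ∃ D0 : ℝ, D0 = y - 2 := ⟨_, rfl⟩
  have hD0' : 0 < D0 := by linarith
  obtain ⟨κ, hκ⟩ : ∃ κ : ℝ, κ = D0 / ((N - 3) * (N - 6)) := ⟨_, rfl⟩
  have hN3 : 0 < N - 3 := by linarith
  have hN6 : 0 < N - 6 := by linarith
  have hNN : 0 < (N - 3) * (N - 6) := by positivity
  have hκ0 : 0 < κ := by rw [hκ]; positivity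
  obtain ⟨σ, hσ⟩ : ∃ σ : ℝ, σ = Real.sqrt (1 / κ) := ⟨_, rfl⟩
  have hσσ : σ ^ 2 = 1 / κ := by rw [hσ]; exact Real.sq_sqrt (by positivity)
  have hσnn : 0 ≤ σ := by rw [hσ]; exact Real.sqrt_nonneg _
  have hκσ : κ * σ ^ 2 = 1 := by rw [hσσ]; field_simp
  obtain ⟨X, hX⟩ : ∃ X : ℝ, X = y ^ (3 / 2 : ℝ) := ⟨_, rfl⟩
  have hX0 : 0 < X := by rw [hX]; positivity
  have hXX : X ^ 2 = y ^ 3 := by
    rw [hX, ← Real.rpow_natCast, ← Real.rpow_mul hy0.le, ← Real.rpow_natCast]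
    norm_num
  rw [← hX] at hbig ⊢
  -- bounds on σ
  obtain ⟨hs1, hs2⟩ := sig_bounds hnR hN1 hN2 hD0 hXX
  have hσκ : σ ^ 2 = (N - 3) * (N - 6) / D0 := by rw [hσσ, hκ, one_div_div]
  rw [← hσκ] at hs1 hs2
  have hσ1 : X / 10 ≤ σ := (pow_le_pow_iff_left₀ (by positivity) hσnn two_ne_zero).1 hs1
  have hσ2 : σ ≤ X := (pow_le_pow_iff_left₀ hσnn hX0.le two_ne_zero).1 hs2
  have hyX : y * 300 ≤ X := by
    rw [← pow_le_pow_iff_left₀ (by positivity) hX0.le (two_ne_zero), hXX]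
    have : y ^ 2 * 10 ^ 5 ≤ y ^ 2 * y := mul_le_mul_of_nonneg_left hnR (by positivity)
    have e : (y * 300) ^ 2 = y ^ 2 * 90000 := by ring
    have e2 : y ^ 3 = y ^ 2 * y := by ring
    have h0 : 0 < y ^ 2 := by positivity
    rw [e, e2]
    linarith
  have hlog1 : 1 ≤ Real.log y := by
    rw [Real.le_log_iff_exp_le hy0]
    have := Real.exp_one_lt_d9
    linarith
  have hAσ : 10 ^ 7 * Real.log y * σ ≤ N := by
    have h1 : 10 ^ 7 * Real.log y * σ ≤ 10 ^ 7 * Real.log y * X :=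
      mul_le_mul_of_nonneg_left hσ2 (by positivity)
    have h2 : 0 < Real.log y * X := by positivity
    linarith
  have hσy : y ≤ 10 ^ 7 * Real.log y * σ := by
    have h1 : 10 ^ 7 * 1 * (X / 10) ≤ 10 ^ 7 * Real.log y * σ :=
      mul_le_mul (by linarith) hσ1 (by positivity) (by positivity)
    linarith
  have h := lower_core (n := n) (κ := κ) (σ := σ) (ℓ := Real.log y) (D0 := D0) (N := N)
    (by omega) (by rw [hD0, hy]) hD0' hN (by linarith) hκ (by linarith) hκσ hlog1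
    (by
      have hA0 : 0 < 10 ^ 7 * Real.log y * σ := by linarith
      rw [← Real.log_mul hy0.ne' hA0.ne']
      refine Real.log_le_log (by positivity) ?_
      have h1 : y * y ≤ y * (10 ^ 7 * Real.log y * σ) := mul_le_mul_of_nonneg_left hσy hy0.le
      have h0 : 0 < y ^ 2 := by positivity
      linarith) hAσ (by linarith)
  refine le_trans ?_ h
  linarith

theorem log_mul_rpow_le : ∀ᶠ n : ℕ in atTop,
    10 ^ 8 * Real.log n * (n : ℝ) ^ (3 / 2 : ℝ) ≤ (n : ℝ) ^ 2 := by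
  have h1 := (isLittleO_log_rpow_atTop (by norm_num : (0 : ℝ) < 1 / 2)).bound
    (by norm_num : (0 : ℝ) < 1 / 10 ^ 8)
  have h2 := tendsto_natCast_atTop_atTop (R := ℝ) |>.eventually h1
  filter_upwards [h2, eventually_ge_atTop 1] with n hn hn1
  have hn0 : (1 : ℝ) ≤ n := by exact_mod_cast hn1
  have hp : (0 : ℝ) < n := by linarith
  rw [Real.norm_of_nonneg (Real.log_nonneg hn0), Real.norm_of_nonneg (by positivity)] at hn
  have h3 : (n : ℝ) ^ 2 = (n : ℝ) ^ (1 / 2 : ℝ) * (n : ℝ) ^ (3 / 2 : ℝ) := by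
    rw [← Real.rpow_add hp, ← Real.rpow_natCast]; norm_num
  rw [h3]
  refine mul_le_mul_of_nonneg_right ?_ (by positivity)
  linarith

theorem expect_lower : ∃ n0 : ℕ, 2 ≤ n0 ∧ ∀ n : ℕ, n0 ≤ n →
    1 / 10 ^ 61 * (n : ℝ) ^ (3 / 2 : ℝ) / Real.log n ^ 8 ≤
      ∫ k, (k : ℝ) ∂(finalEdges n).toMeasure := by
  obtain ⟨n0, hn0⟩ := eventually_atTop.1 (log_mul_rpow_le)
  refine ⟨max n0 (10 ^ 5), le_trans (by norm_num) (le_max_right _ _), fun n hn => ?_⟩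
  have h1 := hn0 n ((le_max_left _ _).trans hn)
  have h2 : 10 ^ 5 ≤ n := (le_max_right _ _).trans hn
  have h := expect_lower_of h2 h1
  have hn1 : (1 : ℝ) < n := by
    have : 1 < n := by omega
    exact_mod_cast this
  have hlog : 0 < Real.log n := Real.log_pos hn1
  rw [integral_finalEdges, div_le_iff₀ (by positivity)]
  linarith

end Vale.Agent.P046
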