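import Vale.Agent.P046.Potential

/-!
The supermartingale argument with a general terminal cost and a free multiplier `lam ≥ 1`.
-/

namespace Vale.Agent.P046

open Finset

variable {V : Type*} [DecidableEq V] {H : Finset (Finset V)} {M T : Finset V}

/-- expected terminal cost after `k` steps of the random greedy matching, where getting stuck
before costs `1` -/
noncomputable def cost (H : Finset (Finset V)) (g : Finset V → ℝ) : ℕ → Finset V → ℝ
  | 0, M => g M
  | k + 1, M => if sub H M = ∅ then 1 else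
      (∑ T ∈ sub H M, cost H g k (M \ T)) / ((sub H M).card : ℝ)

theorem cost_le_one {g : Finset V → ℝ} (hg : ∀ M, g M ≤ 1) (k : ℕ) : ∀ M, cost H g k M ≤ 1 := by
  induction k with
  | zero => intro M; exact hg M
  | succ k ih =>
    intro M
    unfold cost
    split_ifs with h
    · exact le_rfl
    · have hc : 0 < ((sub H M).card : ℝ) := by
        exact_mod_cast card_pos.2 (nonempty_iff_ne_empty.2 h)
      rw [div_le_one hc]
      calc ∑ T ∈ sub H M, cost H g k (M \ T) ≤ ∑ _T ∈ sub H M, (1 : ℝ) :=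
            Finset.sum_le_sum fun T _ => ih _
        _ = _ := by rw [sum_const, nsmul_eq_mul, mul_one]

/-- the potential with multiplier -/
noncomputable def LamL (lam κ μ : ℝ) (H : Finset (Finset V)) (M : Finset V) (S : ℝ) : ℝ :=
  (lam * al κ μ M.card) * max 0 (2 - 16 * S) * W H M + 16 * S +
    16 * ((sub H M).card / Qh κ M.card + S - 1) ^ 2 + lam * cc κ μ M.card

theorem one_le_LamL {lam κ μ S : ℝ} (hH : IsLin3 H) (hlam : 1 ≤ lam) (hκ : 0 < κ) (hμ : 0 < μ)
    (hm : μ ≤ (M.card : ℝ))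
    (hS : 0 ≤ S) (hbad : 1 ≤ 16 * S ∨ 1 / 4 ≤ |((sub H M).card : ℝ) / Qh κ M.card + S - 1|) :
    1 ≤ LamL lam κ μ H M S := by
  have h1 := al_nonneg (κ := κ) hμ hm
  have h2 := cc_nonneg hκ hμ hm
  have h3 := W_nonneg' (M := M) hH
  have h4 : 0 ≤ max 0 (2 - 16 * S) := le_max_left _ _
  have h5 : 0 ≤ (lam * al κ μ M.card) * max 0 (2 - 16 * S) * W H M := by positivity
  have h6 := sq_nonneg (((sub H M).card : ℝ) / Qh κ M.card + S - 1)
  have h8 : 0 ≤ lam * cc κ μ M.card := by positivity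
  unfold LamL
  rcases hbad with h | h
  · linarith
  · have h7 : (1 / 4 : ℝ) ^ 2 ≤ |((sub H M).card : ℝ) / Qh κ M.card + S - 1| ^ 2 :=
      pow_le_pow_left₀ (by norm_num) h 2
    rw [sq_abs] at h7
    linarith

theorem cost_le_LamL {lam κ μ : ℝ} {g : Finset V → ℝ} (hH : IsLin3 H) (hlam : 1 ≤ lam)
    (hκ : 0 < κ) (hμ : 60 ≤ μ) (hκμ : 2390 ≤ κ * μ ^ 2) (hg1 : ∀ M, g M ≤ 1)
    (hg : ∀ (M : Finset V) (S : ℝ), (M.card : ℝ) = μ → 0 ≤ S → g M ≤ LamL lam κ μ H M S) (k : ℕ) :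
    ∀ (M : Finset V) (S : ℝ), (M.card : ℝ) = μ + 3 * k → 0 ≤ S →
      (∀ x ∈ M, (deg H M x : ℝ) ≤ μ) → cost H g k M ≤ LamL lam κ μ H M S := by
  have hμ0 : 0 < μ := by linarith
  induction k with
  | zero =>
    intro M S hM hS hdeg
    unfold cost
    exact hg M S (by rw [hM]; simp) hS
  | succ k ih =>
    intro M S hM hS hdeg
    have hk0 : (0 : ℝ) ≤ k := by positivity
    push_cast at hM
    have hmμ : μ ≤ (M.card : ℝ) := by rw [hM]; linarith
    by_cases hbad : 1 ≤ 16 * S ∨ 1 / 4 ≤ |((sub H M).card : ℝ) / Qh κ M.card + S - 1|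
    · exact (cost_le_one hg1 _ _).trans (one_le_LamL hH hlam hκ hμ0 hmμ hS hbad)
    push Not at hbad
    obtain ⟨hS1, hZ⟩ := hbad
    obtain ⟨m, hm⟩ : ∃ m : ℝ, m = M.card := ⟨_, rfl⟩
    obtain ⟨Q, hQ⟩ : ∃ Q : ℝ, Q = (sub H M).card := ⟨_, rfl⟩
    rw [← hm] at hM hmμ hZ
    rw [← hQ] at hZ
    have hm3 : μ + 3 ≤ m := by rw [hM]; linarith
    have hm60 : 60 ≤ m := by linarith
    have hm0 : 0 < m := by linarith
    obtain ⟨B, hB⟩ : ∃ B : ℝ, B = κ * (m - 3) * (m - 6) := ⟨_, rfl⟩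
    have hBbig : 2043 ≤ B := by rw [hB]; exact Dbar_big hκ hμ hmμ hκμ
    have hB0 : 0 < B := by linarith
    have hQh : Qh κ m = m * B / 3 := by unfold Qh; rw [hB]; ring
    have hQh' : Qh κ (m - 3) = (m - 9) * B / 3 := by unfold Qh; rw [hB]; ring
    have hQh0 : 0 < Qh κ m := by rw [hQh]; positivity
    have hQh0' : 0 < Qh κ (m - 3) := by
      rw [hQh']; have : 0 < m - 9 := by linarith
      positivity
    obtain ⟨q, hq⟩ : ∃ q : ℝ, q = Q / Qh κ m := ⟨_, rfl⟩
    rw [← hq] at hZ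
    have hZ' := abs_lt.1 hZ
    have hq1 : 11 / 16 ≤ q := by linarith
    have hq2 : q ≤ 5 / 4 := by linarith
    have hQq : Q = q * Qh κ m := by rw [hq]; field_simp
    have hQ0 : 0 < Q := by rw [hQq]; exact mul_pos (by linarith) hQh0
    obtain ⟨D, hD⟩ : ∃ D : ℝ, D = DD H M := ⟨_, rfl⟩
    have hDe : D = 3 * Q / m := by rw [hD, hQ, hm]; rfl
    have hDq : D = q * B := by rw [hDe, hQq, hQh]; field_simp
    have hDbig : 40 ≤ D := by
      have := mul_le_mul hq1 hBbig (by norm_num) (by linarith)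
      rw [hDq]; linarith
    obtain ⟨U, hU⟩ : ∃ U : ℝ, U = S2 H M - m * D ^ 2 := ⟨_, rfl⟩
    have hmc0 : (M.card : ℝ) ≠ 0 := by rw [← hm]; exact hm0.ne'
    have hU0 : 0 ≤ U := by
      rw [hU, hD, hm]; exact U_nonneg hH hmc0
    have hUW : U ≤ W H M := by
      rw [hU, hD, hm]; exact U_le_W hH hmc0 (by rw [← hD]; linarith)
    have hdegm : ∀ x ∈ M, (deg H M x : ℝ) ≤ m := fun x hx => (hdeg x hx).trans hmμ
    have hne : sub H M ≠ ∅ := by
      intro h0; rw [h0] at hQ; simp at hQ; linarith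
    obtain ⟨S', hS'⟩ : ∃ S' : ℝ, S' = S + U / (Q * Qh κ (m - 3)) := ⟨_, rfl⟩
    have hS'0 : 0 ≤ S' := by rw [hS']; positivity
    -- the induction hypothesis for each child
    have hchild : ∀ T ∈ sub H M, cost H g k (M \ T) ≤
        (lam * al κ μ (m - 3)) * max 0 (2 - 16 * S') * W H (M \ T) + 16 * S' +
        16 * (q + S + (3 * D + U / Q + 2 - sT H M T) / Qh κ (m - 3) - 1) ^ 2 + lam * cc κ μ (m - 3) := by
      intro T hT
      have hc : ((M \ T).card : ℝ) = m - 3 := by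
        have h3 := card_sdiff_of_mem hH hT
        have : ((M \ T).card : ℝ) + 3 = M.card := by exact_mod_cast h3
        linarith
      have h1 := ih (M \ T) S' (by rw [hc, hM]; ring) hS'0 (by
        intro x hx
        have h2 := deg_le_of_subset (H := H) (M := M) (M' := M \ T) sdiff_subset x
        have h2' : (deg H (M \ T) x : ℝ) ≤ deg H M x := by exact_mod_cast h2
        exact h2'.trans (hdeg x (mem_sdiff.1 hx).1))
      unfold LamL at h1
      rw [hc] at h1
      have hQT : ((sub H (M \ T)).card : ℝ) = Q - sT H M T + 2 := by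
        have h3 := card_sub_sdiff hH hT
        have h4 := sT_eq hH hT
        have h3' : ((sub H (M \ T)).card : ℝ) + (1 + nb H M T) = (sub H M).card := by
          exact_mod_cast h3
        have h4' : (sT H M T : ℝ) = 3 + nb H M T := by exact_mod_cast h4
        rw [hQ]; linarith
      have hZT : ((sub H (M \ T)).card : ℝ) / Qh κ (m - 3) + S' =
          q + S + (3 * D + U / Q + 2 - sT H M T) / Qh κ (m - 3) := by
        have h5 : q = (Q - 3 * D) / Qh κ (m - 3) := by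
          rw [eq_div_iff hQh0'.ne', hDq, hQq, hQh, hQh']; ring
        have h6 : U / (Q * Qh κ (m - 3)) = (U / Q) / Qh κ (m - 3) := by rw [div_div]
        rw [hQT, hS', h6]
        nth_rewrite 1 [h5]
        ring
      rw [hZT] at h1
      exact h1
    -- averages
    have hWs := W_step hH (by rw [← hm]; exact hm60) (by rw [← hD]; exact hDbig)
      (by rw [← hm]; exact hdegm)
    rw [← hm, ← hD, ← hQ, ← hU] at hWs
    have hAW : (∑ T ∈ sub H M, W H (M \ T)) / Q ≤
        W H M * ((1 - 9 / m + 1200 / (m * D)) + 36 * U / (m * D ^ 2 * (m - 3))) + 1300 * D := by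
      rw [div_le_iff₀ hQ0]
      refine hWs.trans (le_of_eq ?_)
      ring
    have hAZ := sum_Z (Z := q + S) (Q' := Qh κ (m - 3)) hH hm.symm hm0 (by rw [← hQ]; exact hQ0) hdegm
      hQh0' hZ.le hD hU
    rw [← hQ] at hAZ
    have hA := arithA hκ hμ hm3 hκμ hq1 hQq hDe
    have hBt := arithB hκ hμ hm3 hκμ hq1 hq2 hQq hDe
    have hal := al_nonneg (κ := κ) hμ0 (by linarith : μ ≤ m - 3)
    have hA0 : 85 / 100 ≤ 1 - 9 / m + 1200 / (m * D) := by
      have h1 : 9 / m ≤ 9 / 60 := div_le_div_of_nonneg_left (by norm_num) (by norm_num) hm60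
      have h2 : 0 ≤ 1200 / (m * D) := by positivity
      linarith
    have hlam0 : 0 ≤ lam := by linarith
    have hA2 : lam * al κ μ (m - 3) * (1 - 9 / m + 1200 / (m * D)) + 16 / (Q * Qh κ (m - 3)) +
        48 * m / (Q * Qh κ (m - 3) ^ 2) ≤ lam * al κ μ m := by
      have h1 := mul_le_mul_of_nonneg_left hA hlam0
      have h2 : 0 ≤ 16 / (Q * Qh κ (m - 3)) + 48 * m / (Q * Qh κ (m - 3) ^ 2) := by positivity
      have h3 : 1 * (16 / (Q * Qh κ (m - 3)) + 48 * m / (Q * Qh κ (m - 3) ^ 2)) ≤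
        lam * (16 / (Q * Qh κ (m - 3)) + 48 * m / (Q * Qh κ (m - 3) ^ 2)) :=
        mul_le_mul_of_nonneg_right hlam h2
      linarith
    have hB2 : 2600 * (lam * al κ μ (m - 3)) * D + 16 / Qh κ (m - 3) +
        16 * (9 * m * D + 4) / Qh κ (m - 3) ^ 2 + lam * cc κ μ (m - 3) ≤ lam * cc κ μ m := by
      have h1 := mul_le_mul_of_nonneg_left hBt hlam0
      have hD0 : 0 < D := by linarith
      have h2 : 0 ≤ 16 / Qh κ (m - 3) + 16 * (9 * m * D + 4) / Qh κ (m - 3) ^ 2 := by positivity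
      have h3 : 1 * (16 / Qh κ (m - 3) + 16 * (9 * m * D + 4) / Qh κ (m - 3) ^ 2) ≤
        lam * (16 / Qh κ (m - 3) + 16 * (9 * m * D + 4) / Qh κ (m - 3) ^ 2) :=
        mul_le_mul_of_nonneg_right hlam h2
      linarith
    have hcomb := combine (a := lam * al κ μ m) (mul_nonneg hlam0 hal) hq1 hB0 hm60
      (by rw [hQq, hQh]) hQh' hDq hA0 hA2 hB2 hS hS1 hS' hU0 hUW hAW hAZ
    have hfin : cost H g (k + 1) M ≤ (lam * al κ μ (m - 3)) * max 0 (2 - 16 * S') *
        ((∑ T ∈ sub H M, W H (M \ T)) / Q) + 16 * S' +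
        16 * ((∑ T ∈ sub H M, (q + S + (3 * D + U / Q + 2 - sT H M T) / Qh κ (m - 3) - 1) ^ 2) / Q)
        + lam * cc κ μ (m - 3) := by
      rw [cost, if_neg hne, ← hQ, div_le_iff₀ hQ0]
      refine (Finset.sum_le_sum hchild).trans (le_of_eq ?_)
      have e1 : ∑ T ∈ sub H M, ((lam * al κ μ (m - 3)) * max 0 (2 - 16 * S') * W H (M \ T) +
        16 * S' +
        16 * (q + S + (3 * D + U / Q + 2 - sT H M T) / Qh κ (m - 3) - 1) ^ 2 +
        lam * cc κ μ (m - 3)) =
        (lam * al κ μ (m - 3)) * max 0 (2 - 16 * S') * (∑ T ∈ sub H M, W H (M \ T)) +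
        Q * (16 * S') +
        16 * (∑ T ∈ sub H M, (q + S + (3 * D + U / Q + 2 - sT H M T) / Qh κ (m - 3) - 1) ^ 2) +
        Q * (lam * cc κ μ (m - 3)) := by
        rw [sum_add_distrib, sum_add_distrib, sum_add_distrib, sum_const, sum_const, nsmul_eq_mul,
          nsmul_eq_mul, ← mul_sum, ← mul_sum, ← hQ]
      rw [e1]
      field_simp
    refine hfin.trans ?_
    unfold LamL
    rw [← hm, ← hQ, ← hq]
    exact hcomb

/-- the terminal bad event -/
noncomputable def badg (κ μ w0 : ℝ) (H : Finset (Finset V)) (M : Finset V) : ℝ :=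
  if ((sub H M).card : ℝ) ≤ 5 / 4 * Qh κ μ ∧ 11 / 16 * Qh κ μ ≤ (sub H M).card ∧ W H M ≤ w0
    then 0 else 1

theorem badg_le_LamL {lam κ μ w0 : ℝ} (hH : IsLin3 H) (hlam : 1 ≤ lam) (hκ : 0 < κ) (hμ : 60 ≤ μ)
    (hw0 : κ ^ 2 * μ ^ 5 ≤ 100 * lam * w0) (M : Finset V) (S : ℝ) (hM : (M.card : ℝ) = μ)
    (hS : 0 ≤ S) : badg κ μ w0 H M ≤ LamL lam κ μ H M S := by
  have hμ0 : 0 < μ := by linarith
  by_cases hbad : 1 ≤ 16 * S ∨ 1 / 4 ≤ |((sub H M).card : ℝ) / Qh κ M.card + S - 1|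
  · refine le_trans ?_ (one_le_LamL hH hlam hκ hμ0 hM.ge hS hbad)
    unfold badg
    split_ifs <;> norm_num
  push Not at hbad
  obtain ⟨hS1, hZ⟩ := hbad
  rw [hM] at hZ
  have hQh0 : 0 < Qh κ μ := by
    unfold Qh
    have h3 : 0 < μ - 3 := by linarith
    have h6 : 0 < μ - 6 := by linarith
    positivity
  have h1 := al_nonneg (κ := κ) hμ0 hM.ge
  have h2 := cc_nonneg hκ hμ0 hM.ge
  have h3 := W_nonneg' (M := M) hH
  have h6 := sq_nonneg (((sub H M).card : ℝ) / Qh κ M.card + S - 1)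
  unfold badg
  split_ifs with hc
  · unfold LamL
    have h4 : 0 ≤ max 0 (2 - 16 * S) := le_max_left _ _
    positivity
  · have hZ' := abs_lt.1 hZ
    have hq1 : ((sub H M).card : ℝ) / Qh κ μ ≤ 5 / 4 := by linarith
    have hq2 : 11 / 16 ≤ ((sub H M).card : ℝ) / Qh κ μ := by linarith
    rw [div_le_iff₀ hQh0] at hq1
    rw [le_div_iff₀ hQh0] at hq2
    have hW : w0 < W H M := by
      by_contra h
      push Not at h
      exact hc ⟨hq1, hq2, h⟩
    have hal : al κ μ (M.card : ℝ) = 100 / (κ ^ 2 * μ ^ 5) := by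
      rw [hM]; unfold al; field_simp; norm_num
    have h5 : 1 ≤ lam * al κ μ M.card * W H M := by
      rw [hal]
      have h7 : 0 < κ ^ 2 * μ ^ 5 := by positivity
      have h8 : lam * (100 / (κ ^ 2 * μ ^ 5)) * W H M = 100 * lam * W H M / (κ ^ 2 * μ ^ 5) := by
        ring
      rw [h8, one_le_div h7]
      have h9 : 100 * lam * w0 ≤ 100 * lam * W H M :=
        mul_le_mul_of_nonneg_left hW.le (by linarith)
      linarith
    have hmax : 1 ≤ max 0 (2 - 16 * S) := le_max_of_le_right (by linarith)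
    have h7 : 1 ≤ lam * al κ μ M.card * max 0 (2 - 16 * S) * W H M := by
      have h8 : lam * al κ μ M.card * W H M * 1 ≤ lam * al κ μ M.card * W H M *
          max 0 (2 - 16 * S) := mul_le_mul_of_nonneg_left hmax (by positivity)
      linarith
    unfold LamL
    have h8 : 0 ≤ lam * cc κ μ M.card := by positivity
    linarith

/-- From a regular start, with probability `≥ 3/4` the state of size `μ` is good. -/
theorem cost_badg_le (hH : IsLin3 H) {D0 μ w0 : ℝ} {k : ℕ} (hD0 : 0 < D0)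
    (hreg : ∀ x ∈ M, (deg H M x : ℝ) = D0) (hμ : 60 ≤ μ) (hDμ : D0 ≤ μ)
    (hM : (M.card : ℝ) = μ + 3 * k) {κ lam : ℝ}
    (hκ : κ = D0 / ((M.card - 3) * (M.card - 6))) (hlam : 1 ≤ lam)
    (hκμ : 2390 ≤ κ * μ ^ 2) (hlam2 : lam * cc κ μ M.card ≤ 1 / 4)
    (hw0 : κ ^ 2 * μ ^ 5 ≤ 100 * lam * w0) :
    cost H (badg κ μ w0 H) k M ≤ 1 / 4 := by
  obtain ⟨N, hN⟩ : ∃ N : ℝ, N = M.card := ⟨_, rfl⟩
  rw [← hN] at hM hκ hlam2
  have hk0 : (0 : ℝ) ≤ k := by positivity
  have hNμ : μ ≤ N := by linarith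
  have hN60 : 60 ≤ N := by linarith
  have hN0 : 0 < N := by linarith
  have hμ0 : 0 < μ := by linarith
  have hN3 : 0 < N - 3 := by linarith
  have hN6 : 0 < N - 6 := by linarith
  have hκ0 : 0 < κ := by rw [hκ]; positivity
  have hκe : κ * ((N - 3) * (N - 6)) = D0 := by rw [hκ]; field_simp
  have h1 := cost_le_LamL (H := H) (g := badg κ μ w0 H) hH hlam hκ0 hμ hκμ
    (by intro M; unfold badg; split_ifs <;> norm_num)
    (fun M S hM hS => badg_le_LamL hH hlam hκ0 hμ hw0 M S hM hS) k M 0 (by rw [← hN, hM]) le_rfl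
    (fun x hx => (hreg x hx).le.trans hDμ)
  have hQ : 3 * ((sub H M).card : ℝ) = N * D0 := by
    rw [← sum_deg hH, sum_congr rfl hreg, sum_const, nsmul_eq_mul, ← hN]
  have hDD : DD H M = D0 := by
    unfold DD; rw [hQ, ← hN]; field_simp
  have hW : W H M = 0 := by
    unfold W
    refine sum_eq_zero fun x hx => ?_
    rw [hreg x hx, hDD, Hf_self hD0]
  have hQh : ((sub H M).card : ℝ) / Qh κ N = 1 := by
    have h2 : Qh κ N = N * D0 / 3 := by unfold Qh; rw [← hκe]; ring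
    have h3 : ((sub H M).card : ℝ) = N * D0 / 3 := by linarith
    rw [h2, h3]
    exact div_self (by positivity)
  unfold LamL at h1
  rw [← hN, hW, hQh] at h1
  refine h1.trans (le_trans (le_of_eq ?_) hlam2)
  ring

end Vale.Agent.P046
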