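import Vale.Agent.P046.Link

/-!
Tail bound and expectation bound for `F_n`.
-/

namespace Vale.Agent.P046

open Finset MeasureTheory
open scoped ENNReal

variable {n : ℕ}

open Classical in
theorem triRun_cliqueFree (K : ℕ) : ∀ G : SimpleGraph (Fin n), (EF G).card < 3 * (K + 1) →
    ∀ G' ∈ (triRun K G).support, G'.CliqueFree 3 := by
  have key : ∀ (G : SimpleGraph (Fin n)), ∀ t ∈ G.cliqueFinset 3,
      (EF (G.deleteEdges {e | ∀ v ∈ e, v ∈ t})).card + 3 = (EF G).card := by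
    intro G t ht
    rw [edgeFinset_delete]
    refine card_sdiff_of_mem Hn_lin ?_
    rw [sub_Hn]
    exact mem_image_of_mem _ ht
  induction K with
  | zero =>
    intro G hG G' hG'
    rw [triRun, PMF.mem_support_pure_iff] at hG'
    subst hG'
    intro t ht
    have := key G' t (by rw [SimpleGraph.mem_cliqueFinset_iff]; exact ht)
    omega
  | succ K ih =>
    intro G hG G' hG'
    have hle := triRun_support (K + 1) G G' hG'
    by_cases hne : (G.cliqueFinset 3).Nonempty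
    · rw [triRun, PMF.mem_support_bind_iff] at hG'
      obtain ⟨G1, h1, h2⟩ := hG'
      rw [triStep, dif_pos hne, PMF.mem_support_map_iff] at h1
      obtain ⟨t, ht, rfl⟩ := h1
      rw [PMF.mem_support_uniformOfFinset_iff] at ht
      have := key G t ht
      exact ih _ (by omega) G' h2
    · rw [not_nonempty_iff_eq_empty, SimpleGraph.cliqueFinset_eq_empty_iff] at hne
      exact hne.anti hle

theorem finalGraph_cliqueFree (n : ℕ) : ∀ G ∈ (finalGraph n).support, G.CliqueFree 3 := by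
  refine triRun_cliqueFree _ _ ?_
  rw [card_top]
  have : n.choose 2 ≤ n ^ 2 := Nat.choose_le_pow n 2
  omega

theorem final_tail (n : ℕ) (s : Set ℕ) :
    (finalEdges n).toMeasure s =
      (triRun (n ^ 2) (⊤ : SimpleGraph (Fin n))).toOuterMeasure {G | (EF G).card ∈ s} := by
  rw [PMF.toMeasure_apply_eq_toOuterMeasure, finalEdges, PMF.toOuterMeasure_map_apply, finalGraph]
  have h : (fun G : SimpleGraph (Fin n) => G.edgeSet.ncard) ⁻¹' s = {G | (EF G).card ∈ s} := by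
    ext G
    rw [Set.mem_preimage, Set.mem_ofPred_eq, ncard_eq]
  rw [h]

theorem final_le (n : ℕ) : (finalEdges n).toMeasure {k | n.choose 2 < k} = 0 := by
  rw [final_tail, PMF.toOuterMeasure_apply_eq_zero_iff, Set.disjoint_left]
  intro G h1 h2
  rw [Set.mem_ofPred_eq, Set.mem_ofPred_eq] at h2
  have h3 := card_le_card (EF_mono (triRun_support _ _ G h1))
  rw [card_top] at h3
  omega

theorem final_tail_le (n : ℕ) {x : ℝ} {k : ℕ} (hk : k ≤ n ^ 2)
    (hx : ((n.choose 2 : ℕ) : ℝ) ≤ x + 3 * k) :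
    ((finalEdges n).toMeasure {j : ℕ | x < j}).toReal ≤
      fail (Hn n) k (EF (⊤ : SimpleGraph (Fin n))) := by
  rw [final_tail]
  refine ENNReal.toReal_le_of_le_ofReal (fail_nonneg _ _ _) ?_
  refine le_trans (MeasureTheory.measure_mono ?_) (prob_le_fail k (n ^ 2) ⊤ hk)
  intro G hG
  rw [Set.mem_ofPred_eq, Set.mem_ofPred_eq] at hG
  rw [Set.mem_ofPred_eq, card_top]
  have : ((n.choose 2 : ℕ) : ℝ) < (EF G).card + 3 * k := by linarith
  exact_mod_cast this

theorem real_le_one (s : Set ℕ) : ((finalEdges n).toMeasure s).toReal ≤ 1 := by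
  have h : (finalEdges n).toMeasure s ≤ 1 := MeasureTheory.prob_le_one
  exact ENNReal.toReal_le_of_le_ofReal zero_le_one (by simpa using h)

theorem tail_Kn (n : ℕ) (hn : 2 ≤ n) (x : ℝ) (hx : 0 < x) :
    ((finalEdges n).toMeasure {j : ℕ | x < j}).toReal ≤
      1000000 * (n : ℝ) ^ 3 * Real.log n / x ^ 2 := by
  have hnR : (2 : ℝ) ≤ n := by exact_mod_cast hn
  have hn0 : (0 : ℝ) < n := by linarith
  have hlog2 : 1 / 2 ≤ Real.log n := by
    have h1 : Real.log 2 ≤ Real.log n := Real.log_le_log (by norm_num) hnR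
    have h2 := Real.log_two_gt_d9
    linarith
  have hn3 : (8 : ℝ) ≤ (n : ℝ) ^ 3 := by
    calc (8 : ℝ) = 2 ^ 3 := by norm_num
      _ ≤ (n : ℝ) ^ 3 := pow_le_pow_left₀ (by norm_num) hnR 3
  by_cases hsmall : x < 63 ∨ x < n + 3
  · refine (real_le_one _).trans ?_
    rw [one_le_div (by positivity)]
    rcases hsmall with h | h
    · have h1 : x ^ 2 ≤ 63 ^ 2 := pow_le_pow_left₀ hx.le h.le 2
      have h2 : 1000000 * 8 * (1 / 2) ≤ 1000000 * (n : ℝ) ^ 3 * Real.log n :=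
        mul_le_mul (by linarith) hlog2 (by norm_num) (by positivity)
      linarith
    · have h1 : x ^ 2 ≤ (5 / 2 * n) ^ 2 := pow_le_pow_left₀ hx.le (by linarith) 2
      have h2 : 1000000 * (2 * (n : ℝ) ^ 2) * (1 / 2) ≤ 1000000 * (n : ℝ) ^ 3 * Real.log n := by
        refine mul_le_mul ?_ hlog2 (by norm_num) (by positivity)
        have : 2 * (n : ℝ) ^ 2 ≤ n * (n : ℝ) ^ 2 := mul_le_mul_of_nonneg_right hnR (by positivity)
        linarith
      have h3 : (5 / 2 * (n : ℝ)) ^ 2 = 25 / 4 * (n : ℝ) ^ 2 := by ring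
      have h4 : 0 < (n : ℝ) ^ 2 := by positivity
      linarith
  push Not at hsmall
  obtain ⟨hx63, hxn⟩ := hsmall
  have hrhs : 0 ≤ 1000000 * (n : ℝ) ^ 3 * Real.log n / x ^ 2 := by positivity
  obtain ⟨N, hN⟩ : ∃ N : ℝ, N = ((n.choose 2 : ℕ) : ℝ) := ⟨_, rfl⟩
  have hNe : N = n * (n - 1) / 2 := by
    rw [hN, Nat.cast_choose_two]
  by_cases hxN : N ≤ x
  · have h0 : (finalEdges n).toMeasure {j : ℕ | x < j} = 0 := by
      refine measure_mono_null ?_ (final_le n)
      intro j hj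
      rw [Set.mem_ofPred_eq] at hj ⊢
      have : ((n.choose 2 : ℕ) : ℝ) < j := by linarith
      exact_mod_cast this
    rw [h0, ENNReal.toReal_zero]
    exact hrhs
  push Not at hxN
  obtain ⟨k, hk⟩ : ∃ k : ℕ, k = ⌈(N - x) / 3⌉₊ := ⟨_, rfl⟩
  have hk1 : (N - x) / 3 ≤ k := by rw [hk]; exact Nat.le_ceil _
  have hk2 : (k : ℝ) < (N - x) / 3 + 1 := by
    rw [hk]; exact Nat.ceil_lt_add_one (by linarith)
  obtain ⟨μ, hμ⟩ : ∃ μ : ℝ, μ = N - 3 * k := ⟨_, rfl⟩
  have hμ1 : μ ≤ x := by rw [hμ]; linarith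
  have hμ2 : x - 3 < μ := by rw [hμ]; linarith
  have hkn : k ≤ n ^ 2 := by
    have h1 : (k : ℝ) < (n : ℝ) ^ 2 := by
      rw [hNe] at hk2
      nlinarith
    exact_mod_cast h1.le
  have hn12 : (12 : ℝ) ≤ n := by
    by_contra hcon
    push Not at hcon
    have : N ≤ 66 := by
      rw [hNe]; nlinarith
    have h11 : (n : ℝ) ≤ 11 := by
      have : n < 12 := by exact_mod_cast hcon
      exact_mod_cast (by omega : n ≤ 11)
    have : N ≤ 55 := by rw [hNe]; nlinarith
    linarith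
  have h1 := final_tail_le n hkn (x := x) (by rw [← hN]; linarith)
  refine h1.trans ?_
  have hnat : 2 ≤ n := hn
  have h2 := tail_hyper (H := Hn n) (M := EF (⊤ : SimpleGraph (Fin n))) (k := k) Hn_lin
    (D0 := (n : ℝ) - 2) (μ := μ) (by linarith)
    (by
      intro e he
      rw [deg_top he, Nat.cast_sub hnat, Nat.cast_ofNat])
    (by linarith) (by linarith) (by rw [card_top, ← hN, hμ]; ring)
  rw [card_top, ← hN] at h2
  refine h2.trans ?_
  have hμ0 : 0 < μ := by linarith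
  have hN0 : 0 < N := by linarith
  have hlog : Real.log (N / μ) ≤ 2 * Real.log n := by
    have h3 : N / μ ≤ (n : ℝ) ^ 2 := by
      rw [div_le_iff₀ hμ0]
      have h4 : N ≤ (n : ℝ) ^ 2 := by rw [hNe]; nlinarith
      have h5 : (n : ℝ) ^ 2 * 1 ≤ (n : ℝ) ^ 2 * μ := mul_le_mul_of_nonneg_left (by linarith) (by positivity)
      linarith
    calc Real.log (N / μ) ≤ Real.log ((n : ℝ) ^ 2) := Real.log_le_log (by positivity) h3
      _ = 2 * Real.log n := by rw [Real.log_pow]; norm_num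
  have hlog1 : 1 ≤ Real.log n := by
    have h3 : Real.exp 1 ≤ n := by
      have := Real.exp_one_lt_d9
      linarith
    calc (1 : ℝ) = Real.log (Real.exp 1) := (Real.log_exp 1).symm
      _ ≤ Real.log n := Real.log_le_log (Real.exp_pos 1) h3
  have hA : 255000 * N ^ 2 / (((n : ℝ) - 2) * μ ^ 2) ≤ 150000 * (n : ℝ) ^ 3 / x ^ 2 := by
    have hn2 : (0 : ℝ) < n - 2 := by linarith
    rw [div_le_div_iff₀ (by positivity) (by positivity)]
    have h3 : N ^ 2 ≤ (n : ℝ) ^ 3 / 2 * (n - 2) := by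
      rw [hNe]
      have h4 : ((n : ℝ) - 1) ^ 2 ≤ 2 * n * (n - 2) := by nlinarith
      have h5 := mul_le_mul_of_nonneg_left h4 (by positivity : 0 ≤ (n : ℝ) ^ 2 / 4)
      have e1 : ((n : ℝ) * (n - 1) / 2) ^ 2 = (n : ℝ) ^ 2 / 4 * (n - 1) ^ 2 := by ring
      have e2 : (n : ℝ) ^ 3 / 2 * (n - 2) = (n : ℝ) ^ 2 / 4 * (2 * n * (n - 2)) := by ring
      rw [e1, e2]; exact h5
    have h6 : x ≤ 21 / 20 * μ := by linarith
    have h7 : x ^ 2 ≤ (21 / 20 * μ) ^ 2 := pow_le_pow_left₀ hx.le h6 2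
    have h8 : N ^ 2 * x ^ 2 ≤ ((n : ℝ) ^ 3 / 2 * (n - 2)) * (21 / 20 * μ) ^ 2 :=
      mul_le_mul h3 h7 (by positivity) (by positivity)
    have e3 : ((n : ℝ) ^ 3 / 2 * (n - 2)) * (21 / 20 * μ) ^ 2 =
      441 / 800 * ((n : ℝ) ^ 3 * ((n - 2) * μ ^ 2)) := by ring
    have h9 : 0 ≤ (n : ℝ) ^ 3 * ((n - 2) * μ ^ 2) := by positivity
    have e4 : 255000 * N ^ 2 * x ^ 2 = 255000 * (N ^ 2 * x ^ 2) := by ring
    have e5 : 150000 * (n : ℝ) ^ 3 * ((n - 2) * μ ^ 2) =
      150000 * ((n : ℝ) ^ 3 * ((n - 2) * μ ^ 2)) := by ring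
    rw [e4, e5]
    linarith
  calc 255000 * N ^ 2 / (((n : ℝ) - 2) * μ ^ 2) * (1 + Real.log (N / μ)) ≤
        150000 * (n : ℝ) ^ 3 / x ^ 2 * (3 * Real.log n) := by
        refine mul_le_mul hA (by linarith) ?_ (by positivity)
        have : 0 ≤ Real.log (N / μ) := Real.log_nonneg (by rw [le_div_iff₀ hμ0]; linarith)
        linarith
    _ = 450000 * (n : ℝ) ^ 3 * Real.log n / x ^ 2 := by ring
    _ ≤ 1000000 * (n : ℝ) ^ 3 * Real.log n / x ^ 2 := by
        refine div_le_div_of_nonneg_right ?_ (by positivity)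
        have : 0 ≤ (n : ℝ) ^ 3 * Real.log n := by positivity
        linarith

end Vale.Agent.P046
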