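import Vale.Agent.P046.Lower4
import Vale.Agent.P046.Potential2
import Vale.Agent.P046.Tail

/-!
The lower bound for the triangle removal process: structure of `K_n` and link to the process.
-/

namespace Vale.Agent.P046

open Finset MeasureTheory
open scoped ENNReal

variable {n : ℕ}

theorem Es_eq_empty {t : Finset (Fin n)} (h : t.card ≤ 1) : Es t = ∅ := by
  rw [← card_eq_zero, card_Es, Nat.choose_eq_zero_iff]
  omega

theorem Hn_NS : NS (Hn n) := by
  intro T hT T0 hT0 hd
  obtain ⟨t, ht, rfl⟩ := mem_image.1 hT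
  obtain ⟨t0, ht0, rfl⟩ := mem_image.1 hT0
  have hs := (mem_powersetCard.1 ht).2
  have hs0 := (mem_powersetCard.1 ht0).2
  have h1 : (t ∩ t0).card ≤ 1 := by
    rw [disjoint_iff_inter_eq_empty, Es_inter, ← card_eq_zero, card_Es,
      Nat.choose_eq_zero_iff] at hd
    omega
  have h2 : 1 < (t \ t0).card := by
    have := card_sdiff_add_card_inter t t0
    omega
  obtain ⟨a, ha, b, hb, hab⟩ := one_lt_card.1 h2
  rw [mem_sdiff] at ha hb
  refine ⟨s(a, b), mem_Es.2 ⟨hab, ha.1, hb.1⟩, ?_⟩
  intro T' hT' hx
  obtain ⟨t', ht', rfl⟩ := mem_image.1 hT'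
  have hs' := (mem_powersetCard.1 ht').2
  rw [mem_Es] at hx
  rw [disjoint_iff_inter_eq_empty, Es_inter]
  refine Es_eq_empty ?_
  have h3 : t' ∩ t0 ⊆ t' \ {a, b} := by
    intro c hc
    rw [mem_inter] at hc
    rw [mem_sdiff, mem_insert, mem_singleton]
    refine ⟨hc.1, ?_⟩
    rintro (rfl | rfl)
    · exact ha.2 hc.2
    · exact hb.2 hc.2
  have h4 : (t' \ {a, b}).card = 1 := by
    rw [card_sdiff_of_subset, card_pair hab, hs']
    intro c hc
    rw [mem_insert, mem_singleton] at hc
    rcases hc with rfl | rfl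
    · exact hx.2.1
    · exact hx.2.2
  exact (card_le_card h3).trans h4.le

/-- first run `k1` steps, then use a lower bound from the good states -/
theorem EFv_cost {V : Type*} [DecidableEq V] {H : Finset (Finset V)} (hH : IsLin3 H)
    {g : Finset V → ℝ} {L : ℝ} {μN k' : ℕ}
    (hg : ∀ M : Finset V, M.card = μN → L * (1 - g M) ≤ EFv H k' M) (k1 : ℕ) :
    ∀ M : Finset V, M.card = μN + 3 * k1 → L * (1 - cost H g k1 M) ≤ EFv H (k' + k1) M := by
  induction k1 with
  | zero => intro M hM; exact hg M hM
  | succ k1 ih =>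
    intro M hM
    rw [← add_assoc]
    unfold cost EFv
    split_ifs with h
    · rw [sub_self, mul_zero]; positivity
    · have hc : 0 < ((sub H M).card : ℝ) := by
        exact_mod_cast card_pos.2 (nonempty_iff_ne_empty.2 h)
      rw [le_div_iff₀ hc]
      have h1 : ∑ T ∈ sub H M, L * (1 - cost H g k1 (M \ T)) ≤
          ∑ T ∈ sub H M, EFv H (k' + k1) (M \ T) := by
        refine Finset.sum_le_sum fun T hT => ih _ ?_
        have := card_sdiff_of_mem hH hT
        omega
      refine le_trans (le_of_eq ?_) h1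
      rw [← mul_sum, sum_sub_distrib, sum_const, nsmul_eq_mul]
      field_simp

theorem EFv_of_empty {V : Type*} [DecidableEq V] {H : Finset (Finset V)} {M : Finset V}
    (h : sub H M = ∅) (k : ℕ) : EFv H k M = M.card := by
  cases k with
  | zero => rfl
  | succ k => unfold EFv; rw [if_pos h]

open Classical in
theorem tsum_EFv (K : ℕ) : ∀ G : SimpleGraph (Fin n),
    ∑' G', (triRun K G) G' * ((EF G').card : ℝ≥0∞) =
      ENNReal.ofReal (EFv (Hn n) K (EF G)) := by
  induction K with
  | zero =>
    intro G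
    rw [triRun, tsum_eq_single G]
    · rw [PMF.pure_apply, if_pos rfl, one_mul]
      unfold EFv
      rw [ENNReal.ofReal_natCast]
    · intro G' hG'
      rw [PMF.pure_apply, if_neg hG', zero_mul]
  | succ K ih =>
    intro G
    by_cases hne : (G.cliqueFinset 3).Nonempty
    · have hsub : sub (Hn n) (EF G) ≠ ∅ := by
        rw [sub_Hn]
        exact (hne.image _).ne_empty
      have hinj : Set.InjOn Es (G.cliqueFinset 3 : Set (Finset (Fin n))) := by
        intro s hs t ht hst
        rw [mem_coe, SimpleGraph.mem_cliqueFinset_iff, SimpleGraph.isNClique_iff] at hs ht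
        exact Es_inj hs.2 ht.2 hst
      have hcard : (sub (Hn n) (EF G)).card = (G.cliqueFinset 3).card := by
        rw [sub_Hn, card_image_of_injOn hinj]
      rw [EFv, if_neg hsub, hcard]
      have hsum : ∑ T ∈ sub (Hn n) (EF G), EFv (Hn n) K (EF G \ T) =
          ∑ t ∈ G.cliqueFinset 3, EFv (Hn n) K (EF G \ Es t) := by
        rw [sub_Hn, sum_image hinj]
      rw [hsum, triRun, triStep, dif_pos hne, PMF.bind_map]
      have hc : (0 : ℝ) < (G.cliqueFinset 3).card := by exact_mod_cast card_pos.2 hne
      simp only [PMF.bind_apply, ← ENNReal.tsum_mul_right]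
      rw [ENNReal.tsum_comm]
      simp only [mul_assoc, ENNReal.tsum_mul_left, Function.comp_apply, ih]
      rw [tsum_eq_sum (s := G.cliqueFinset 3)]
      · rw [Finset.sum_div, ENNReal.ofReal_sum_of_nonneg]
        · refine Finset.sum_congr rfl fun t ht => ?_
          rw [PMF.uniformOfFinset_apply_of_mem _ ht, edgeFinset_delete, div_eq_inv_mul,
            ENNReal.ofReal_mul (by positivity), ENNReal.ofReal_inv_of_pos hc,
            ENNReal.ofReal_natCast]
        · intro t _
          exact div_nonneg (EFv_nonneg _ _) (Nat.cast_nonneg _)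
      · intro t ht
        rw [PMF.uniformOfFinset_apply_of_notMem _ ht, zero_mul]
    · have hsub : sub (Hn n) (EF G) = ∅ := by
        rw [sub_Hn, not_nonempty_iff_eq_empty.1 hne, image_empty]
      rw [triRun, triStep, dif_neg hne, PMF.pure_bind, ih, EFv_of_empty hsub, EFv_of_empty hsub]

open Classical in
theorem integral_finalEdges (n : ℕ) :
    ∫ k, (k : ℝ) ∂(finalEdges n).toMeasure =
      EFv (Hn n) (n ^ 2) (EF (⊤ : SimpleGraph (Fin n))) := by
  rw [integral_eq_lintegral_of_nonneg_ae (Filter.Eventually.of_forall fun k => Nat.cast_nonneg k)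
    (Measurable.of_discrete.aestronglyMeasurable)]
  rw [lintegral_countable']
  have h1 : ∑' a : ℕ, ENNReal.ofReal (a : ℝ) * (finalEdges n).toMeasure {a} =
      ∑' G' : SimpleGraph (Fin n), (triRun (n ^ 2) ⊤) G' * ((EF G').card : ℝ≥0∞) := by
    have h2 : ∀ a : ℕ, ENNReal.ofReal (a : ℝ) * (finalEdges n).toMeasure {a} =
        ∑' G' : SimpleGraph (Fin n),
          (if a = (EF G').card then (triRun (n ^ 2) ⊤) G' * (a : ℝ≥0∞) else 0) := by
      intro a
      rw [PMF.toMeasure_apply_singleton _ _ (MeasurableSet.of_discrete), finalEdges, PMF.map_apply,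
        ENNReal.ofReal_natCast, ← ENNReal.tsum_mul_left]
      refine tsum_congr fun G' => ?_
      rw [ncard_eq, finalGraph]
      split_ifs
      · rw [mul_comm]
      · rw [mul_zero]
    simp only [h2]
    rw [ENNReal.tsum_comm]
    refine tsum_congr fun G' => ?_
    rw [tsum_eq_single (EF G').card]
    · rw [if_pos rfl]
    · intro a ha
      rw [if_neg ha]
  rw [h1, tsum_EFv, ENNReal.toReal_ofReal (EFv_nonneg _ _)]

end Vale.Agent.P046
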