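import Vale.Agent.P046.Step
import Vale.Agent.P046.Combine

/-!
The supermartingale argument, unrolled as an induction on the number of steps.
-/

namespace Vale.Agent.P046

open Finset

variable {V : Type*} [DecidableEq V] {H : Finset (Finset V)} {M T : Finset V}

/-- probability that the random greedy matching started from `M` gets stuck before `k` steps -/
noncomputable def fail (H : Finset (Finset V)) : ℕ → Finset V → ℝ
  | 0, _ => 0
  | k + 1, M => if sub H M = ∅ then 1 else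
      (∑ T ∈ sub H M, fail H k (M \ T)) / ((sub H M).card : ℝ)

theorem fail_le_one (k : ℕ) : ∀ M, fail H k M ≤ 1 := by
  induction k with
  | zero => intro M; simp [fail]
  | succ k ih =>
    intro M
    unfold fail
    split_ifs with h
    · exact le_rfl
    · have hc : 0 < ((sub H M).card : ℝ) := by
        exact_mod_cast card_pos.2 (nonempty_iff_ne_empty.2 h)
      rw [div_le_one hc]
      calc ∑ T ∈ sub H M, fail H k (M \ T) ≤ ∑ _T ∈ sub H M, (1 : ℝ) :=
            Finset.sum_le_sum fun T _ => ih _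
        _ = _ := by rw [sum_const, nsmul_eq_mul, mul_one]

theorem DD_nonneg : 0 ≤ DD H M := by unfold DD; positivity

theorem W_nonneg' (hH : IsLin3 H) : 0 ≤ W H M := by
  rcases (DD_nonneg (H := H) (M := M)).eq_or_lt with h | h
  · unfold W
    refine Finset.sum_nonneg fun x hx => ?_
    have hm : (0 : ℝ) < M.card := by exact_mod_cast card_pos.2 ⟨x, hx⟩
    have h1 := DD_mul (H := H) hm.ne'
    rw [← h, zero_mul, ← sum_deg hH] at h1
    have h2 := (sum_eq_zero_iff_of_nonneg (s := M) (f := fun x => (deg H M x : ℝ))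
      (fun _ _ => Nat.cast_nonneg _)).1 h1.symm x hx
    rw [h2, ← h]
    simp [Hf, HL]
  · exact W_nonneg h

/-- the potential -/
noncomputable def Lam (κ μ : ℝ) (H : Finset (Finset V)) (M : Finset V) (S : ℝ) : ℝ :=
  al κ μ M.card * max 0 (2 - 16 * S) * W H M + 16 * S +
    16 * ((sub H M).card / Qh κ M.card + S - 1) ^ 2 + cc κ μ M.card

theorem Lam_nonneg {κ μ S : ℝ} (hH : IsLin3 H) (hκ : 0 < κ) (hμ : 0 < μ) (hm : μ ≤ (M.card : ℝ))
    (hS : 0 ≤ S) : 0 ≤ Lam κ μ H M S := by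
  have h1 := al_nonneg (κ := κ) hμ hm
  have h2 := cc_nonneg hκ hμ hm
  have h3 := W_nonneg' (M := M) hH
  have h4 : 0 ≤ max 0 (2 - 16 * S) := le_max_left _ _
  unfold Lam
  positivity

theorem one_le_Lam {κ μ S : ℝ} (hH : IsLin3 H) (hκ : 0 < κ) (hμ : 0 < μ) (hm : μ ≤ (M.card : ℝ))
    (hS : 0 ≤ S) (hbad : 1 ≤ 16 * S ∨ 1 / 4 ≤ |((sub H M).card : ℝ) / Qh κ M.card + S - 1|) :
    1 ≤ Lam κ μ H M S := by
  have h1 := al_nonneg (κ := κ) hμ hm
  have h2 := cc_nonneg hκ hμ hm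
  have h3 := W_nonneg' (M := M) hH
  have h4 : 0 ≤ max 0 (2 - 16 * S) := le_max_left _ _
  have h5 : 0 ≤ al κ μ M.card * max 0 (2 - 16 * S) * W H M := by positivity
  have h6 := sq_nonneg (((sub H M).card : ℝ) / Qh κ M.card + S - 1)
  unfold Lam
  rcases hbad with h | h
  · linarith
  · have h7 : (1 / 4 : ℝ) ^ 2 ≤ |((sub H M).card : ℝ) / Qh κ M.card + S - 1| ^ 2 :=
      pow_le_pow_left₀ (by norm_num) h 2
    rw [sq_abs] at h7
    linarith

/-- the sum over edges of the squared deviation of `Z` -/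
theorem sum_Z {m : ℝ} (hH : IsLin3 H) (hm : (M.card : ℝ) = m) (hm0 : 0 < m)
    (hQ : 0 < ((sub H M).card : ℝ)) (hdeg : ∀ x ∈ M, (deg H M x : ℝ) ≤ m)
    {Q' Z U D : ℝ} (hQ' : 0 < Q') (hZ : |Z - 1| ≤ 1 / 4) (hD : D = DD H M)
    (hU : U = S2 H M - m * D ^ 2) :
    (∑ T ∈ sub H M, (Z + (3 * D + U / (sub H M).card + 2 - sT H M T) / Q' - 1) ^ 2) /
      ((sub H M).card : ℝ) ≤ (Z - 1) ^ 2 + 1 / Q' + (9 * m * D + 4) / Q' ^ 2 +
        3 * m * U / ((sub H M).card * Q' ^ 2) := by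
  set Q : ℝ := ((sub H M).card : ℝ) with hQdef
  have hmD : D * m = 3 * Q := by rw [hD, ← hm]; exact DD_mul (by rw [hm]; exact hm0.ne')
  have hS2 : S2 H M = 3 * Q * D + U := by rw [hU, ← hmD]; ring
  have hpt : ∀ T ∈ sub H M, (Z + (3 * D + U / Q + 2 - sT H M T) / Q' - 1) ^ 2 ≤
      (Z - 1) ^ 2 + 2 * (Z - 1) / Q' * (3 * D + U / Q + 2 - sT H M T) +
        1 / Q' ^ 2 * ((3 * D + U / Q + 2) ^ 2 - 2 * (3 * D + U / Q + 2) * sT H M T +
          3 * m * sT H M T) := by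
    intro T hT
    have h1 : (sT H M T : ℝ) ≤ 3 * m := by
      rw [← hm]; exact sT_le hT hH (by rw [hm]; exact hdeg)
    have h2 : (0 : ℝ) ≤ sT H M T := by positivity
    have h3 : (sT H M T : ℝ) ^ 2 ≤ 3 * m * sT H M T := by nlinarith
    have h4 : (Z + (3 * D + U / Q + 2 - sT H M T) / Q' - 1) ^ 2 =
      (Z - 1) ^ 2 + 2 * (Z - 1) / Q' * (3 * D + U / Q + 2 - sT H M T) +
        1 / Q' ^ 2 * ((3 * D + U / Q + 2) ^ 2 - 2 * (3 * D + U / Q + 2) * sT H M T +
          (sT H M T : ℝ) ^ 2) := by ring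
    rw [h4]
    have h5 : 0 ≤ 1 / Q' ^ 2 := by positivity
    have h6 := mul_le_mul_of_nonneg_left h3 h5
    linarith
  have hsum := Finset.sum_le_sum hpt
  have e : ∑ T ∈ sub H M, ((Z - 1) ^ 2 + 2 * (Z - 1) / Q' * (3 * D + U / Q + 2 - sT H M T) +
        1 / Q' ^ 2 * ((3 * D + U / Q + 2) ^ 2 - 2 * (3 * D + U / Q + 2) * sT H M T +
          3 * m * sT H M T)) =
      Q * ((Z - 1) ^ 2 + 2 * (Z - 1) / Q' * (3 * D + U / Q + 2) +
        1 / Q' ^ 2 * (3 * D + U / Q + 2) ^ 2) +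
      (- (2 * (Z - 1) / Q') + 1 / Q' ^ 2 * (3 * m - 2 * (3 * D + U / Q + 2))) * S2 H M := by
    have h1 : ∀ T ∈ sub H M, ((Z - 1) ^ 2 + 2 * (Z - 1) / Q' * (3 * D + U / Q + 2 - sT H M T) +
        1 / Q' ^ 2 * ((3 * D + U / Q + 2) ^ 2 - 2 * (3 * D + U / Q + 2) * sT H M T +
          3 * m * sT H M T)) =
        ((Z - 1) ^ 2 + 2 * (Z - 1) / Q' * (3 * D + U / Q + 2) +
        1 / Q' ^ 2 * (3 * D + U / Q + 2) ^ 2) +
        (- (2 * (Z - 1) / Q') + 1 / Q' ^ 2 * (3 * m - 2 * (3 * D + U / Q + 2))) * sT H M T := by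
      intro T _; ring
    rw [sum_congr rfl h1, sum_add_distrib, sum_const, nsmul_eq_mul, ← mul_sum, sum_sT]
    rfl
  rw [e] at hsum
  rw [div_le_iff₀ hQ]
  refine hsum.trans ?_
  have hUQ : U / Q * Q = U := by field_simp
  have e2 : Q * ((Z - 1) ^ 2 + 2 * (Z - 1) / Q' * (3 * D + U / Q + 2) +
        1 / Q' ^ 2 * (3 * D + U / Q + 2) ^ 2) +
      (- (2 * (Z - 1) / Q') + 1 / Q' ^ 2 * (3 * m - 2 * (3 * D + U / Q + 2))) * S2 H M =
      Q * ((Z - 1) ^ 2 + 4 * ((Z - 1) / Q') + 1 / Q' ^ 2 * (9 * m * D + 4 + 3 * m * (U / Q)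
        - (3 * D + U / Q) ^ 2)) := by
    have : S2 H M = Q * (3 * D + U / Q) := by rw [hS2]; linarith
    rw [this]; ring
  rw [e2, mul_comm]
  refine mul_le_mul_of_nonneg_right ?_ hQ.le
  have h1 : 4 * ((Z - 1) / Q') ≤ 1 / Q' := by
    rw [← mul_div_assoc]
    refine div_le_div_of_nonneg_right ?_ hQ'.le
    have := (abs_le.1 hZ).2
    linarith
  have h2 : 1 / Q' ^ 2 * (9 * m * D + 4 + 3 * m * (U / Q) - (3 * D + U / Q) ^ 2) ≤
      (9 * m * D + 4) / Q' ^ 2 + 3 * m * U / (Q * Q' ^ 2) := by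
    have h3 : (9 * m * D + 4) / Q' ^ 2 + 3 * m * U / (Q * Q' ^ 2) =
      1 / Q' ^ 2 * (9 * m * D + 4 + 3 * m * (U / Q)) := by field_simp
    rw [h3]
    refine mul_le_mul_of_nonneg_left ?_ (by positivity)
    have := sq_nonneg (3 * D + U / Q)
    linarith
  linarith

theorem fail_le_Lam {κ μ : ℝ} (hH : IsLin3 H) (hκ : 0 < κ) (hμ : 60 ≤ μ)
    (hκμ : 2390 ≤ κ * μ ^ 2) (k : ℕ) :
    ∀ (M : Finset V) (S : ℝ), (M.card : ℝ) = μ + 3 * k → 0 ≤ S →
      (∀ x ∈ M, (deg H M x : ℝ) ≤ μ) → fail H k M ≤ Lam κ μ H M S := by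
  have hμ0 : 0 < μ := by linarith
  induction k with
  | zero =>
    intro M S hM hS hdeg
    unfold fail
    exact Lam_nonneg hH hκ hμ0 (by rw [hM]; simp) hS
  | succ k ih =>
    intro M S hM hS hdeg
    have hk0 : (0 : ℝ) ≤ k := by positivity
    push_cast at hM
    have hmμ : μ ≤ (M.card : ℝ) := by rw [hM]; linarith
    by_cases hbad : 1 ≤ 16 * S ∨ 1 / 4 ≤ |((sub H M).card : ℝ) / Qh κ M.card + S - 1|
    · exact (fail_le_one _ _).trans (one_le_Lam hH hκ hμ0 hmμ hS hbad)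
    push Not at hbad
    obtain ⟨hS1, hZ⟩ := hbad
    obtain ⟨m, hm⟩ : ∃ m : ℝ, m = M.card := ⟨_, rfl⟩
    obtain ⟨Q, hQ⟩ : ∃ Q : ℝ, Q = (sub H M).card := ⟨_, rfl⟩
    rw [← hm] at hM hmμ hZ
    rw [← hQ] at hZ
    have hm3 : μ + 3 ≤ m := by rw [hM]; linarith
    have hm60 : 60 ≤ m := by linarith
    have hm0 : 0 < m := by linarith
    obtain ⟨B, hB⟩ : ∃ B : ℝ, B = κ * (m - 3) * (m - 6) := ⟨_, rfl⟩
    have hBbig : 2043 ≤ B := by rw [hB]; exact Dbar_big hκ hμ hmμ hκμ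
    have hB0 : 0 < B := by linarith
    have hQh : Qh κ m = m * B / 3 := by unfold Qh; rw [hB]; ring
    have hQh' : Qh κ (m - 3) = (m - 9) * B / 3 := by unfold Qh; rw [hB]; ring
    have hQh0 : 0 < Qh κ m := by rw [hQh]; positivity
    have hQh0' : 0 < Qh κ (m - 3) := by
      rw [hQh']; have : 0 < m - 9 := by linarith
      positivity
    obtain ⟨q, hq⟩ : ∃ q : ℝ, q = Q / Qh κ m := ⟨_, rfl⟩
    rw [← hq] at hZ
    have hZ' := abs_lt.1 hZ
    have hq1 : 11 / 16 ≤ q := by linarith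
    have hq2 : q ≤ 5 / 4 := by linarith
    have hQq : Q = q * Qh κ m := by rw [hq]; field_simp
    have hQ0 : 0 < Q := by rw [hQq]; exact mul_pos (by linarith) hQh0
    obtain ⟨D, hD⟩ : ∃ D : ℝ, D = DD H M := ⟨_, rfl⟩
    have hDe : D = 3 * Q / m := by rw [hD, hQ, hm]; rfl
    have hDq : D = q * B := by rw [hDe, hQq, hQh]; field_simp
    have hDbig : 40 ≤ D := by
      have := mul_le_mul hq1 hBbig (by norm_num) (by linarith)
      rw [hDq]; linarith
    obtain ⟨U, hU⟩ : ∃ U : ℝ, U = S2 H M - m * D ^ 2 := ⟨_, rfl⟩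
    have hmc0 : (M.card : ℝ) ≠ 0 := by rw [← hm]; exact hm0.ne'
    have hU0 : 0 ≤ U := by
      rw [hU, hD, hm]; exact U_nonneg hH hmc0
    have hUW : U ≤ W H M := by
      rw [hU, hD, hm]; exact U_le_W hH hmc0 (by rw [← hD]; linarith)
    have hdegm : ∀ x ∈ M, (deg H M x : ℝ) ≤ m := fun x hx => (hdeg x hx).trans hmμ
    have hne : sub H M ≠ ∅ := by
      intro h0; rw [h0] at hQ; simp at hQ; linarith
    obtain ⟨S', hS'⟩ : ∃ S' : ℝ, S' = S + U / (Q * Qh κ (m - 3)) := ⟨_, rfl⟩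
    have hS'0 : 0 ≤ S' := by rw [hS']; positivity
    -- the induction hypothesis for each child
    have hchild : ∀ T ∈ sub H M, fail H k (M \ T) ≤
        al κ μ (m - 3) * max 0 (2 - 16 * S') * W H (M \ T) + 16 * S' +
        16 * (q + S + (3 * D + U / Q + 2 - sT H M T) / Qh κ (m - 3) - 1) ^ 2 + cc κ μ (m - 3) := by
      intro T hT
      have hc : ((M \ T).card : ℝ) = m - 3 := by
        have h3 := card_sdiff_of_mem hH hT
        have : ((M \ T).card : ℝ) + 3 = M.card := by exact_mod_cast h3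
        linarith
      have h1 := ih (M \ T) S' (by rw [hc, hM]; ring) hS'0 (by
        intro x hx
        have h2 := deg_le_of_subset (H := H) (M := M) (M' := M \ T) sdiff_subset x
        have h2' : (deg H (M \ T) x : ℝ) ≤ deg H M x := by exact_mod_cast h2
        exact h2'.trans (hdeg x (mem_sdiff.1 hx).1))
      unfold Lam at h1
      rw [hc] at h1
      have hQT : ((sub H (M \ T)).card : ℝ) = Q - sT H M T + 2 := by
        have h3 := card_sub_sdiff hH hT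
        have h4 := sT_eq hH hT
        have h3' : ((sub H (M \ T)).card : ℝ) + (1 + nb H M T) = (sub H M).card := by
          exact_mod_cast h3
        have h4' : (sT H M T : ℝ) = 3 + nb H M T := by exact_mod_cast h4
        rw [hQ]; linarith
      have hZT : ((sub H (M \ T)).card : ℝ) / Qh κ (m - 3) + S' =
          q + S + (3 * D + U / Q + 2 - sT H M T) / Qh κ (m - 3) := by
        have h5 : q = (Q - 3 * D) / Qh κ (m - 3) := by
          rw [eq_div_iff hQh0'.ne', hDq, hQq, hQh, hQh']; ring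
        have h6 : U / (Q * Qh κ (m - 3)) = (U / Q) / Qh κ (m - 3) := by rw [div_div]
        rw [hQT, hS', h6]
        nth_rewrite 1 [h5]
        ring
      rw [hZT] at h1
      exact h1
    -- averages
    have hWs := W_step hH (by rw [← hm]; exact hm60) (by rw [← hD]; exact hDbig)
      (by rw [← hm]; exact hdegm)
    rw [← hm, ← hD, ← hQ, ← hU] at hWs
    have hAW : (∑ T ∈ sub H M, W H (M \ T)) / Q ≤
        W H M * ((1 - 9 / m + 1200 / (m * D)) + 36 * U / (m * D ^ 2 * (m - 3))) + 1300 * D := by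
      rw [div_le_iff₀ hQ0]
      refine hWs.trans (le_of_eq ?_)
      ring
    have hAZ := sum_Z (Z := q + S) (Q' := Qh κ (m - 3)) hH hm.symm hm0 (by rw [← hQ]; exact hQ0) hdegm
      hQh0' hZ.le hD hU
    rw [← hQ] at hAZ
    have hA := arithA hκ hμ hm3 hκμ hq1 hQq hDe
    have hBt := arithB hκ hμ hm3 hκμ hq1 hq2 hQq hDe
    have hal := al_nonneg (κ := κ) hμ0 (by linarith : μ ≤ m - 3)
    have hA0 : 85 / 100 ≤ 1 - 9 / m + 1200 / (m * D) := by
      have h1 : 9 / m ≤ 9 / 60 := div_le_div_of_nonneg_left (by norm_num) (by norm_num) hm60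
      have h2 : 0 ≤ 1200 / (m * D) := by positivity
      linarith
    have hcomb := combine (a := al κ μ m) hal hq1 hB0 hm60 (by rw [hQq, hQh]) hQh' hDq hA0 hA hBt
      hS hS1 hS' hU0 hUW hAW hAZ
    have hfin : fail H (k + 1) M ≤ al κ μ (m - 3) * max 0 (2 - 16 * S') *
        ((∑ T ∈ sub H M, W H (M \ T)) / Q) + 16 * S' +
        16 * ((∑ T ∈ sub H M, (q + S + (3 * D + U / Q + 2 - sT H M T) / Qh κ (m - 3) - 1) ^ 2) / Q)
        + cc κ μ (m - 3) := by
      rw [fail, if_neg hne, ← hQ, div_le_iff₀ hQ0]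
      refine (Finset.sum_le_sum hchild).trans (le_of_eq ?_)
      have e1 : ∑ T ∈ sub H M, (al κ μ (m - 3) * max 0 (2 - 16 * S') * W H (M \ T) + 16 * S' +
        16 * (q + S + (3 * D + U / Q + 2 - sT H M T) / Qh κ (m - 3) - 1) ^ 2 + cc κ μ (m - 3)) =
        al κ μ (m - 3) * max 0 (2 - 16 * S') * (∑ T ∈ sub H M, W H (M \ T)) + Q * (16 * S') +
        16 * (∑ T ∈ sub H M, (q + S + (3 * D + U / Q + 2 - sT H M T) / Qh κ (m - 3) - 1) ^ 2) +
        Q * cc κ μ (m - 3) := by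
        rw [sum_add_distrib, sum_add_distrib, sum_add_distrib, sum_const, sum_const, nsmul_eq_mul,
          nsmul_eq_mul, ← mul_sum, ← mul_sum, ← hQ]
      rw [e1]
      field_simp
    refine hfin.trans ?_
    unfold Lam
    rw [← hm, ← hQ, ← hq]
    exact hcomb

end Vale.Agent.P046
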