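import Vale.Agent.P046.Hfun

namespace Vale.Agent.P046

theorem taylor_L {d D δ D' : ℝ} (hD : 36 ≤ D) (hd : d ≤ D) (hδ0 : 0 ≤ δ) (hδd : δ ≤ d)
    (hD' : |D' - D| ≤ D / 4) :
    HL (d - δ) D' ≤ HL d D - δ * (6 * d ^ 2 / D - 6 * d) + (D' - D) * (2 * D - 2 * d ^ 3 / D ^ 2)
      + 9 * δ ^ 2 + 9 * (D' - D) ^ 2 := by
  have hD0 : 0 < D := by linarith
  obtain ⟨h1, h2⟩ := abs_le.1 hD'
  set τ := D' - D with hτ
  have hDD : D' = D + τ := by rw [hτ]; ring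
  have hD'p : 0 < D' := by linarith
  have hd0 : 0 ≤ d := hδ0.trans hδd
  rw [hDD] at hD'p ⊢
  have h34 : 3 / 4 * D ≤ D + τ := by linarith
  -- cubic estimate
  have hc : (d - δ) ^ 3 ≤ d ^ 3 - 3 * d ^ 2 * δ + 3 * d * δ ^ 2 := by
    nlinarith [pow_nonneg hδ0 3]
  have e1 : (d - δ) ^ 3 / (D + τ) ≤ (d ^ 3 - 3 * d ^ 2 * δ + 3 * d * δ ^ 2) / (D + τ) :=
    div_le_div_of_nonneg_right hc hD'p.le
  have e2 : (d ^ 3 - 3 * d ^ 2 * δ + 3 * d * δ ^ 2) / (D + τ) =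
      d ^ 3 / D - 3 * d ^ 2 * δ / D - d ^ 3 * τ / D ^ 2 +
      (d ^ 3 * τ ^ 2 / (D ^ 2 * (D + τ)) + 3 * d ^ 2 * δ * τ / (D * (D + τ)) +
        3 * d * δ ^ 2 / (D + τ)) := by
    field_simp; ring
  have f1 : d ^ 3 * τ ^ 2 / (D ^ 2 * (D + τ)) ≤ 4 / 3 * τ ^ 2 := by
    rw [div_le_iff₀ (by positivity)]
    have : d ^ 3 ≤ D ^ 3 := pow_le_pow_left₀ hd0 hd 3
    have h5 : D ^ 3 ≤ 4 / 3 * (D ^ 2 * (D + τ)) := by nlinarith [sq_nonneg D]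
    nlinarith [sq_nonneg τ]
  have f2 : 3 * d ^ 2 * δ * τ / (D * (D + τ)) ≤ 4 * (δ * |τ|) := by
    rw [div_le_iff₀ (by positivity)]
    have h5 : 3 * d ^ 2 ≤ 4 * (D * (D + τ)) := by nlinarith
    calc 3 * d ^ 2 * δ * τ = 3 * d ^ 2 * (δ * τ) := by ring
      _ ≤ 3 * d ^ 2 * (δ * |τ|) := by
        refine mul_le_mul_of_nonneg_left ?_ (by positivity)
        exact mul_le_mul_of_nonneg_left (le_abs_self _) hδ0
      _ ≤ 4 * (D * (D + τ)) * (δ * |τ|) := mul_le_mul_of_nonneg_right h5 (by positivity)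
      _ = 4 * (δ * |τ|) * (D * (D + τ)) := by ring
  have f3 : 3 * d * δ ^ 2 / (D + τ) ≤ 4 * δ ^ 2 := by
    rw [div_le_iff₀ hD'p]
    nlinarith [sq_nonneg δ]
  have f4 : δ * |τ| ≤ (δ ^ 2 + τ ^ 2) / 2 := by
    nlinarith [sq_nonneg (δ - |τ|), sq_abs τ]
  unfold HL
  have e3 : 2 * (d - δ) ^ 3 / (D + τ) = 2 * ((d - δ) ^ 3 / (D + τ)) := by ring
  have e4 : 2 * d ^ 3 / D = 2 * (d ^ 3 / D) := by ring
  have e5 : δ * (6 * d ^ 2 / D - 6 * d) = 2 * (3 * d ^ 2 * δ / D) - 6 * d * δ := by ring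
  have e6 : τ * (2 * D - 2 * d ^ 3 / D ^ 2) = 2 * D * τ - 2 * (d ^ 3 * τ / D ^ 2) := by ring
  rw [e3, e4, e5, e6]
  nlinarith [sq_nonneg δ, sq_nonneg τ]

theorem taylor_R {d D δ D' : ℝ} (hD : 36 ≤ D) (hd : D ≤ d) (hδ0 : 0 ≤ δ) (hδ3 : δ ≤ 3)
    (hD' : |D' - D| ≤ D / 4) :
    HR (d - δ) D' ≤ HR d D - δ * (2 * d - 2 * D ^ 3 / d ^ 2) + (D' - D) * (6 * D ^ 2 / d - 6 * D)
      + 9 * δ ^ 2 + 9 * (D' - D) ^ 2 := by
  have hD0 : 0 < D := by linarith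
  have hd0 : 0 < d := by linarith
  obtain ⟨h1, h2⟩ := abs_le.1 hD'
  set τ := D' - D with hτ
  have hDD : D' = D + τ := by rw [hτ]; ring
  rw [hDD]
  have hdd : 11 / 12 * d ≤ d - δ := by linarith
  have hdp : 0 < d - δ := by linarith
  have e2 : (D + τ) ^ 3 / (d - δ) =
      D ^ 3 / d + 3 * D ^ 2 * τ / d + D ^ 3 * δ / d ^ 2 +
      (D ^ 3 * δ ^ 2 / (d ^ 2 * (d - δ)) + 3 * D ^ 2 * τ * δ / (d * (d - δ)) +
        (3 * D + τ) * τ ^ 2 / (d - δ)) := by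
    field_simp; ring
  have f1 : D ^ 3 * δ ^ 2 / (d ^ 2 * (d - δ)) ≤ 12 / 11 * δ ^ 2 := by
    rw [div_le_iff₀ (by positivity)]
    have : D ^ 3 ≤ d ^ 3 := pow_le_pow_left₀ hD0.le hd 3
    have h5 : d ^ 3 ≤ 12 / 11 * (d ^ 2 * (d - δ)) := by nlinarith [sq_nonneg d]
    nlinarith [sq_nonneg δ]
  have f2 : 3 * D ^ 2 * τ * δ / (d * (d - δ)) ≤ 4 * (δ * |τ|) := by
    rw [div_le_iff₀ (by positivity)]
    have h5 : 3 * D ^ 2 ≤ 4 * (d * (d - δ)) := by nlinarith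
    calc 3 * D ^ 2 * τ * δ = 3 * D ^ 2 * (δ * τ) := by ring
      _ ≤ 3 * D ^ 2 * (δ * |τ|) := by
        refine mul_le_mul_of_nonneg_left ?_ (by positivity)
        exact mul_le_mul_of_nonneg_left (le_abs_self _) hδ0
      _ ≤ 4 * (d * (d - δ)) * (δ * |τ|) := mul_le_mul_of_nonneg_right h5 (by positivity)
      _ = 4 * (δ * |τ|) * (d * (d - δ)) := by ring
  have f3 : (3 * D + τ) * τ ^ 2 / (d - δ) ≤ 4 * τ ^ 2 := by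
    rw [div_le_iff₀ hdp]
    have h5 : 3 * D + τ ≤ 4 * (d - δ) := by linarith
    nlinarith [sq_nonneg τ]
  have f4 : δ * |τ| ≤ (δ ^ 2 + τ ^ 2) / 2 := by
    nlinarith [sq_nonneg (δ - |τ|), sq_abs τ]
  unfold HR
  have e3 : 2 * (D + τ) ^ 3 / (d - δ) = 2 * ((D + τ) ^ 3 / (d - δ)) := by ring
  have e4 : 2 * D ^ 3 / d = 2 * (D ^ 3 / d) := by ring
  have e5 : δ * (2 * d - 2 * D ^ 3 / d ^ 2) = 2 * d * δ - 2 * (D ^ 3 * δ / d ^ 2) := by ring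
  have e6 : τ * (6 * D ^ 2 / d - 6 * D) = 2 * (3 * D ^ 2 * τ / d) - 6 * D * τ := by ring
  rw [e3, e4, e5, e6, e2]
  nlinarith [sq_nonneg δ, sq_nonneg τ]

theorem taylor {d D δ D' : ℝ} (hD : 36 ≤ D) (hδ0 : 0 ≤ δ) (hδ3 : δ ≤ 3) (hδd : δ ≤ d)
    (hD' : |D' - D| ≤ D / 4) :
    Hf (d - δ) D' ≤ Hf d D - δ * Hd d D + (D' - D) * HD d D + 9 * δ ^ 2 + 9 * (D' - D) ^ 2 := by
  have hD'p : 0 < D' := by
    obtain ⟨h1, h2⟩ := abs_le.1 hD'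
    linarith
  by_cases h : d ≤ D
  · refine (Hf_le_HL (by linarith) hD'p).trans ?_
    have := taylor_L hD h hδ0 hδd hD'
    unfold Hf Hd HD
    rw [if_pos h, if_pos h, if_pos h]
    exact this
  · have h' : D ≤ d := (not_le.1 h).le
    refine (Hf_le_HR (by linarith) hD'p).trans ?_
    have := taylor_R hD h' hδ0 hδ3 hD'
    unfold Hf Hd HD
    rw [if_neg h, if_neg h, if_neg h]
    exact this

end Vale.Agent.P046
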