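import Vale.Agent.P046.Hyper
import Vale.Agent.P046.Ineq
import Vale.Agent.P046.Taylor
import Vale.Agent.P046.Arith

/-!
The one-step inequality for the energy `W`.
-/

namespace Vale.Agent.P046

open Finset

variable {V : Type*} [DecidableEq V] {H : Finset (Finset V)} {M T : Finset V}

/-- average degree -/
noncomputable def DD (H : Finset (Finset V)) (M : Finset V) : ℝ :=
  3 * ((sub H M).card : ℝ) / (M.card : ℝ)

noncomputable def S2 (H : Finset (Finset V)) (M : Finset V) : ℝ := ∑ x ∈ M, (deg H M x : ℝ) ^ 2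

/-- the energy -/
noncomputable def W (H : Finset (Finset V)) (M : Finset V) : ℝ :=
  ∑ x ∈ M, Hf (deg H M x) (DD H M)

noncomputable def Y (H : Finset (Finset V)) (M : Finset V) : ℝ :=
  ∑ x ∈ M, HD (deg H M x) (DD H M)

theorem DD_mul (hm : (M.card : ℝ) ≠ 0) : DD H M * M.card = 3 * (sub H M).card := by
  unfold DD; field_simp

theorem DD_sdiff (hH : IsLin3 H) (hT : T ∈ sub H M) (hm : 3 < (M.card : ℝ)) :
    DD H (M \ T) - DD H M = 3 / (M.card - 3) * (DD H M + 2 - sT H M T) := by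
  have h1 := card_sub_sdiff hH hT
  have h2 := sT_eq hH hT
  have h3 := card_sdiff_of_mem hH hT
  have h1' : ((sub H (M \ T)).card : ℝ) = (sub H M).card - sT H M T + 2 := by
    have : ((sub H (M \ T)).card : ℝ) + (1 + nb H M T) = (sub H M).card := by exact_mod_cast h1
    have h4 : (sT H M T : ℝ) = 3 + nb H M T := by exact_mod_cast h2
    linarith
  have h3' : ((M \ T).card : ℝ) = M.card - 3 := by
    have : ((M \ T).card : ℝ) + 3 = M.card := by exact_mod_cast h3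
    linarith
  have hm3 : (M.card : ℝ) - 3 ≠ 0 := by linarith
  have hm0 : (M.card : ℝ) ≠ 0 := by linarith
  have hD := DD_mul (H := H) hm0
  unfold DD at hD ⊢
  rw [h1', h3']
  field_simp
  ring

theorem sT_le (hT : T ∈ sub H M) (hH : IsLin3 H) (hdeg : ∀ x ∈ M, (deg H M x : ℝ) ≤ M.card) :
    (sT H M T : ℝ) ≤ 3 * M.card := by
  unfold sT
  push_cast
  calc ∑ x ∈ T, (deg H M x : ℝ) ≤ ∑ _x ∈ T, (M.card : ℝ) :=
        Finset.sum_le_sum fun x hx => hdeg x ((mem_sub.1 hT).2 hx)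
    _ = 3 * M.card := by rw [sum_const, hH.card3 T (mem_sub.1 hT).1, nsmul_eq_mul]; norm_num

theorem DD_le (hH : IsLin3 H) (hdeg : ∀ x ∈ M, (deg H M x : ℝ) ≤ M.card) (hm : 0 < (M.card : ℝ)) :
    DD H M ≤ M.card := by
  unfold DD
  rw [div_le_iff₀ hm, ← sum_deg hH]
  calc ∑ x ∈ M, (deg H M x : ℝ) ≤ ∑ _x ∈ M, (M.card : ℝ) := Finset.sum_le_sum hdeg
    _ = M.card * M.card := by rw [sum_const, nsmul_eq_mul]

/-- noise per step -/
noncomputable def noise (m D s : ℝ) : ℝ :=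
  54 * D / (m - 3) * (s + D + 2) + 54 * s + 81 / (m - 3) * (3 * m * s + (D + 2) ^ 2)

theorem W_sdiff_le (hH : IsLin3 H) (hT : T ∈ sub H M) (hm : 60 ≤ (M.card : ℝ))
    (hD : 40 ≤ DD H M) (hdeg : ∀ x ∈ M, (deg H M x : ℝ) ≤ M.card) :
    W H (M \ T) ≤ W H M - ∑ x ∈ T, Hf (deg H M x) (DD H M)
      - ∑ x ∈ M \ T, (dl H M T x : ℝ) * Hd (deg H M x) (DD H M)
      + 3 / (M.card - 3) * (DD H M + 2 - sT H M T) * Y H M
      + noise M.card (DD H M) (sT H M T) := by
  set m : ℝ := (M.card : ℝ) with hmdef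
  set D := DD H M with hDdef
  set s : ℝ := (sT H M T : ℝ) with hs
  set τ := DD H (M \ T) - D with hτ
  have hτe : τ = 3 / (m - 3) * (D + 2 - s) := DD_sdiff hH hT (by linarith)
  have hsle : s ≤ 3 * m := sT_le hT hH hdeg
  have hs0 : 0 ≤ s := by rw [hs]; positivity
  have hDm : D ≤ m := DD_le hH hdeg (by linarith)
  have hm3 : 0 < m - 3 := by linarith
  have hD0 : 0 < D := by linarith
  have hτabs : |τ| ≤ D / 4 := by
    rw [hτe, abs_mul, abs_of_pos (by positivity), div_mul_eq_mul_div, div_le_iff₀ hm3]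
    have h1 : |D + 2 - s| ≤ 3 * m := by rw [abs_le]; constructor <;> linarith
    nlinarith
  have hDD' : DD H (M \ T) = D + τ := by rw [hτ]; ring
  have hTM := (mem_sub.1 hT).2
  -- pointwise
  have hpt : ∀ x ∈ M \ T, Hf (deg H (M \ T) x) (DD H (M \ T)) ≤
      Hf (deg H M x) D - (dl H M T x : ℝ) * Hd (deg H M x) D + τ * HD (deg H M x) D +
        27 * (dl H M T x : ℝ) + 9 * τ ^ 2 := by
    intro x hx
    rw [mem_sdiff] at hx
    have h1 := deg_sdiff (H := H) (M := M) T x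
    have h1' : (deg H (M \ T) x : ℝ) = deg H M x - dl H M T x := by
      have : (deg H (M \ T) x : ℝ) + dl H M T x = deg H M x := by exact_mod_cast h1
      linarith
    have h2 : (dl H M T x : ℝ) ≤ 3 := by exact_mod_cast dl_le hH hT hx.2
    have h3 : (dl H M T x : ℝ) ≤ deg H M x := by
      have : dl H M T x ≤ deg H M x := by omega
      exact_mod_cast this
    have h0 : (0 : ℝ) ≤ dl H M T x := by positivity
    have h4 := taylor (d := deg H M x) (D := D) (δ := dl H M T x) (D' := DD H (M \ T))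
      (by linarith) h0 h2 h3 (by rw [← hτ]; exact hτabs)
    rw [← h1', ← hτ] at h4
    nlinarith
  have hsum : W H (M \ T) ≤ ∑ x ∈ M \ T, (Hf (deg H M x) D - (dl H M T x : ℝ) * Hd (deg H M x) D +
      τ * HD (deg H M x) D + 27 * (dl H M T x : ℝ) + 9 * τ ^ 2) := Finset.sum_le_sum hpt
  have hsplit : ∑ x ∈ M \ T, (Hf (deg H M x) D - (dl H M T x : ℝ) * Hd (deg H M x) D +
      τ * HD (deg H M x) D + 27 * (dl H M T x : ℝ) + 9 * τ ^ 2) =
      (W H M - ∑ x ∈ T, Hf (deg H M x) D) - ∑ x ∈ M \ T, (dl H M T x : ℝ) * Hd (deg H M x) D +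
      τ * (Y H M - ∑ x ∈ T, HD (deg H M x) D) + 27 * ∑ x ∈ M \ T, (dl H M T x : ℝ) +
      (m - 3) * (9 * τ ^ 2) := by
    have h1 : ∑ x ∈ M \ T, Hf (deg H M x) D = W H M - ∑ x ∈ T, Hf (deg H M x) D := by
      rw [eq_sub_iff_add_eq]; exact sum_sdiff hTM
    have h2 : ∑ x ∈ M \ T, HD (deg H M x) D = Y H M - ∑ x ∈ T, HD (deg H M x) D := by
      rw [eq_sub_iff_add_eq]; exact sum_sdiff hTM
    have h3 : ((M \ T).card : ℝ) = m - 3 := by
      have h3 := card_sdiff_of_mem hH hT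
      have : ((M \ T).card : ℝ) + 3 = M.card := by exact_mod_cast h3
      linarith
    rw [sum_add_distrib, sum_add_distrib, sum_add_distrib, sum_sub_distrib, ← mul_sum, ← mul_sum,
      sum_const, nsmul_eq_mul, h1, h2, h3]
  have hdl : ∑ x ∈ M \ T, (dl H M T x : ℝ) ≤ 2 * s := by
    have h1 := sum_dl hH hT
    have h2 := sT_eq hH hT
    have h1' : ∑ x ∈ M \ T, (dl H M T x : ℝ) = 2 * nb H M T := by exact_mod_cast h1
    have h2' : s = 3 + nb H M T := by rw [hs]; exact_mod_cast h2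
    rw [h1', h2']; linarith
  have hHD : |∑ x ∈ T, HD (deg H M x) D| ≤ 18 * D := by
    calc _ ≤ ∑ x ∈ T, |HD (deg H M x) D| := abs_sum_le_sum_abs _ _
      _ ≤ ∑ _x ∈ T, 6 * D := Finset.sum_le_sum fun x _ => HD_le (by positivity) hD0
      _ = 18 * D := by rw [sum_const, hH.card3 T (mem_sub.1 hT).1, nsmul_eq_mul]; push_cast; ring
  have hτ1 : |τ| ≤ 3 / (m - 3) * (s + D + 2) := by
    rw [hτe, abs_mul, abs_of_pos (by positivity)]
    refine mul_le_mul_of_nonneg_left ?_ (by positivity)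
    rw [abs_le]; constructor <;> linarith
  have hterm1 : -(τ * ∑ x ∈ T, HD (deg H M x) D) ≤ 54 * D / (m - 3) * (s + D + 2) := by
    calc -(τ * ∑ x ∈ T, HD (deg H M x) D) ≤ |τ * ∑ x ∈ T, HD (deg H M x) D| := neg_le_abs _
      _ = |τ| * |∑ x ∈ T, HD (deg H M x) D| := abs_mul _ _
      _ ≤ (3 / (m - 3) * (s + D + 2)) * (18 * D) := mul_le_mul hτ1 hHD (abs_nonneg _) (by positivity)
      _ = 54 * D / (m - 3) * (s + D + 2) := by ring
  have hterm2 : (m - 3) * (9 * τ ^ 2) ≤ 81 / (m - 3) * (3 * m * s + (D + 2) ^ 2) := by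
    have h1 : (D + 2 - s) ^ 2 ≤ 3 * m * s + (D + 2) ^ 2 := by nlinarith
    have h2 : (m - 3) * (9 * τ ^ 2) = 81 / (m - 3) * (D + 2 - s) ^ 2 := by
      rw [hτe]; field_simp; ring
    rw [h2]
    exact mul_le_mul_of_nonneg_left h1 (by positivity)
  rw [hsplit] at hsum
  unfold noise
  rw [← hτe]
  linarith

theorem sum_sub_dev (hH : IsLin3 H) (hm : (M.card : ℝ) ≠ 0) :
    ∑ x ∈ M, ((deg H M x : ℝ) - DD H M) = 0 := by
  rw [sum_sub_distrib, sum_const, nsmul_eq_mul, sum_deg hH, mul_comm (M.card : ℝ), DD_mul hm,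
    sub_self]

theorem sum_sq_dev (hH : IsLin3 H) (hm : (M.card : ℝ) ≠ 0) :
    ∑ x ∈ M, ((deg H M x : ℝ) - DD H M) ^ 2 = S2 H M - M.card * DD H M ^ 2 := by
  have h1 : ∀ x ∈ M, ((deg H M x : ℝ) - DD H M) ^ 2 =
      (deg H M x : ℝ) ^ 2 - 2 * DD H M * ((deg H M x : ℝ) - DD H M) - DD H M ^ 2 := by
    intro x _; ring
  rw [sum_congr rfl h1, sum_sub_distrib, sum_sub_distrib, ← mul_sum, sum_sub_dev hH hm, sum_const,
    nsmul_eq_mul, S2]
  ring

theorem U_nonneg (hH : IsLin3 H) (hm : (M.card : ℝ) ≠ 0) : 0 ≤ S2 H M - M.card * DD H M ^ 2 := by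
  rw [← sum_sq_dev hH hm]; exact sum_nonneg fun _ _ => sq_nonneg _

theorem U_le_W (hH : IsLin3 H) (hm : (M.card : ℝ) ≠ 0) (hD : 0 < DD H M) :
    S2 H M - M.card * DD H M ^ 2 ≤ W H M := by
  rw [← sum_sq_dev hH hm]
  exact sum_le_sum fun x _ => sq_le_Hf (by positivity) hD

theorem W_nonneg (hD : 0 < DD H M) : 0 ≤ W H M :=
  sum_nonneg fun x _ => Hf_nonneg (by positivity) hD

/-- the triple inequality on an edge -/
theorem edge_ineq (hH : IsLin3 H) (hT : T ∈ sub H M) (hD : 0 < DD H M) :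
    ∑ x ∈ T, ((2 * DD H M - 2) * Hd (deg H M x) (DD H M) -
      DD H M * (Hf (deg H M x) (DD H M) / deg H M x)) ≤
    ∑ x ∈ T, (Hf (deg H M x) (DD H M) +
      ((sT H M T : ℝ) - deg H M x - 2) * Hd (deg H M x) (DD H M)) := by
  have hpos : ∀ x ∈ T, (0 : ℝ) < deg H M x := by
    intro x hx
    have : 0 < deg H M x := by
      unfold deg; exact card_pos.2 ⟨T, mem_filter.2 ⟨hT, hx⟩⟩
    exact_mod_cast this
  have hs : (sT H M T : ℝ) = ∑ x ∈ T, (deg H M x : ℝ) := by unfold sT; push_cast; rfl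
  obtain ⟨a, b, c, hab, hac, hbc, hTe⟩ := card_eq_three.1 (hH.card3 T (mem_sub.1 hT).1)
  have ha : (0 : ℝ) < deg H M a := hpos a (by rw [hTe]; simp)
  have hb : (0 : ℝ) < deg H M b := hpos b (by rw [hTe]; simp)
  have hc : (0 : ℝ) < deg H M c := hpos c (by rw [hTe]; simp)
  have h := triple_ineq ha hb hc hD
  have hnot : a ∉ ({b, c} : Finset V) := by simp [hab, hac]
  have hnot2 : b ∉ ({c} : Finset V) := by simp [hbc]
  rw [hs, hTe, sum_insert hnot, sum_insert hnot2, sum_singleton, sum_insert hnot, sum_insert hnot2,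
    sum_singleton, sum_insert hnot, sum_insert hnot2, sum_singleton]
  have ea : Hf (deg H M a) (DD H M) * (1 + DD H M / deg H M a) =
      Hf (deg H M a) (DD H M) + DD H M * (Hf (deg H M a) (DD H M) / deg H M a) := by ring
  have eb : Hf (deg H M b) (DD H M) * (1 + DD H M / deg H M b) =
      Hf (deg H M b) (DD H M) + DD H M * (Hf (deg H M b) (DD H M) / deg H M b) := by ring
  have ec : Hf (deg H M c) (DD H M) * (1 + DD H M / deg H M c) =
      Hf (deg H M c) (DD H M) + DD H M * (Hf (deg H M c) (DD H M) / deg H M c) := by ring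
  rw [ea, eb, ec] at h
  nlinarith

theorem W_step (hH : IsLin3 H) (hm : 60 ≤ (M.card : ℝ)) (hD : 40 ≤ DD H M)
    (hdeg : ∀ x ∈ M, (deg H M x : ℝ) ≤ M.card) :
    ∑ T ∈ sub H M, W H (M \ T) ≤ ((sub H M).card : ℝ) *
      (W H M * (1 - 9 / M.card + 1200 / (M.card * DD H M) +
        36 * (S2 H M - M.card * DD H M ^ 2) / (M.card * DD H M ^ 2 * (M.card - 3))) +
        1300 * DD H M) := by
  have hsum := Finset.sum_le_sum fun T hT => W_sdiff_le (T := T) hH hT hm hD hdeg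
  have hm0 : (M.card : ℝ) ≠ 0 := by linarith
  have hD0 : 0 < DD H M := by linarith
  have hU0 := U_nonneg hH hm0
  have hUW := U_le_W hH hm0 hD0
  have hDm : DD H M ≤ M.card := DD_le hH hdeg (by linarith)
  have hQ := DD_mul (H := H) hm0
  have hdev := sum_sub_dev hH hm0
  -- edge inequality summed
  have hedge : ∑ T ∈ sub H M, (∑ x ∈ T, Hf (deg H M x) (DD H M) +
      ∑ x ∈ M \ T, (dl H M T x : ℝ) * Hd (deg H M x) (DD H M)) ≥
      (2 * DD H M - 2) * ∑ x ∈ M, (deg H M x : ℝ) * Hd (deg H M x) (DD H M) -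
        DD H M * W H M := by
    have e1 : ∑ T ∈ sub H M, (∑ x ∈ T, Hf (deg H M x) (DD H M) +
      ∑ x ∈ M \ T, (dl H M T x : ℝ) * Hd (deg H M x) (DD H M)) =
      ∑ T ∈ sub H M, ∑ x ∈ T, (Hf (deg H M x) (DD H M) +
      ((sT H M T : ℝ) - deg H M x - 2) * Hd (deg H M x) (DD H M)) := by
      rw [sum_add_distrib, sum_sub_sum_dl hH (fun x => Hd (deg H M x) (DD H M)), ← sum_add_distrib]
      exact sum_congr rfl fun T _ => (sum_add_distrib).symm
    rw [e1, ge_iff_le]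
    refine le_trans ?_ (Finset.sum_le_sum fun T hT => edge_ineq hH hT hD0)
    have e2 : ∑ T ∈ sub H M, ∑ x ∈ T, ((2 * DD H M - 2) * Hd (deg H M x) (DD H M) -
      DD H M * (Hf (deg H M x) (DD H M) / deg H M x)) =
      (2 * DD H M - 2) * ∑ x ∈ M, (deg H M x : ℝ) * Hd (deg H M x) (DD H M) -
      DD H M * ∑ x ∈ M, (deg H M x : ℝ) * (Hf (deg H M x) (DD H M) / deg H M x) := by
      rw [sum_sub_sum]
      rw [mul_sum, mul_sum, ← sum_sub_distrib]
      exact sum_congr rfl fun x _ => by ring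
    rw [e2]
    have e3 : ∑ x ∈ M, (deg H M x : ℝ) * (Hf (deg H M x) (DD H M) / deg H M x) ≤ W H M := by
      refine Finset.sum_le_sum fun x _ => ?_
      by_cases h0 : (deg H M x : ℝ) = 0
      · rw [h0]; simp only [zero_mul]; exact Hf_nonneg le_rfl hD0
      · rw [mul_div_cancel₀ _ h0]
    have := mul_le_mul_of_nonneg_left e3 hD0.le
    linarith
  -- Euler
  have heuler : ∑ x ∈ M, (deg H M x : ℝ) * Hd (deg H M x) (DD H M) + DD H M * Y H M =
      2 * W H M := by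
    unfold Y W
    rw [mul_sum, mul_sum, ← sum_add_distrib]
    exact sum_congr rfl fun x _ => euler (by positivity) hD0
  have hY : -(DD H M * Y H M) ≤ 4 * W H M := by
    have h1 : ∑ x ∈ M, -(DD H M * HD (deg H M x) (DD H M)) ≤
        ∑ x ∈ M, (4 * Hf (deg H M x) (DD H M) + 6 * DD H M * ((deg H M x : ℝ) - DD H M)) :=
      Finset.sum_le_sum fun x _ => neg_DHD_le (by positivity) hD0
    rw [sum_neg_distrib, ← mul_sum, sum_add_distrib, ← mul_sum, ← mul_sum, hdev, mul_zero,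
      add_zero] at h1
    exact h1
  -- sum of the right side
  have hrhs : ∑ T ∈ sub H M, (W H M - ∑ x ∈ T, Hf (deg H M x) (DD H M)
      - ∑ x ∈ M \ T, (dl H M T x : ℝ) * Hd (deg H M x) (DD H M)
      + 3 / (M.card - 3) * (DD H M + 2 - sT H M T) * Y H M
      + noise M.card (DD H M) (sT H M T)) =
      (sub H M).card * W H M - ∑ T ∈ sub H M, (∑ x ∈ T, Hf (deg H M x) (DD H M) +
      ∑ x ∈ M \ T, (dl H M T x : ℝ) * Hd (deg H M x) (DD H M)) +
      3 / (M.card - 3) * ((sub H M).card * (DD H M + 2) - S2 H M) * Y H M +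
      (54 * DD H M / (M.card - 3) * (S2 H M + (sub H M).card * (DD H M + 2)) + 54 * S2 H M +
        81 / (M.card - 3) * (3 * M.card * S2 H M + (sub H M).card * (DD H M + 2) ^ 2)) := by
    have h1 : ∀ T ∈ sub H M, (W H M - ∑ x ∈ T, Hf (deg H M x) (DD H M)
      - ∑ x ∈ M \ T, (dl H M T x : ℝ) * Hd (deg H M x) (DD H M)
      + 3 / (M.card - 3) * (DD H M + 2 - sT H M T) * Y H M
      + noise M.card (DD H M) (sT H M T)) =
      (W H M + 3 / (M.card - 3) * (DD H M + 2) * Y H M + 54 * DD H M / (M.card - 3) * (DD H M + 2) +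
        81 / (M.card - 3) * (DD H M + 2) ^ 2) -
      (∑ x ∈ T, Hf (deg H M x) (DD H M) +
        ∑ x ∈ M \ T, (dl H M T x : ℝ) * Hd (deg H M x) (DD H M)) +
      (-(3 / (M.card - 3) * Y H M) + 54 * DD H M / (M.card - 3) + 54 +
        81 / (M.card - 3) * (3 * M.card)) * (sT H M T : ℝ) := by
      intro T _; unfold noise; ring
    rw [sum_congr rfl h1, sum_add_distrib, sum_sub_distrib, sum_const, nsmul_eq_mul, ← mul_sum,
      sum_sT]
    unfold S2
    ring
  rw [hrhs] at hsum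
  exact arith_step hm hD hDm hQ hU0 hUW rfl hedge heuler hY hsum

end Vale.Agent.P046
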